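import Vale.Agent.P137.Fub

/-! P137, module A: slices of functions with an integrable weak derivative in the first variable. -/

open MeasureTheory ENNReal Set

namespace P137.AC

/-- smooth step from `p` to `q` -/
noncomputable def stp (p q x : ℝ) : ℝ := Real.smoothTransition ((x - p) / (q - p))

theorem stp_contDiff (p q : ℝ) : ContDiff ℝ (⊤ : ℕ∞) (stp p q) := by
  unfold stp
  exact Real.smoothTransition.contDiff.comp ((contDiff_id.sub contDiff_const).div_const _)

theorem stp_mono {p q : ℝ} (h : p < q) : Monotone (stp p q) := by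
  intro x y hxy
  unfold stp
  apply Real.smoothTransition.monotone
  have : 0 < q - p := by linarith
  gcongr

theorem stp_zero {p q x : ℝ} (h : p < q) (hx : x ≤ p) : stp p q x = 0 := by
  unfold stp
  apply Real.smoothTransition.zero_of_nonpos
  apply div_nonpos_of_nonpos_of_nonneg <;> linarith

theorem stp_one {p q x : ℝ} (h : p < q) (hx : q ≤ x) : stp p q x = 1 := by
  unfold stp
  apply Real.smoothTransition.one_of_one_le
  rw [le_div_iff₀ (by linarith)]
  linarith

theorem stp_nonneg (p q x : ℝ) : 0 ≤ stp p q x := Real.smoothTransition.nonneg _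

theorem stp_le_one (p q x : ℝ) : stp p q x ≤ 1 := Real.smoothTransition.le_one _

theorem stp_deriv_nonneg {p q : ℝ} (h : p < q) (x : ℝ) : 0 ≤ deriv (stp p q) x :=
  (stp_mono h).deriv_nonneg

theorem stp_deriv_zero {p q x : ℝ} (h : p < q) (hx : x ∉ Icc p q) : deriv (stp p q) x = 0 := by
  rw [mem_Icc, not_and_or, not_le, not_le] at hx
  rcases hx with hx | hx
  · have : stp p q =ᶠ[nhds x] fun _ => 0 := by
      filter_upwards [Iio_mem_nhds hx] with y hy
      exact stp_zero h (le_of_lt hy)
    rw [this.deriv_eq]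
    simp
  · have : stp p q =ᶠ[nhds x] fun _ => 1 := by
      filter_upwards [Ioi_mem_nhds hx] with y hy
      exact stp_one h (le_of_lt hy)
    rw [this.deriv_eq]
    simp

theorem stp_deriv_cont (p q : ℝ) : Continuous (deriv (stp p q)) :=
  (stp_contDiff p q).continuous_deriv (by simp)

theorem stp_deriv_supp {p q : ℝ} (h : p < q) : HasCompactSupport (deriv (stp p q)) := by
  apply HasCompactSupport.intro (isCompact_Icc (a := p) (b := q))
  intro x hx
  exact stp_deriv_zero h hx

theorem stp_int {p q : ℝ} (h : p < q) : ∫ x, deriv (stp p q) x = 1 := by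
  have h1 : ∫ x, deriv (stp p q) x = ∫ x in Icc p q, deriv (stp p q) x := by
    rw [setIntegral_eq_integral_of_forall_compl_eq_zero]
    intro x hx
    exact stp_deriv_zero h hx
  rw [h1, integral_Icc_eq_integral_Ioc, ← intervalIntegral.integral_of_le h.le,
    intervalIntegral.integral_eq_sub_of_hasDerivAt (f := stp p q)]
  · rw [stp_one h le_rfl, stp_zero h le_rfl]
    ring
  · intro x _
    exact ((stp_contDiff p q).differentiable (by simp) x).hasDerivAt
  · exact (stp_deriv_cont p q).intervalIntegrable _ _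

theorem mul_step_integrable {F : ℝ → ℝ} (hF : Integrable F) {p q : ℝ} (h : p < q) :
    Integrable (fun x => F x * deriv (stp p q) x) := by
  obtain ⟨C, hC⟩ := (stp_deriv_supp h).exists_bound_of_continuous (stp_deriv_cont p q)
  exact hF.mul_bdd (stp_deriv_cont p q).aestronglyMeasurable (Filter.Eventually.of_forall hC)

theorem step_le {F : ℝ → ℝ} (hF : Integrable F) {p q c : ℝ} (h : p < q)
    (hc : ∀ x ∈ Icc p q, F x ≤ c) : ∫ x, F x * deriv (stp p q) x ≤ c := by
  have h1 : ∫ x, F x * deriv (stp p q) x ≤ ∫ x, c * deriv (stp p q) x := by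
    apply integral_mono (mul_step_integrable hF h)
    · exact ((stp_deriv_cont p q).integrable_of_hasCompactSupport (stp_deriv_supp h)).const_mul c
    · intro x
      by_cases hx : x ∈ Icc p q
      · exact mul_le_mul_of_nonneg_right (hc x hx) (stp_deriv_nonneg h x)
      · show F x * deriv (stp p q) x ≤ c * deriv (stp p q) x
        rw [stp_deriv_zero h hx, mul_zero, mul_zero]
  rw [integral_const_mul, stp_int h, mul_one] at h1
  exact h1

theorem le_step {F : ℝ → ℝ} (hF : Integrable F) {p q c : ℝ} (h : p < q)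
    (hc : ∀ x ∈ Icc p q, c ≤ F x) : c ≤ ∫ x, F x * deriv (stp p q) x := by
  have h1 : ∫ x, c * deriv (stp p q) x ≤ ∫ x, F x * deriv (stp p q) x := by
    apply integral_mono _ (mul_step_integrable hF h)
    · intro x
      by_cases hx : x ∈ Icc p q
      · exact mul_le_mul_of_nonneg_right (hc x hx) (stp_deriv_nonneg h x)
      · show c * deriv (stp p q) x ≤ F x * deriv (stp p q) x
        rw [stp_deriv_zero h hx, mul_zero, mul_zero]
    · exact ((stp_deriv_cont p q).integrable_of_hasCompactSupport (stp_deriv_supp h)).const_mul c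
  rw [integral_const_mul, stp_int h, mul_one] at h1
  exact h1

/-- the test function -/
noncomputable def tst (p q r s x : ℝ) : ℝ := stp p q x - stp r s x

theorem tst_contDiff (p q r s : ℝ) : ContDiff ℝ (⊤ : ℕ∞) (tst p q r s) :=
  (stp_contDiff p q).sub (stp_contDiff r s)

theorem tst_deriv (p q r s x : ℝ) :
    deriv (tst p q r s) x = deriv (stp p q) x - deriv (stp r s) x := by
  have h1 : DifferentiableAt ℝ (stp p q) x := (stp_contDiff p q).differentiable (by simp) x
  have h2 : DifferentiableAt ℝ (stp r s) x := (stp_contDiff r s).differentiable (by simp) x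
  exact (h1.hasDerivAt.sub h2.hasDerivAt).deriv

theorem tst_zero {p q r s x : ℝ} (h1 : p < q) (h2 : q < r) (h3 : r < s) (hx : x ∉ Icc p s) :
    tst p q r s x = 0 := by
  unfold tst
  rw [mem_Icc, not_and_or, not_le, not_le] at hx
  rcases hx with hx | hx
  · rw [stp_zero h1 hx.le, stp_zero h3 (by linarith), sub_zero]
  · rw [stp_one h1 (by linarith), stp_one h3 hx.le, sub_self]

theorem tst_one {p q r s x : ℝ} (h1 : p < q) (h3 : r < s) (hx : x ∈ Icc q r) :
    tst p q r s x = 1 := by
  unfold tst
  rw [stp_one h1 hx.1, stp_zero h3 hx.2, sub_zero]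

theorem tst_supp {p q r s : ℝ} (h1 : p < q) (h2 : q < r) (h3 : r < s) :
    HasCompactSupport (tst p q r s) := by
  apply HasCompactSupport.intro (isCompact_Icc (a := p) (b := s))
  intro x hx
  exact tst_zero h1 h2 h3 hx

theorem tst_nonneg {p q r s : ℝ} (h1 : p < q) (h2 : q < r) (h3 : r < s) (x : ℝ) :
    0 ≤ tst p q r s x := by
  rcases le_total x r with h | h
  · unfold tst
    rw [stp_zero h3 h, sub_zero]
    exact stp_nonneg _ _ _
  · unfold tst
    rw [stp_one h1 (by linarith)]
    have := stp_le_one r s x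
    linarith

theorem tst_le_one (p q r s x : ℝ) : tst p q r s x ≤ 1 := by
  unfold tst
  have := stp_le_one p q x
  have := stp_nonneg r s x
  linarith

/-- distance between the integral against the test function and the integral over `(a, b]`, for
`p <= a`, `b <= s`, `a <= q`, `r <= b`. -/
theorem tst_approx {G : ℝ → ℝ} (hG : Integrable G) {p q r s a b : ℝ} (h1 : p < q) (h2 : q < r)
    (h3 : r < s) (hab : a ≤ b) (l : ℝ) (m : ℝ) (m' : ℝ) (k : ℝ) 
    (hl : l ≤ p) (hl' : l ≤ a) (hm : q ≤ m) (hm' : a ≤ m) (hk : s ≤ k) (hk' : b ≤ k)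
    (hr : m' ≤ r) (hr' : m' ≤ b) :
    |(∫ x, G x * tst p q r s x) - ∫ x in a..b, G x| ≤
      (∫ x in Icc l m, |G x|) + ∫ x in Icc m' k, |G x| := by
  have hGt : Integrable (fun x => G x * tst p q r s x) := by
    refine hG.mul_bdd (c := 1) (tst_contDiff p q r s).continuous.aestronglyMeasurable
      (Filter.Eventually.of_forall fun x => ?_)
    rw [Real.norm_eq_abs, abs_of_nonneg (tst_nonneg h1 h2 h3 x)]
    exact tst_le_one _ _ _ _ _
  have hGi : Integrable (fun x => (Ioc a b).indicator G x) := hG.indicator measurableSet_Ioc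
  rw [intervalIntegral.integral_of_le hab, ← integral_indicator measurableSet_Ioc,
    ← integral_sub hGt hGi, ← integral_indicator measurableSet_Icc,
    ← integral_indicator measurableSet_Icc, ← integral_add]
  · refine (abs_integral_le_integral_abs).trans ?_
    apply integral_mono
    · exact (hGt.sub hGi).abs
    · exact (hG.abs.indicator measurableSet_Icc).add (hG.abs.indicator measurableSet_Icc)
    · intro x
      show |G x * tst p q r s x - (Ioc a b).indicator G x| ≤
        (Icc l m).indicator (fun x => |G x|) x + (Icc m' k).indicator (fun x => |G x|) x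
      have e1 : (Ioc a b).indicator G x = G x * (Ioc a b).indicator (fun _ => (1 : ℝ)) x := by
        by_cases hx : x ∈ Ioc a b <;> simp [hx]
      have e2 : (Icc l m).indicator (fun x => |G x|) x =
          |G x| * (Icc l m).indicator (fun _ => (1 : ℝ)) x := by
        by_cases hx : x ∈ Icc l m <;> simp [hx]
      have e3 : (Icc m' k).indicator (fun x => |G x|) x =
          |G x| * (Icc m' k).indicator (fun _ => (1 : ℝ)) x := by
        by_cases hx : x ∈ Icc m' k <;> simp [hx]
      rw [e1, e2, e3, ← mul_sub, ← mul_add, abs_mul]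
      apply mul_le_mul_of_nonneg_left _ (abs_nonneg _)
      have ht0 := tst_nonneg h1 h2 h3 x
      have ht1 := tst_le_one p q r s x
      have hn1 : 0 ≤ (Icc l m).indicator (fun _ => (1 : ℝ)) x :=
        indicator_nonneg (fun _ _ => zero_le_one) x
      have hn2 : 0 ≤ (Icc m' k).indicator (fun _ => (1 : ℝ)) x :=
        indicator_nonneg (fun _ _ => zero_le_one) x
      have hI0 : 0 ≤ (Ioc a b).indicator (fun _ => (1 : ℝ)) x :=
        indicator_nonneg (fun _ _ => zero_le_one) x
      have hI1 : (Ioc a b).indicator (fun _ => (1 : ℝ)) x ≤ 1 := by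
        by_cases hx : x ∈ Ioc a b <;> simp [hx]
      by_cases hx1 : x ∈ Icc l m
      · rw [indicator_of_mem hx1, abs_le]
        constructor <;> linarith
      by_cases hx2 : x ∈ Icc m' k
      · rw [indicator_of_mem hx2 (fun _ => (1 : ℝ)), abs_le]
        constructor <;> linarith
      rw [indicator_of_notMem hx1, indicator_of_notMem hx2, add_zero]
      rw [mem_Icc, not_and_or, not_le, not_le] at hx1 hx2
      have : tst p q r s x = (Ioc a b).indicator (fun _ => (1 : ℝ)) x := by
        rcases hx1 with hx1 | hx1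
        · rw [tst_zero h1 h2 h3 (fun h => by linarith [h.1]), indicator_of_notMem]
          intro h
          linarith [h.1]
        · rcases hx2 with hx2 | hx2
          · rw [tst_one h1 h3 ⟨by linarith, by linarith⟩, indicator_of_mem]
            exact ⟨by linarith, by linarith⟩
          · rw [tst_zero h1 h2 h3 (fun h => by linarith [h.2]), indicator_of_notMem]
            intro h
            linarith [h.2]
      rw [this, sub_self, abs_zero]
  · exact hG.abs.indicator measurableSet_Icc
  · exact hG.abs.indicator measurableSet_Icc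

theorem small_int {G : ℝ → ℝ} (hG : Integrable G) (a : ℝ) {ε : ℝ} (hε : 0 < ε) :
    ∀ᶠ δ in nhdsWithin (0 : ℝ) (Ioi 0), ∫ x in Icc (a - δ) (a + δ), |G x| < ε := by
  have h1 : Continuous (fun x : ℝ => ∫ y in (0 : ℝ)..x, |G y|) :=
    intervalIntegral.continuous_primitive (fun _ _ => hG.abs.intervalIntegrable) 0
  have h2 : Continuous (fun δ : ℝ => (∫ y in (0 : ℝ)..(a + δ), |G y|) -
      ∫ y in (0 : ℝ)..(a - δ), |G y|) :=
    (h1.comp (continuous_const.add continuous_id)).sub
      (h1.comp (continuous_const.sub continuous_id))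
  have h3 : Filter.Tendsto (fun δ : ℝ => (∫ y in (0 : ℝ)..(a + δ), |G y|) -
      ∫ y in (0 : ℝ)..(a - δ), |G y|) (nhds 0) (nhds 0) := by
    have := h2.tendsto 0
    simpa using this
  have h4 := (h3.mono_left (nhdsWithin_le_nhds (s := Ioi 0))).eventually_lt_const hε
  filter_upwards [h4, self_mem_nhdsWithin] with δ h5 h6
  have h7 : (0 : ℝ) < δ := h6
  rw [intervalIntegral.integral_interval_sub_left hG.abs.intervalIntegrable
    hG.abs.intervalIntegrable, intervalIntegral.integral_of_le (by linarith)] at h5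
  rw [integral_Icc_eq_integral_Ioc]
  exact h5

/-- the one-dimensional lemma -/
theorem oned {F G : ℝ → ℝ} (hF : Integrable F) (hG : Integrable G)
    (h : ∀ p q r s : ℚ, p < q → q < r → r < s →
      ∫ x, F x * deriv (tst p q r s) x = - ∫ x, G x * tst p q r s x)
    {u v : ℝ} (hanti : AntitoneOn F (Ioo u v)) {a b : ℝ} (ha : a ∈ Ioo u v) (hb : b ∈ Ioo u v)
    (hab : a < b) : F a - F b = - ∫ x in a..b, G x := by
  have key : ∀ p q r s : ℚ, p < q → q < r → r < s → u < p → (s : ℝ) < v →
      F q - F r ≤ - ∫ x, G x * tst p q r s x ∧ - ∫ x, G x * tst p q r s x ≤ F p - F s := by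
    intro p q r s h1 h2 h3 hp hs
    have h1' : (p : ℝ) < q := by exact_mod_cast h1
    have h2' : (q : ℝ) < r := by exact_mod_cast h2
    have h3' : (r : ℝ) < s := by exact_mod_cast h3
    rw [← h p q r s h1 h2 h3]
    have e1 : ∫ x, F x * deriv (tst p q r s) x =
        (∫ x, F x * deriv (stp p q) x) - ∫ x, F x * deriv (stp r s) x := by
      rw [← integral_sub (mul_step_integrable hF h1') (mul_step_integrable hF h3')]
      apply integral_congr_ae
      filter_upwards with x
      rw [tst_deriv]
      ring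
    rw [e1]
    have k1 : F q ≤ ∫ x, F x * deriv (stp p q) x := by
      apply le_step hF h1'
      intro x hx
      exact hanti ⟨by linarith [hx.1], by linarith [hx.2]⟩ ⟨by linarith, by linarith⟩ hx.2
    have k2 : ∫ x, F x * deriv (stp p q) x ≤ F p := by
      apply step_le hF h1'
      intro x hx
      exact hanti ⟨by linarith, by linarith⟩ ⟨by linarith [hx.1], by linarith [hx.2]⟩ hx.1
    have k3 : F s ≤ ∫ x, F x * deriv (stp r s) x := by
      apply le_step hF h3'
      intro x hx
      exact hanti ⟨by linarith [hx.1], by linarith [hx.2]⟩ ⟨by linarith, by linarith⟩ hx.2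
    have k4 : ∫ x, F x * deriv (stp r s) x ≤ F r := by
      apply step_le hF h3'
      intro x hx
      exact hanti ⟨by linarith, by linarith⟩ ⟨by linarith [hx.1], by linarith [hx.2]⟩ hx.1
    constructor <;> linarith
  apply le_antisymm
  · apply _root_.le_of_forall_pos_le_add
    intro ε hε
    have hx1 := (small_int hG a (half_pos hε)).and ((small_int hG b (half_pos hε)).and
      self_mem_nhdsWithin)
    obtain ⟨δ, h1, h2, h3⟩ := hx1.exists
    have h3' : (0 : ℝ) < δ := h3
    obtain ⟨q, hq1, hq2⟩ := exists_rat_btwn (show max u (a - δ) < a from max_lt ha.1 (by linarith))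
    obtain ⟨p, hp1, hp2⟩ := exists_rat_btwn hq1
    obtain ⟨r, hr1, hr2⟩ := exists_rat_btwn (show b < min v (b + δ) from
      lt_min hb.2 (by linarith))
    obtain ⟨s, hs1, hs2⟩ := exists_rat_btwn hr2
    have i1 := (le_max_left u (a - δ)).trans_lt hp1
    have i2 := (le_max_right u (a - δ)).trans_lt hp1
    have i3 := hs2.trans_le (min_le_left v (b + δ))
    have i4 := hs2.trans_le (min_le_right v (b + δ))
    have j1 : p < q := by exact_mod_cast hp2
    have j2 : q < r := by exact_mod_cast (hq2.trans (hab.trans hr1))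
    have j3 : r < s := by exact_mod_cast hs1
    have k1 := (key p q r s j1 j2 j3 i1 i3).1
    have k2 := tst_approx hG hp2 (hq2.trans (hab.trans hr1)) hs1 hab.le (a - δ) (a + δ) (b - δ)
      (b + δ) i2.le (by linarith) (by linarith) (by linarith) i4.le (by linarith) (by linarith)
      (by linarith)
    have k3 := (abs_le.1 k2).1
    have k4 : F a ≤ F q := hanti ⟨by linarith, by linarith [ha.2]⟩ ha hq2.le
    have k5 : F r ≤ F b := hanti hb ⟨by linarith [hb.1], by linarith⟩ hr1.le
    linarith
  · apply _root_.le_of_forall_pos_le_add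
    intro ε hε
    have hx1 := (small_int hG a (half_pos hε)).and ((small_int hG b (half_pos hε)).and
      self_mem_nhdsWithin)
    obtain ⟨δ, h1, h2, h3⟩ := hx1.exists
    have h3' : (0 : ℝ) < δ := h3
    set m := (a + b) / 2 with hm
    obtain ⟨q, hq1, hq2⟩ := exists_rat_btwn (show a < min m (a + δ) from
      lt_min (by rw [hm]; linarith) (by linarith))
    obtain ⟨p, hp1, hp2⟩ := exists_rat_btwn hq1
    obtain ⟨r, hr1, hr2⟩ := exists_rat_btwn (show max m (b - δ) < b from
      max_lt (by rw [hm]; linarith) (by linarith))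
    obtain ⟨s, hs1, hs2⟩ := exists_rat_btwn hr2
    have i1 := hq2.trans_le (min_le_left m (a + δ))
    have i2 := hq2.trans_le (min_le_right m (a + δ))
    have i3 := (le_max_left m (b - δ)).trans_lt hr1
    have i4 := (le_max_right m (b - δ)).trans_lt hr1
    have j1 : p < q := by exact_mod_cast hp2
    have j2 : q < r := by exact_mod_cast (i1.trans i3)
    have j3 : r < s := by exact_mod_cast hs1
    have k1 := (key p q r s j1 j2 j3 (ha.1.trans hp1) (hs2.trans hb.2)).2
    have k2 := tst_approx hG hp2 (i1.trans i3) hs1 hab.le (a - δ) (a + δ) (b - δ)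
      (b + δ) (by linarith) (by linarith) i2.le (by linarith) (by linarith) (by linarith) i4.le
      (by linarith)
    have k3 := (abs_le.1 k2).2
    have k4 : F p ≤ F a := hanti ha ⟨ha.1.trans hp1, by linarith [hb.2]⟩ hp1.le
    have k5 : F b ≤ F s := hanti ⟨by linarith [ha.1], by linarith [hb.2]⟩ hb hs2.le
    linarith

/-- the test function on the product -/
theorem prodTest {n : ℕ} {η : ℝ → ℝ} (hη : ContDiff ℝ (⊤ : ℕ∞) η) (hs : HasCompactSupport η)
    {ψ : (Fin n → ℝ) → ℝ} (hψ : ContDiff ℝ (⊤ : ℕ∞) ψ) (hs' : HasCompactSupport ψ) :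
    ContDiff ℝ (⊤ : ℕ∞) (fun p : ℝ × (Fin n → ℝ) => η p.1 * ψ p.2) ∧
    HasCompactSupport (fun p : ℝ × (Fin n → ℝ) => η p.1 * ψ p.2) ∧
    ∀ p : ℝ × (Fin n → ℝ), fderiv ℝ (fun p : ℝ × (Fin n → ℝ) => η p.1 * ψ p.2) p (1, 0) =
      deriv η p.1 * ψ p.2 := by
  refine ⟨(hη.comp contDiff_fst).mul (hψ.comp contDiff_snd), ?_, ?_⟩
  · apply HasCompactSupport.intro (hs.isCompact.prod hs'.isCompact)
    intro p hp
    rw [mem_prod, not_and_or] at hp
    rcases hp with hp | hp
    · rw [image_eq_zero_of_notMem_tsupport hp, zero_mul]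
    · rw [image_eq_zero_of_notMem_tsupport hp, mul_zero]
  · intro p
    have h1 : HasFDerivAt (fun p : ℝ × (Fin n → ℝ) => η p.1)
        ((fderiv ℝ η p.1).comp (ContinuousLinearMap.fst ℝ ℝ (Fin n → ℝ))) p :=
      ((hη.differentiable (by simp)) p.1).hasFDerivAt.comp p hasFDerivAt_fst
    have h2 : HasFDerivAt (fun p : ℝ × (Fin n → ℝ) => ψ p.2)
        ((fderiv ℝ ψ p.2).comp (ContinuousLinearMap.snd ℝ ℝ (Fin n → ℝ))) p :=
      ((hψ.differentiable (by simp)) p.2).hasFDerivAt.comp p hasFDerivAt_snd
    have h3 := (h1.mul h2).fderiv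
    have h4 : (fun p : ℝ × (Fin n → ℝ) => η p.1 * ψ p.2) =
      (fun p : ℝ × (Fin n → ℝ) => η p.1) * (fun p : ℝ × (Fin n → ℝ) => ψ p.2) := rfl
    rw [h4, h3]
    simp [mul_comm]

theorem fiber {n : ℕ} {Φ Γ : ℝ × (Fin n → ℝ) → ℝ} (hΦ : Integrable Φ) (hΓ : Integrable Γ)
    (h : ∀ φ : ℝ × (Fin n → ℝ) → ℝ, ContDiff ℝ (⊤ : ℕ∞) φ → HasCompactSupport φ →
      ∫ p, Φ p * fderiv ℝ φ p (1, 0) = - ∫ p, Γ p * φ p)
    {η : ℝ → ℝ} (hη : ContDiff ℝ (⊤ : ℕ∞) η) (hs : HasCompactSupport η) :
    ∀ᵐ w : Fin n → ℝ, ∫ s, Φ (s, w) * deriv η s = - ∫ s, Γ (s, w) * η s := by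
  have hc' : Continuous (deriv η) := hη.continuous_deriv (by simp)
  have hs2 : HasCompactSupport (deriv η) := hs.deriv
  obtain ⟨C, hC⟩ := hs2.exists_bound_of_continuous hc'
  obtain ⟨C2, hC2⟩ := hs.exists_bound_of_continuous hη.continuous
  have i1 : Integrable (fun p : ℝ × (Fin n → ℝ) => Φ p * deriv η p.1) :=
    hΦ.mul_bdd (hc'.comp continuous_fst).aestronglyMeasurable
      (Filter.Eventually.of_forall fun p => hC p.1)
  have i2 : Integrable (fun p : ℝ × (Fin n → ℝ) => Γ p * η p.1) :=
    hΓ.mul_bdd (hη.continuous.comp continuous_fst).aestronglyMeasurable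
      (Filter.Eventually.of_forall fun p => hC2 p.1)
  have i1' := i1
  have i2' := i2
  rw [Measure.volume_eq_prod] at i1' i2'
  have j1 := i1'.integral_prod_right
  have j2 := i2'.integral_prod_right
  have hz : ∀ᵐ w : Fin n → ℝ, (∫ s, Φ (s, w) * deriv η s) + ∫ s, Γ (s, w) * η s = 0 := by
    apply ae_eq_zero_of_integral_contDiff_smul_eq_zero (j1.add j2).locallyIntegrable
    intro ψ hψ hψs
    obtain ⟨C3, hC3⟩ := hψs.exists_bound_of_continuous hψ.continuous
    obtain ⟨t1, t2, t3⟩ := prodTest hη hs hψ hψs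
    have e := h _ t1 t2
    simp_rw [t3] at e
    have m1 : Integrable (fun p : ℝ × (Fin n → ℝ) => Φ p * (deriv η p.1 * ψ p.2)) := by
      have := i1.mul_bdd (hψ.continuous.comp continuous_snd).aestronglyMeasurable
        (Filter.Eventually.of_forall fun p : ℝ × (Fin n → ℝ) => hC3 p.2)
      refine this.congr (Filter.Eventually.of_forall fun p => ?_)
      show Φ p * deriv η p.1 * ψ p.2 = Φ p * (deriv η p.1 * ψ p.2)
      ring
    have m2 : Integrable (fun p : ℝ × (Fin n → ℝ) => Γ p * (η p.1 * ψ p.2)) := by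
      have := i2.mul_bdd (hψ.continuous.comp continuous_snd).aestronglyMeasurable
        (Filter.Eventually.of_forall fun p : ℝ × (Fin n → ℝ) => hC3 p.2)
      refine this.congr (Filter.Eventually.of_forall fun p => ?_)
      show Γ p * η p.1 * ψ p.2 = Γ p * (η p.1 * ψ p.2)
      ring
    rw [Measure.volume_eq_prod] at e m1 m2
    rw [integral_prod_symm _ m1, integral_prod_symm _ m2] at e
    have k1 := m1.integral_prod_right
    have k2 := m2.integral_prod_right
    have e2 : ∫ w : Fin n → ℝ, ψ w • ((∫ s, Φ (s, w) * deriv η s) + ∫ s, Γ (s, w) * η s) =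
        ∫ w : Fin n → ℝ, ((∫ s, Φ (s, w) * (deriv η s * ψ w)) + ∫ s, Γ (s, w) * (η s * ψ w)) := by
      apply integral_congr_ae
      filter_upwards with w
      rw [smul_eq_mul, mul_add, ← integral_const_mul, ← integral_const_mul]
      congr 1
      · apply integral_congr_ae
        filter_upwards with s
        ring
      · apply integral_congr_ae
        filter_upwards with s
        ring
    refine e2.trans ?_
    rw [integral_add k1 k2, e]
    ring
  filter_upwards [hz] with w hw
  linarith

/-- MODULE A: slices. -/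
def StmtSlices : Prop := ∀ (n : ℕ) (Φ Γ : ℝ × (Fin n → ℝ) → ℝ), Integrable Φ → Integrable Γ →
  (∀ φ : ℝ × (Fin n → ℝ) → ℝ, ContDiff ℝ (⊤ : ℕ∞) φ → HasCompactSupport φ →
    ∫ p, Φ p * fderiv ℝ φ p (1, 0) = - ∫ p, Γ p * φ p) →
  ∀ᵐ w : Fin n → ℝ, Integrable (fun s => Φ (s, w)) ∧ Integrable (fun s => Γ (s, w)) ∧
    ∀ u v : ℝ, AntitoneOn (fun s => Φ (s, w)) (Ioo u v) → ∀ a b, a ∈ Ioo u v → b ∈ Ioo u v →
      a ≤ b → Φ (a, w) - Φ (b, w) = - ∫ s in a..b, Γ (s, w)

theorem slices : StmtSlices := by
  intro n Φ Γ hΦ hΓ h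
  have i1 := hΦ
  have i2 := hΓ
  rw [Measure.volume_eq_prod] at i1 i2
  have hall : ∀ᵐ w : Fin n → ℝ, ∀ p q r s : ℚ, p < q → q < r → r < s →
      ∫ x, Φ (x, w) * deriv (tst p q r s) x = - ∫ x, Γ (x, w) * tst p q r s x := by
    rw [ae_all_iff]
    intro p
    rw [ae_all_iff]
    intro q
    rw [ae_all_iff]
    intro r
    rw [ae_all_iff]
    intro s
    by_cases h1 : p < q
    · by_cases h2 : q < r
      · by_cases h3 : r < s
        · have h1' : (p : ℝ) < q := by exact_mod_cast h1
          have h2' : (q : ℝ) < r := by exact_mod_cast h2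
          have h3' : (r : ℝ) < s := by exact_mod_cast h3
          filter_upwards [fiber hΦ hΓ h (tst_contDiff p q r s) (tst_supp h1' h2' h3')] with w hw
          intro _ _ _
          exact hw
        · exact Filter.Eventually.of_forall fun w _ _ h => absurd h h3
      · exact Filter.Eventually.of_forall fun w _ h => absurd h h2
    · exact Filter.Eventually.of_forall fun w h => absurd h h1
  filter_upwards [hall, i1.prod_left_ae, i2.prod_left_ae] with w hw hw1 hw2
  refine ⟨hw1, hw2, ?_⟩
  intro u v hanti a b ha hb hab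
  rcases hab.eq_or_lt with rfl | hab
  · simp
  · exact oned hw1 hw2 hw hanti ha hb hab

end P137.AC
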