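import Vale.Agent.P137.AC.Defs
import Vale.Agent.P137.AC.Slices

/-! P137 AC, module A (interface form). -/

open MeasureTheory ENNReal Set Filter
open scoped Topology

namespace P137.AC.A

theorem thm : StmtA := by
  intro n Φ Γ h
  filter_upwards [slices n Φ Γ h.1 h.2.1 h.2.2] with w hw
  refine ⟨hw.2.1, ?_⟩
  intro c hc a b hca hab
  exact hw.2.2 c (b + 1) (hc.mono fun x hx => hx.1) a b ⟨hca, by linarith⟩
    ⟨by linarith, by linarith⟩ hab

end P137.AC.A
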