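import Vale.Agent.P137.Ptw

/-! P137, AC: reduction to points with positive coordinates. -/

open MeasureTheory ENNReal Set

namespace P137.AC

/-- reflection in some coordinates -/
def flip {n : ℕ} (σ : Fin n → Bool) (x : Fin n → ℝ) : Fin n → ℝ :=
  fun i => if σ i then x i else - x i

theorem flip_mp {n : ℕ} (σ : Fin n → Bool) :
    MeasurePreserving (flip σ) (volume : Measure (Fin n → ℝ)) volume := by
  have h : ∀ i : Fin n, MeasurePreserving (fun t : ℝ => if σ i then t else -t) volume volume := by
    intro i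
    by_cases hi : σ i
    · simp only [hi, if_true]
      exact MeasurePreserving.id _
    · simp only [hi]
      exact Measure.measurePreserving_neg volume
  exact volume_preserving_pi h

theorem ae_abs {n : ℕ} {P : (Fin n → ℝ) → Prop}
    (h : ∀ᵐ x : Fin n → ℝ, (∀ i, 0 < x i) → P x) :
    ∀ᵐ x : Fin n → ℝ, P (fun i => |x i|) := by
  have h0 : ∀ᵐ x : Fin n → ℝ, ∀ i, x i ≠ 0 := by
    rw [ae_all_iff]
    intro i
    rw [ae_iff]
    have := Measure.pi_hyperplane (fun _ : Fin n => (volume : Measure ℝ)) i 0
    rw [← volume_pi] at this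
    simpa using this
  have h1 : ∀ᵐ x : Fin n → ℝ, ∀ σ : Fin n → Bool, (∀ i, 0 < flip σ x i) → P (flip σ x) := by
    rw [ae_all_iff]
    intro σ
    exact (flip_mp σ).quasiMeasurePreserving.ae h
  filter_upwards [h0, h1] with x hx hσ
  have h2 : flip (fun i => decide (0 < x i)) x = fun i => |x i| := by
    funext i
    unfold flip
    by_cases hi : 0 < x i
    · simp [hi, abs_of_pos hi]
    · simp [hi, abs_of_nonpos (not_lt.1 hi)]
  have h3 := hσ (fun i => decide (0 < x i))
  rw [h2] at h3
  exact h3 fun i => abs_pos.2 (hx i)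

theorem ins_abs {n : ℕ} {U : E (n + 1) → ℝ≥0∞} (hU : BD U) (j : Fin (n + 1)) (t : ℝ)
    (x : Fin n → ℝ) : U (ins j t x) = U (ins j t (fun i => |x i|)) := by
  apply le_antisymm
  · apply hU
    intro i
    rcases Fin.eq_self_or_eq_succAbove j i with rfl | ⟨l, rfl⟩
    · rw [ins_same, ins_same]
    · rw [ins_succAbove, ins_succAbove, abs_abs]
  · apply hU
    intro i
    rcases Fin.eq_self_or_eq_succAbove j i with rfl | ⟨l, rfl⟩
    · rw [ins_same, ins_same]
    · rw [ins_succAbove, ins_succAbove, abs_abs]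

end P137.AC
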