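import Vale.Agent.P137.Fub
import Vale.Agent.P137.WG

/-! P137, AC step: change of variables in the weak gradient identity. -/

open MeasureTheory ENNReal Set

namespace P137.AC

variable {n : ℕ}

/-- `ins j` as a linear equivalence -/
noncomputable def insL (j : Fin (n + 1)) : (ℝ × (Fin n → ℝ)) ≃ₗ[ℝ] E (n + 1) where
  toFun p := ins j p.1 p.2
  map_add' p q := by
    ext i
    rcases Fin.eq_self_or_eq_succAbove j i with h | ⟨k, h⟩
    · subst h
      simp
    · subst h
      simp
  map_smul' c p := by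
    ext i
    rcases Fin.eq_self_or_eq_succAbove j i with h | ⟨k, h⟩
    · subst h
      simp
    · subst h
      simp
  invFun x := (x j, fun i => x (j.succAbove i))
  left_inv p := by
    ext i <;> simp
  right_inv x := by
    ext i
    rcases Fin.eq_self_or_eq_succAbove j i with h | ⟨k, h⟩
    · subst h
      simp
    · subst h
      simp

/-- the shear `(s, w) ↦ (s, w + s 1)` -/
noncomputable def shearL (n : ℕ) : (ℝ × (Fin n → ℝ)) ≃ₗ[ℝ] (ℝ × (Fin n → ℝ)) where
  toFun p := (p.1, fun i => p.2 i + p.1)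
  map_add' p q := by
    ext i
    · simp
    · simp
      ring
  map_smul' c p := by
    ext i
    · simp
    · simp
      ring
  invFun p := (p.1, fun i => p.2 i - p.1)
  left_inv p := by
    ext i <;> simp
  right_inv p := by
    ext i <;> simp

/-- straight coordinates -/
noncomputable def T1 (j : Fin (n + 1)) : (ℝ × (Fin n → ℝ)) ≃L[ℝ] E (n + 1) :=
  (insL j).toContinuousLinearEquiv

/-- sheared coordinates -/
noncomputable def T2 (j : Fin (n + 1)) : (ℝ × (Fin n → ℝ)) ≃L[ℝ] E (n + 1) :=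
  ((shearL n).trans (insL j)).toContinuousLinearEquiv

theorem T1_apply (j : Fin (n + 1)) (p : ℝ × (Fin n → ℝ)) : T1 j p = ins j p.1 p.2 := rfl

theorem T2_apply (j : Fin (n + 1)) (p : ℝ × (Fin n → ℝ)) :
    T2 j p = ins j p.1 (fun i => p.2 i + p.1) := rfl

theorem T1_mp (j : Fin (n + 1)) : MeasurePreserving (T1 j) volume volume :=
  measurePreserving_insEquiv j

theorem shear_mp (n : ℕ) : MeasurePreserving (shearL n) volume volume := by
  have h : MeasurePreserving (fun p : ℝ × (Fin n → ℝ) => (id p.1, (fun (s : ℝ) (w : Fin n → ℝ) =>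
      w + fun _ => s) p.1 p.2)) (volume.prod volume) (volume.prod volume) := by
    refine MeasurePreserving.skew_product (f := id)
      (g := fun (s : ℝ) (w : Fin n → ℝ) => w + fun _ => s) (MeasurePreserving.id volume) ?_ ?_
    · fun_prop
    · filter_upwards with s
      exact (measurePreserving_add_right volume (fun _ => s)).map_eq
  exact h

theorem T2_mp (j : Fin (n + 1)) : MeasurePreserving (T2 j) volume volume :=
  (T1_mp j).comp (shear_mp n)

theorem T1_one (j l : Fin (n + 1)) : T1 j (1, 0) l = if l = j then 1 else 0 := by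
  rw [T1_apply]
  rcases Fin.eq_self_or_eq_succAbove j l with h | ⟨k, h⟩
  · subst h
    simp
  · subst h
    simp [Fin.succAbove_ne]

theorem T2_one (j l : Fin (n + 1)) : T2 j (1, 0) l = 1 := by
  rw [T2_apply]
  rcases Fin.eq_self_or_eq_succAbove j l with h | ⟨k, h⟩
  · subst h
    simp
  · subst h
    simp

theorem weak_comp {T : (ℝ × (Fin n → ℝ)) ≃L[ℝ] E (n + 1)} (hT : MeasurePreserving T volume volume)
    {f : E (n + 1) → ℝ} {g : E (n + 1) → E (n + 1)} (hf : Integrable f) (hg : Integrable g)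
    (hw : IsWeakGradient f g) (φ : ℝ × (Fin n → ℝ) → ℝ) (h1 : ContDiff ℝ (⊤ : ℕ∞) φ)
    (h2 : HasCompactSupport φ) :
    ∫ p, f (T p) * fderiv ℝ φ p (1, 0) = - ∫ p, (∑ l, T (1, 0) l * g (T p) l) * φ p := by
  set ψ : E (n + 1) → ℝ := fun x => φ (T.symm x) with hψ
  have hψ1 : ContDiff ℝ (⊤ : ℕ∞) ψ := h1.comp T.symm.contDiff
  have hψ2 : HasCompactSupport ψ := h2.comp_homeomorph T.symm.toHomeomorph
  have hd : ∀ p q, fderiv ℝ ψ (T p) (T q) = fderiv ℝ φ p q := by
    intro p q
    have e1 : HasFDerivAt φ (fderiv ℝ φ p) (T.symm (T p)) := by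
      rw [T.symm_apply_apply]
      exact ((h1.differentiable (by simp)) p).hasFDerivAt
    have e2 := e1.comp (T p) T.symm.hasFDerivAt
    have e3 : fderiv ℝ ψ (T p) = (fderiv ℝ φ p).comp (T.symm : E (n + 1) →L[ℝ] _) := e2.fderiv
    rw [e3]
    simp
  have hme : MeasurableEmbedding T := T.toHomeomorph.measurableEmbedding
  have hgi : ∀ i, Integrable (fun x => g x i) := fun i =>
    (EuclideanSpace.proj (𝕜 := ℝ) i).integrable_comp hg
  have hv : T (1, 0) = ∑ l, (T (1, 0) l) • EuclideanSpace.single l (1 : ℝ) := by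
    ext i
    simp [Finset.sum_apply, Pi.single_apply]
  have e1 : ∫ p, f (T p) * fderiv ℝ φ p (1, 0) = ∫ x, f x * fderiv ℝ ψ x (T (1, 0)) := by
    rw [← hT.integral_comp hme]
    refine integral_congr_ae (Filter.Eventually.of_forall fun p => ?_)
    show f (T p) * fderiv ℝ φ p (1, 0) = f (T p) * fderiv ℝ ψ (T p) (T (1, 0))
    rw [hd]
  have e2 : ∫ p, (∑ l, T (1, 0) l * g (T p) l) * φ p = ∫ x, (∑ l, T (1, 0) l * g x l) * ψ x := by
    rw [← hT.integral_comp hme]
    refine integral_congr_ae (Filter.Eventually.of_forall fun p => ?_)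
    show (∑ l, T (1, 0) l * g (T p) l) * φ p = (∑ l, T (1, 0) l * g (T p) l) * φ (T.symm (T p))
    rw [T.symm_apply_apply]
  rw [e1, e2]
  have e3 : ∀ x, f x * fderiv ℝ ψ x (T (1, 0)) =
      ∑ l, T (1, 0) l * (f x * fderiv ℝ ψ x (EuclideanSpace.single l 1)) := by
    intro x
    conv_lhs => rw [hv]
    rw [map_sum, Finset.mul_sum]
    refine Finset.sum_congr rfl fun l _ => ?_
    rw [map_smul, smul_eq_mul]
    ring
  have e4 : ∀ x, (∑ l, T (1, 0) l * g x l) * ψ x = ∑ l, T (1, 0) l * (g x l * ψ x) := by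
    intro x
    rw [Finset.sum_mul]
    exact Finset.sum_congr rfl fun l _ => by ring
  simp_rw [e3, e4]
  rw [integral_finsetSum, integral_finsetSum, ← Finset.sum_neg_distrib]
  · refine Finset.sum_congr rfl fun l _ => ?_
    rw [integral_const_mul, integral_const_mul, hw ψ hψ1 hψ2 l]
    ring
  · intro l _
    exact (wg_int1 (hgi l) hψ1.continuous hψ2).const_mul _
  · intro l _
    exact (wg_int1 hf (wg_cont hψ1 _) (wg_supp hψ2 _)).const_mul _

/-- straight coordinates -/
theorem weak_T1 (j : Fin (n + 1)) {f : E (n + 1) → ℝ} {g : E (n + 1) → E (n + 1)}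
    (hf : Integrable f) (hg : Integrable g)
    (hw : IsWeakGradient f g) (φ : ℝ × (Fin n → ℝ) → ℝ) (h1 : ContDiff ℝ (⊤ : ℕ∞) φ)
    (h2 : HasCompactSupport φ) :
    ∫ p : ℝ × (Fin n → ℝ), f (ins j p.1 p.2) * fderiv ℝ φ p (1, 0) =
      - ∫ p : ℝ × (Fin n → ℝ), g (ins j p.1 p.2) j * φ p := by
  have h := weak_comp (T1_mp j) hf hg hw φ h1 h2
  simp only [T1_one, ite_mul, one_mul, zero_mul, Finset.sum_ite_eq', Finset.mem_univ,
    if_true] at h
  exact h

/-- sheared coordinates -/
theorem weak_T2 (j : Fin (n + 1)) {f : E (n + 1) → ℝ} {g : E (n + 1) → E (n + 1)}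
    (hf : Integrable f) (hg : Integrable g)
    (hw : IsWeakGradient f g) (φ : ℝ × (Fin n → ℝ) → ℝ) (h1 : ContDiff ℝ (⊤ : ℕ∞) φ)
    (h2 : HasCompactSupport φ) :
    ∫ p : ℝ × (Fin n → ℝ), f (ins j p.1 (fun i => p.2 i + p.1)) * fderiv ℝ φ p (1, 0) =
      - ∫ p : ℝ × (Fin n → ℝ), (∑ l, g (ins j p.1 (fun i => p.2 i + p.1)) l) * φ p := by
  have h := weak_comp (T2_mp j) hf hg hw φ h1 h2
  simp only [T2_one, one_mul] at h
  exact h

theorem int_T1 (j : Fin (n + 1)) {F : Type*} [NormedAddCommGroup F] {f : E (n + 1) → F}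
    (hf : Integrable f) :
    Integrable (fun p : ℝ × (Fin n → ℝ) => f (ins j p.1 p.2)) :=
  ((T1_mp j).integrable_comp_emb (T1 j).toHomeomorph.measurableEmbedding).2 hf

theorem int_T2 (j : Fin (n + 1)) {F : Type*} [NormedAddCommGroup F] {f : E (n + 1) → F}
    (hf : Integrable f) :
    Integrable (fun p : ℝ × (Fin n → ℝ) => f (ins j p.1 (fun i => p.2 i + p.1))) :=
  ((T2_mp j).integrable_comp_emb (T2 j).toHomeomorph.measurableEmbedding).2 hf

end P137.AC
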