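import Vale.Agent.P137.AC.Defs
import Vale.Agent.P137.AC.B0

/-! P137, AC step, module B. -/

open MeasureTheory ENNReal Set

namespace P137.AC.B

theorem thm : StmtB := by
  intro n f g hf hg hw j
  have hgi : ∀ l, Integrable (fun x => g x l) := fun l =>
    (EuclideanSpace.proj (𝕜 := ℝ) l).integrable_comp hg
  have hgl : Integrable (fun x => ∑ l, g x l) := integrable_finsetSum _ fun l _ => hgi l
  exact ⟨⟨int_T1 j hf, int_T1 j (hgi j), fun φ h1 h2 => weak_T1 j hf hg hw φ h1 h2⟩,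
    ⟨int_T2 j hf, int_T2 j hgl, fun φ h1 h2 => weak_T2 j hf hg hw φ h1 h2⟩⟩

end P137.AC.B
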