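import Vale.Agent.P137.Ptw

/-! P137, AC step, module E: continuity of the maximal function along a good line, dichotomy. -/

open MeasureTheory ENNReal Set Filter Topology

namespace P137
namespace AC

/-- the average of `|f|` over the ball of radius `r` -/
noncomputable def avgB {n : ℕ} (f : E n → ℝ) (r : ℝ) (x : E n) : ℝ≥0∞ :=
  (∫⁻ y in Metric.ball x r, ‖f y‖ₑ) / volume (Metric.ball x r)

/-- the truncated maximal function: radii at least `δ` -/
noncomputable def truncM {n : ℕ} (f : E n → ℝ) (δ : ℝ) (x : E n) : ℝ≥0∞ :=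
  ⨆ (r : ℝ) (_ : δ ≤ r), avgB f r x

/-- `x + s 1` -/
noncomputable def shf {n : ℕ} (x : E n) (s : ℝ) : E n := WithLp.toLp 2 fun i => x i + s

@[simp] theorem shf_apply {n : ℕ} (x : E n) (s : ℝ) (i : Fin n) : shf x s i = x i + s := rfl

theorem maxFun_eq {n : ℕ} (f : E n → ℝ) (x : E n) :
    maxFun f x = ⨆ (r : ℝ) (_ : 0 < r), avgB f r x := rfl

theorem truncM_le {n : ℕ} (f : E n → ℝ) {δ : ℝ} (hδ : 0 < δ) (x : E n) :
    truncM f δ x ≤ maxFun f x := by
  rw [maxFun_eq]
  refine iSup₂_le fun r hr => ?_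
  exact le_iSup₂ (f := fun (r : ℝ) (_ : 0 < r) => avgB f r x) r (hδ.trans_le hr)

theorem vol_pos {n : ℕ} (x : E n) {r : ℝ} (hr : 0 < r) : volume (Metric.ball x r) ≠ 0 :=
  (Metric.measure_ball_pos volume x hr).ne'

theorem vol_fin {n : ℕ} (x : E n) (r : ℝ) : volume (Metric.ball x r) ≠ ∞ :=
  measure_ball_lt_top.ne

theorem avgB_le {n : ℕ} (f : E n → ℝ) (h0 : ∀ x, 0 ≤ f x) (hb : BlockDecreasing f) {r : ℝ}
    (hr : 0 < r) (x z : E n) (hz : ∀ y ∈ Metric.ball x r, ∀ i, |z i| ≤ |y i|) :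
    avgB f r x ≤ ENNReal.ofReal (f z) := by
  unfold avgB
  rw [ENNReal.div_le_iff (vol_pos x hr) (vol_fin x r)]
  calc ∫⁻ y in Metric.ball x r, ‖f y‖ₑ ≤ ∫⁻ _ in Metric.ball x r, ENNReal.ofReal (f z) := by
        refine setLIntegral_mono' measurableSet_ball fun y hy => ?_
        rw [Real.enorm_of_nonneg (h0 y)]
        exact ENNReal.ofReal_le_ofReal (hb z y (hz y hy))
    _ = ENNReal.ofReal (f z) * volume (Metric.ball x r) := setLIntegral_const _ _

theorem le_avgB {n : ℕ} (f : E n → ℝ) (h0 : ∀ x, 0 ≤ f x) (hb : BlockDecreasing f) {r : ℝ}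
    (hr : 0 < r) (x z : E n) (hz : ∀ y ∈ Metric.ball x r, ∀ i, |y i| ≤ |z i|) :
    ENNReal.ofReal (f z) ≤ avgB f r x := by
  unfold avgB
  rw [ENNReal.le_div_iff_mul_le (Or.inl (vol_pos x hr)) (Or.inl (vol_fin x r))]
  calc ENNReal.ofReal (f z) * volume (Metric.ball x r) =
        ∫⁻ _ in Metric.ball x r, ENNReal.ofReal (f z) := (setLIntegral_const _ _).symm
    _ ≤ ∫⁻ y in Metric.ball x r, ‖f y‖ₑ := by
        refine setLIntegral_mono' measurableSet_ball fun y hy => ?_
        rw [Real.enorm_of_nonneg (h0 y)]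
        exact ENNReal.ofReal_le_ofReal (hb y z (hz y hy))

/-- all coordinates of `ins j t x'` are positive -/
theorem ins_pos {n : ℕ} (j : Fin (n + 1)) {t : ℝ} (ht : 0 < t) {x' : Fin n → ℝ}
    (hx : ∀ i, 0 < x' i) (i : Fin (n + 1)) : 0 < ins j t x' i := by
  rcases Fin.eq_self_or_eq_succAbove j i with rfl | ⟨l, rfl⟩
  · rw [ins_same]; exact ht
  · rw [ins_succAbove]; exact hx l

/-- E1: `w ≥ F` -/
theorem le_maxFun {n : ℕ} (f : E (n + 1) → ℝ) (h0 : ∀ x, 0 ≤ f x) (hb : BlockDecreasing f)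
    (x : E (n + 1)) (hx : ∀ i, 0 < x i)
    (hp : Tendsto (fun s => f (shf x s)) (𝓝[>] 0) (𝓝 (f x))) :
    ENNReal.ofReal (f x) ≤ maxFun f x := by
  have h1 : Tendsto (fun s => ENNReal.ofReal (f (shf x s))) (𝓝[>] 0)
      (𝓝 (ENNReal.ofReal (f x))) := (ENNReal.continuous_ofReal.tendsto _).comp hp
  refine le_of_tendsto h1 ?_
  filter_upwards [self_mem_nhdsWithin] with s hs
  have hs : 0 < s := hs
  refine le_trans (le_avgB f h0 hb hs x (shf x s) ?_)
    (le_iSup₂ (f := fun (r : ℝ) (_ : 0 < r) => avgB f r x) s hs)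
  intro y hy i
  have h2 := abs_coord_sub_lt hy i
  have e : |shf x s i| = x i + s := abs_of_pos (by rw [shf_apply]; linarith [hx i])
  rw [abs_lt] at h2
  rw [e, abs_le]
  constructor <;> linarith [hx i, h2.1, h2.2]

/-- upper bound near a point: if `|s - t| < δ` and `2δ` is below all coordinates -/
theorem maxFun_le {n : ℕ} (f : E (n + 1) → ℝ) (h0 : ∀ x, 0 ≤ f x) (hb : BlockDecreasing f)
    (j : Fin (n + 1)) (x' : Fin n → ℝ) {t s δ : ℝ} (hδ : 0 < δ)
    (hst : t - δ ≤ s) (hcoord : ∀ i, 2 * δ < ins j t x' i) :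
    maxFun f (ins j s x') ≤
      max (truncM f δ (ins j s x')) (ENNReal.ofReal (f (shf (ins j t x') (-(2 * δ))))) := by
  rw [maxFun_eq]
  refine iSup₂_le fun r hr => ?_
  by_cases hrδ : δ ≤ r
  · exact le_max_of_le_left (le_iSup₂ (f := fun (r : ℝ) (_ : δ ≤ r) => avgB f r (ins j s x')) r hrδ)
  · push Not at hrδ
    refine le_max_of_le_right (avgB_le f h0 hb hr _ _ ?_)
    intro y hy i
    have h2 := abs_coord_sub_lt hy i
    rw [abs_lt] at h2
    have hc := hcoord i
    have hle : ins j t x' i - δ ≤ ins j s x' i := by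
      rcases Fin.eq_self_or_eq_succAbove j i with rfl | ⟨l, rfl⟩
      · rw [ins_same, ins_same]; exact hst
      · rw [ins_succAbove, ins_succAbove]; linarith
    rw [shf_apply, abs_of_pos (by linarith)]
    refine le_trans ?_ (le_abs_self _)
    linarith [h2.1]

/-- **Module E.** -/
theorem moduleE {n : ℕ} (f : E (n + 1) → ℝ) (h0 : ∀ x, 0 ≤ f x) (hb : BlockDecreasing f)
    (j : Fin (n + 1)) (x' : Fin n → ℝ) (hx : ∀ i, 0 < x' i)
    (hCm : ∀ t, 0 < t → Tendsto (fun s => f (shf (ins j t x') (-s))) (𝓝[>] 0)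
      (𝓝 (f (ins j t x'))))
    (hCp : ∀ t, 0 < t → Tendsto (fun s => f (shf (ins j t x') s)) (𝓝[>] 0)
      (𝓝 (f (ins j t x'))))
    (hD : ∀ δ : ℝ, 0 < δ → ContinuousOn (fun t => truncM f δ (ins j t x')) (Ioi 0)) :
    (∀ t, 0 < t → ENNReal.ofReal (f (ins j t x')) ≤ maxFun f (ins j t x')) ∧
    ContinuousOn (fun t => maxFun f (ins j t x')) (Ioi 0) ∧
    ∀ t, 0 < t → (∃ k : ℕ, maxFun f (ins j t x') = truncM f (1 / ((k : ℝ) + 1)) (ins j t x')) ∨
      maxFun f (ins j t x') = ENNReal.ofReal (f (ins j t x')) := by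
  have hE1 : ∀ t, 0 < t → ENNReal.ofReal (f (ins j t x')) ≤ maxFun f (ins j t x') := fun t ht =>
    le_maxFun f h0 hb _ (ins_pos j ht hx) (hCp t ht)
  -- small numbers
  have hsmall : ∀ t, 0 < t → ∀ᶠ s in 𝓝[>] (0 : ℝ), ∀ i, s < ins j t x' i := by
    intro t ht
    rw [Filter.eventually_all]
    intro i
    exact mem_nhdsWithin_of_mem_nhds (Iio_mem_nhds (ins_pos j ht hx i))
  have hlim : ∀ t, 0 < t → Tendsto (fun s => ENNReal.ofReal (f (shf (ins j t x') (-s)))) (𝓝[>] 0)
      (𝓝 (ENNReal.ofReal (f (ins j t x')))) := fun t ht =>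
    (ENNReal.continuous_ofReal.tendsto _).comp (hCm t ht)
  refine ⟨hE1, ?_, ?_⟩
  · intro t ht
    have ht' : 0 < t := ht
    have hopen : Ioi (0 : ℝ) ∈ 𝓝 t := Ioi_mem_nhds ht'
    refine ContinuousAt.continuousWithinAt ?_
    have hDat : ∀ δ : ℝ, 0 < δ → ContinuousAt (fun t => truncM f δ (ins j t x')) t := fun δ hδ =>
      (hD δ hδ).continuousAt hopen
    refine tendsto_order.2 ⟨fun a ha => ?_, fun a ha => ?_⟩
    · -- lower semicontinuity
      have ha : a < maxFun f (ins j t x') := ha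
      rw [maxFun_eq, lt_iSup_iff] at ha
      obtain ⟨r, ha⟩ := ha
      rw [lt_iSup_iff] at ha
      obtain ⟨hr, ha⟩ := ha
      have h1 : a < truncM f r (ins j t x') := lt_of_lt_of_le ha
        (le_iSup₂ (f := fun (q : ℝ) (_ : r ≤ q) => avgB f q (ins j t x')) r le_rfl)
      have h2 := (hDat r hr).eventually (lt_mem_nhds h1)
      filter_upwards [h2] with s hs
      exact hs.trans_le (truncM_le f hr _)
    · -- upper semicontinuity
      have ha : maxFun f (ins j t x') < a := ha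
      have hF : ENNReal.ofReal (f (ins j t x')) < a := (hE1 t ht').trans_lt ha
      obtain ⟨s0, hs1, hs2, hs3⟩ := (((hlim t ht').eventually (gt_mem_nhds hF)).and
        ((hsmall t ht').and self_mem_nhdsWithin)).exists
      have hs3 : 0 < s0 := hs3
      have hδ : 0 < s0 / 2 := by positivity
      have h1 : truncM f (s0 / 2) (ins j t x') < a := (truncM_le f hδ _).trans_lt ha
      have h2 := (hDat _ hδ).eventually (gt_mem_nhds h1)
      filter_upwards [h2, Ioi_mem_nhds (by linarith : t - s0 / 2 < t)] with s hs hst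
      have hst : t - s0 / 2 < s := hst
      refine (maxFun_le f h0 hb j x' hδ hst.le ?_).trans_lt ?_
      · intro i
        have := hs2 i
        linarith
      · rw [show 2 * (s0 / 2) = s0 by ring]
        exact max_lt hs hs1
  · -- dichotomy
    intro t ht
    by_cases heq : maxFun f (ins j t x') = ENNReal.ofReal (f (ins j t x'))
    · exact Or.inr heq
    · left
      have hlt : ENNReal.ofReal (f (ins j t x')) < maxFun f (ins j t x') :=
        lt_of_le_of_ne (hE1 t ht) (Ne.symm heq)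
      obtain ⟨s0, hs1, hs2, hs3⟩ := (((hlim t ht).eventually (gt_mem_nhds hlt)).and
        ((hsmall t ht).and self_mem_nhdsWithin)).exists
      have hs3 : 0 < s0 := hs3
      obtain ⟨k, hk⟩ := exists_nat_one_div_lt (show (0 : ℝ) < s0 / 2 by positivity)
      refine ⟨k, le_antisymm ?_ (truncM_le f (by positivity) _)⟩
      have hk0 : (0 : ℝ) < 1 / ((k : ℝ) + 1) := by positivity
      have h1 := maxFun_le f h0 hb j x' (t := t) (s := t) hk0 (by linarith)
        (fun i => by have := hs2 i; linarith)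
      have h2 : f (shf (ins j t x') (-(2 * (1 / ((k : ℝ) + 1))))) ≤ f (shf (ins j t x') (-s0)) := by
        refine hb _ _ fun i => ?_
        have := hs2 i
        rw [shf_apply, shf_apply, abs_of_pos (by linarith), abs_of_pos (by linarith)]
        linarith
      have h3 : ENNReal.ofReal (f (shf (ins j t x') (-(2 * (1 / ((k : ℝ) + 1)))))) <
          maxFun f (ins j t x') := (ENNReal.ofReal_le_ofReal h2).trans_lt hs1
      rcases le_max_iff.1 h1 with h4 | h4
      · exact h4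
      · exact absurd h4 (not_le.2 h3)

end AC
end P137
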