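import Vale.Agent.P137.AC.Jump
import Vale.Agent.P137.AC.EDich

/-!
P137 AC, module C, final form: continuity in the diagonal direction on almost every line.
-/

open MeasureTheory Set Filter Topology

namespace P137.AC

theorem shf_ins {n : ℕ} (j : Fin (n + 1)) (t s : ℝ) (x' : Fin n → ℝ) :
    shf (ins j t x') s = ins j (t + s) (fun l => x' l + s) := by
  ext i
  rw [shf_apply]
  refine Fin.succAboveCases j ?_ (fun l => ?_) i
  · rw [ins_same, ins_same]
  · rw [ins_succAbove, ins_succAbove]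

theorem jumpT {n : ℕ} (f : E (n + 1) → ℝ) (hf : BlockDecreasing f) (j : Fin (n + 1))
    (hB : ∀ᵐ w : Fin n → ℝ, ContinuousOn (fun s => f (ins j s (fun i => w i + s)))
      {s | 0 < s ∧ ∀ i, 0 < w i + s}) :
    ∀ᵐ x' : Fin n → ℝ, (∀ i, 0 < x' i) → ∀ t, 0 < t →
      Tendsto (fun s => f (shf (ins j t x') (-s))) (𝓝[>] 0) (𝓝 (f (ins j t x'))) ∧
      Tendsto (fun s => f (shf (ins j t x') s)) (𝓝[>] 0) (𝓝 (f (ins j t x'))) := by
  have hD : ∀ᵐ w : Fin n → ℝ, ∀ s, 0 < s → (∀ l, 0 < w l + s) → ∀ ε, 0 < ε →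
      ∃ δ, 0 < δ ∧ δ < s ∧ (∀ l, δ < w l + s) ∧
        f (ins j (s - δ) (fun l => w l + (s - δ))) -
          f (ins j (s + δ) (fun l => w l + (s + δ))) ≤ ε := by
    filter_upwards [hB] with w hw s hs hl ε hε
    have hopen : IsOpen {s : ℝ | 0 < s ∧ ∀ i, 0 < w i + s} := by
      have : {s : ℝ | 0 < s ∧ ∀ i, 0 < w i + s} = Ioi 0 ∩ ⋂ i, {s | 0 < w i + s} := by
        ext s; simp
      rw [this]
      refine isOpen_Ioi.inter (isOpen_iInter_of_finite fun i => ?_)
      exact isOpen_lt continuous_const (by fun_prop)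
    have hcont := (hw s ⟨hs, hl⟩).continuousAt (hopen.mem_nhds ⟨hs, hl⟩)
    rw [Metric.continuousAt_iff] at hcont
    obtain ⟨η, hη, hη2⟩ := hcont (ε / 2) (by positivity)
    obtain ⟨δ₀, d1, d2, d3⟩ := exists_delta (x := fun l => w l + s) hs hl
    refine ⟨min δ₀ (η / 2), lt_min d1 (by positivity), (min_le_left _ _).trans_lt d2,
      fun l => (min_le_left _ _).trans_lt (d3 l), ?_⟩
    set δ := min δ₀ (η / 2) with hδ
    have e0 : 0 < δ := lt_min d1 (by positivity)
    have e1 : δ ≤ η / 2 := min_le_right _ _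
    have a1 := hη2 (x := s - δ) (by
      rw [Real.dist_eq, abs_lt]; constructor <;> linarith)
    have a2 := hη2 (x := s + δ) (by
      rw [Real.dist_eq, abs_lt]; constructor <;> linarith)
    rw [Real.dist_eq, abs_lt] at a1 a2
    linarith [a1.2, a2.1]
  filter_upwards [jump f hf j hD] with x' hx' hpos t ht
  have key : ∀ ε, 0 < ε → ∃ δ, 0 < δ ∧ ∀ s, 0 < s → s < δ →
      (f (ins j t x') ≤ f (shf (ins j t x') (-s)) ∧
        f (shf (ins j t x') (-s)) ≤ f (ins j t x') + ε) ∧
      (f (shf (ins j t x') s) ≤ f (ins j t x') ∧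
        f (ins j t x') - ε ≤ f (shf (ins j t x') s)) := by
    intro ε hε
    obtain ⟨δ, d1, d2, d3, d4⟩ := hx' hpos t ht ε hε
    refine ⟨δ, d1, fun s s1 s2 => ?_⟩
    rw [shf_ins, shf_ins]
    have b1 : f (ins j t x') ≤ f (ins j (t + -s) (fun l => x' l + -s)) :=
      ins_le hf j (by linarith) (fun l => by linarith [d3 l]) (by linarith)
        (fun l => by linarith)
    have b2 : f (ins j (t + -s) (fun l => x' l + -s)) ≤ f (ins j (t - δ) (fun l => x' l - δ)) :=
      ins_le hf j (by linarith) (fun l => by linarith [d3 l]) (by linarith)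
        (fun l => by linarith)
    have b3 : f (ins j (t + s) (fun l => x' l + s)) ≤ f (ins j t x') :=
      ins_le hf j (by linarith) (fun l => by linarith [hpos l]) (by linarith)
        (fun l => by linarith)
    have b4 : f (ins j (t + δ) (fun l => x' l + δ)) ≤ f (ins j (t + s) (fun l => x' l + s)) :=
      ins_le hf j (by linarith) (fun l => by linarith [hpos l]) (by linarith)
        (fun l => by linarith)
    exact ⟨⟨b1, by linarith⟩, b3, by linarith⟩
  constructor
  · rw [Metric.tendsto_nhds]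
    intro ε hε
    obtain ⟨δ, d1, d2⟩ := key (ε / 2) (by positivity)
    filter_upwards [Ioo_mem_nhdsGT d1] with s hs
    have := (d2 s hs.1 hs.2).1
    rw [Real.dist_eq, abs_lt]
    constructor <;> linarith [this.1, this.2]
  · rw [Metric.tendsto_nhds]
    intro ε hε
    obtain ⟨δ, d1, d2⟩ := key (ε / 2) (by positivity)
    filter_upwards [Ioo_mem_nhdsGT d1] with s hs
    have := (d2 s hs.1 hs.2).2
    rw [Real.dist_eq, abs_lt]
    constructor <;> linarith [this.1, this.2]

end P137.AC
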