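import Vale.Agent.P137.AC.Defs
import Vale.Agent.P137.AC.JumpT
import Vale.Agent.P137.AC.ABS

/-!
P137 AC, module C in the form of the interface.
-/

open MeasureTheory Set Filter Topology

namespace P137.AC.C

theorem exists_c {n : ℕ} (w : Fin n → ℝ) :
    ∃ c : ℝ, ∀ s : ℝ, (0 < s ∧ ∀ i, 0 < w i + s) ↔ c < s := by
  classical
  have hne : (Finset.univ.image (fun i => - w i) ∪ {0}).Nonempty := ⟨0, by simp⟩
  refine ⟨(Finset.univ.image (fun i => - w i) ∪ {0}).max' hne, fun s => ?_⟩
  rw [Finset.max'_lt_iff]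
  constructor
  · rintro ⟨h1, h2⟩ y hy
    simp only [Finset.mem_union, Finset.mem_image, Finset.mem_univ, true_and,
      Finset.mem_singleton] at hy
    rcases hy with ⟨i, rfl⟩ | rfl
    · linarith [h2 i]
    · exact h1
  · intro h
    refine ⟨h 0 (by simp), fun i => ?_⟩
    have := h (- w i) (by simp)
    linarith

theorem contOn {n : ℕ} {f : E (n + 1) → ℝ} (hf : BlockDecreasing f) (j : Fin (n + 1))
    (w : Fin n → ℝ) {G : ℝ → ℝ} (hG : Integrable G)
    (h : ∀ c : ℝ, AntitoneOn (fun s => f (ins j s (fun i => w i + s))) (Ioi c) →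
      ∀ a b : ℝ, c < a → a ≤ b → f (ins j a (fun i => w i + a)) - f (ins j b (fun i => w i + b)) =
        - ∫ s in a..b, G s) :
    ContinuousOn (fun s => f (ins j s (fun i => w i + s))) {s | 0 < s ∧ ∀ i, 0 < w i + s} := by
  obtain ⟨c, hc⟩ := exists_c w
  have hset : {s | 0 < s ∧ ∀ i, 0 < w i + s} = Ioi c := by
    ext s
    exact hc s
  rw [hset]
  have hanti : AntitoneOn (fun s => f (ins j s (fun i => w i + s))) (Ioi c) := by
    intro s hs t ht hst
    obtain ⟨s1, s2⟩ := (hc s).2 hs
    exact ins_le hf j s1.le (fun l => (s2 l).le) hst (fun l => by linarith)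
  intro s₀ hs₀
  have hs₀' : c < s₀ := hs₀
  set a : ℝ := (c + s₀) / 2 with ha
  have h1 : c < a := by rw [ha]; linarith
  have h2 : a < s₀ := by rw [ha]; linarith
  have hcont : Continuous fun b => ∫ x in a..b, G x :=
    intervalIntegral.continuous_primitive (fun _ _ => hG.intervalIntegrable) a
  have heq : (fun s => f (ins j s (fun i => w i + s))) =ᶠ[𝓝 s₀]
      fun s => f (ins j a (fun i => w i + a)) + ∫ x in a..s, G x := by
    filter_upwards [Ioi_mem_nhds h2] with s hs
    have := h c hanti a s h1 (le_of_lt hs)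
    linarith
  refine ContinuousAt.continuousWithinAt ?_
  rw [continuousAt_congr heq]
  exact (continuous_const.add hcont).continuousAt

theorem thm (hA : StmtA) (hB : StmtB) : StmtC := by
  intro n f g _ hf hfi hgi hw j
  have hB2 := (hB n f g hfi hgi hw j).2
  have hA2 := hA n _ _ hB2
  have hcont : ∀ᵐ w : Fin n → ℝ, ContinuousOn (fun s => f (ins j s (fun i => w i + s)))
      {s | 0 < s ∧ ∀ i, 0 < w i + s} := by
    filter_upwards [hA2] with w hw2
    exact contOn hf j w hw2.1 hw2.2
  have h1 := jumpT f hf j hcont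
  have e1 : ∀ (x : E (n + 1)) (s : ℝ), x - s • one (n + 1) = shf x (-s) := by
    intro x s
    ext i
    simp [shf, one, sub_eq_add_neg]
  have e2 : ∀ (x : E (n + 1)) (s : ℝ), x + s • one (n + 1) = shf x s := by
    intro x s
    ext i
    simp [shf, one]
  refine ae_abs (P := fun x => ∀ t : ℝ, 0 < t →
    Tendsto (fun s : ℝ => f (ins j t x - s • one (n + 1))) (𝓝[>] 0)
      (𝓝 (f (ins j t x))) ∧
    Tendsto (fun s : ℝ => f (ins j t x + s • one (n + 1))) (𝓝[>] 0)
      (𝓝 (f (ins j t x)))) ?_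
  filter_upwards [h1] with x hx hpos t ht
  have := hx hpos t ht
  simp only [e1, e2]
  exact this

end P137.AC.C
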