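import Vale.Agent.P137.Fub

/-!
P137, absolute continuity (weak gradient of the maximal function of a block-decreasing function).
Module statements.  Plan: notes/P137_AC_plan.md (helper12).
-/

open MeasureTheory ENNReal Set Filter
open scoped Topology

namespace P137.AC

/-- the vector `(1, ..., 1)` -/
noncomputable def one (n : ℕ) : E n := WithLp.toLp 2 (fun _ => (1 : ℝ))

/-- coordinatewise absolute value -/
def absv {n : ℕ} (x : Fin n → ℝ) : Fin n → ℝ := fun i => |x i|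

/-- the truncated maximal function (radii `≥ δ`) -/
noncomputable def maxTr {n : ℕ} (f : E n → ℝ) (δ : ℝ) (x : E n) : ℝ≥0∞ :=
  ⨆ (r : ℝ) (_ : δ ≤ r), (∫⁻ y in Metric.ball x r, ‖f y‖ₑ) / volume (Metric.ball x r)

/-- weak derivative in the first variable, on `ℝ × ℝⁿ` -/
def Weak1 {n : ℕ} (Φ Γ : ℝ × (Fin n → ℝ) → ℝ) : Prop :=
  Integrable Φ ∧ Integrable Γ ∧
  ∀ φ : ℝ × (Fin n → ℝ) → ℝ, ContDiff ℝ (⊤ : ℕ∞) φ → HasCompactSupport φ →
    ∫ p, Φ p * fderiv ℝ φ p (1, 0) = - ∫ p, Γ p * φ p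

/-- A: slices. -/
def StmtA : Prop := ∀ (n : ℕ) (Φ Γ : ℝ × (Fin n → ℝ) → ℝ), Weak1 Φ Γ →
  ∀ᵐ w : Fin n → ℝ, Integrable (fun s => Γ (s, w)) ∧ ∀ c : ℝ, AntitoneOn (fun s => Φ (s, w)) (Ioi c) →
    ∀ a b : ℝ, c < a → a ≤ b → Φ (a, w) - Φ (b, w) = - ∫ s in a..b, Γ (s, w)

/-- B: the straight and the sheared function (`x'` is moved along `(1, ..., 1)`). -/
def StmtB : Prop := ∀ (n : ℕ) (f : E (n + 1) → ℝ) (g : E (n + 1) → E (n + 1)),
  Integrable f → Integrable g → IsWeakGradient f g → ∀ j : Fin (n + 1),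
    Weak1 (fun p : ℝ × (Fin n → ℝ) => f (ins j p.1 p.2))
      (fun p => g (ins j p.1 p.2) j) ∧
    Weak1 (fun p : ℝ × (Fin n → ℝ) => f (ins j p.1 (fun i => p.2 i + p.1)))
      (fun p => ∑ l, g (ins j p.1 (fun i => p.2 i + p.1)) l)

/-- C: for a.e. `x'` the function `f` is continuous along the diagonal direction at every point
`(t, |x'|)`, `t > 0` (from A and B; Lipschitz image of a null set). -/
def StmtC : Prop := ∀ (n : ℕ) (f : E (n + 1) → ℝ) (g : E (n + 1) → E (n + 1)),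
  Measurable f → BlockDecreasing f → Integrable f → Integrable g → IsWeakGradient f g →
  ∀ j : Fin (n + 1), ∀ᵐ x : Fin n → ℝ, ∀ t : ℝ, 0 < t →
    Tendsto (fun s : ℝ => f (ins j t (absv x) - s • one (n + 1))) (𝓝[>] 0)
      (𝓝 (f (ins j t (absv x)))) ∧
    Tendsto (fun s : ℝ => f (ins j t (absv x) + s • one (n + 1))) (𝓝[>] 0)
      (𝓝 (f (ins j t (absv x))))

/-- D: the truncated maximal function is finite and Lipschitz along lines parallel to `e_j`. -/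
def StmtD : Prop := ∀ (n : ℕ) (f : E (n + 1) → ℝ), Measurable f → BlockDecreasing f →
  (∀ x, 0 ≤ f x) → Integrable f → ∀ j : Fin (n + 1),
  (∫⁻ x : Fin n → ℝ, edge (fun y => ENNReal.ofReal (f y)) j x ≠ ∞) → ∀ δ : ℝ, 0 < δ →
    (∀ x, maxTr f δ x ≠ ∞) ∧
    ∃ K : NNReal, ∀ x : Fin n → ℝ, LipschitzWith K (fun t => (maxTr f δ (ins j t x)).toReal)

/-- E: continuity of the maximal function along the line and the dichotomy (deterministic).
`w = max (small radii) (radii ≥ δ)`; for `y` near `x = ins j t x'` and small `r`,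
`f (x + s 1) ≤ A_r f (y) ≤ f (x - s 1)` with `s = r + |y - x|`. -/
def StmtE : Prop := ∀ (n : ℕ) (f : E (n + 1) → ℝ), Measurable f → BlockDecreasing f →
  (∀ x, 0 ≤ f x) → Integrable f → ∀ (j : Fin (n + 1)) (x : Fin n → ℝ), (∀ i, 0 < x i) →
  maxFun f (ins j 0 x) ≠ ∞ → BD (maxFun f) →
  (∀ δ : ℝ, 0 < δ → (∀ y, maxTr f δ y ≠ ∞) ∧
    Continuous (fun t => (maxTr f δ (ins j t x)).toReal)) →
  ∀ t : ℝ, 0 < t →
    Tendsto (fun s : ℝ => f (ins j t x - s • one (n + 1))) (𝓝[>] 0) (𝓝 (f (ins j t x))) →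
    Tendsto (fun s : ℝ => f (ins j t x + s • one (n + 1))) (𝓝[>] 0) (𝓝 (f (ins j t x))) →
    ContinuousAt (fun t => (maxFun f (ins j t x)).toReal) t ∧
      ((maxFun f (ins j t x)).toReal = f (ins j t x) ∨
        ∃ k : ℕ, (maxFun f (ins j t x)).toReal = (maxTr f (1 / ((k : ℝ) + 1)) (ins j t x)).toReal)

/-- F: Lusin's property for an indefinite integral. -/
def StmtF : Prop := ∀ (F Γ : ℝ → ℝ), Integrable Γ →
  (∀ a b : ℝ, 0 < a → a ≤ b → F a - F b = - ∫ s in a..b, Γ s) →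
  ∀ S : Set ℝ, S ⊆ Ioi 0 → volume S = 0 → volume (F '' S) = 0

/-- the one-sided upper difference quotient -/
noncomputable def dq (w : ℝ → ℝ) (t : ℝ) : ℝ :=
  limsup (fun k : ℕ => ((k : ℝ) + 1) * (w (t + 1 / ((k : ℝ) + 1)) - w t)) atTop

/-- G: integration by parts for an even function, continuous and antitone on `(0, ∞)`, with
Lusin's property. -/
def StmtG : Prop := ∀ w : ℝ → ℝ, (∀ t, w (-t) = w t) → (∀ t, 0 ≤ w t) → (∀ t, w t ≤ w 0) →
  AntitoneOn w (Ioi 0) → ContinuousOn w (Ioi 0) →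
  (∀ S : Set ℝ, S ⊆ Ioi 0 → volume S = 0 → volume (w '' S) = 0) →
    ∫⁻ t, ‖dq w t‖ₑ ≤ 2 * ENNReal.ofReal (w 0) ∧
    ∀ φ : ℝ → ℝ, ContDiff ℝ (⊤ : ℕ∞) φ → HasCompactSupport φ →
      ∫ t, w t * deriv φ t = - ∫ t, dq w t * φ t

/-- the candidate for the weak gradient of `u` -/
noncomputable def GG {n : ℕ} (u : E n → ℝ) (x : E n) : E n :=
  WithLp.toLp 2 fun j =>
    limsup (fun k : ℕ => ((k : ℝ) + 1) *
      (u (x + (1 / ((k : ℝ) + 1)) • EuclideanSpace.single j 1) - u x)) atTop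

/-- LINE: for a.e. `x'` the maximal function on the line satisfies the hypotheses of G
(assembly of C, D, E, F, with `hfin` = finiteness of `∫ maxFun f (ins j 0 x')`). -/
def StmtLINE : Prop := ∀ (n : ℕ) (f : E (n + 1) → ℝ) (g : E (n + 1) → E (n + 1)),
  Measurable f → BlockDecreasing f → Integrable f → Integrable g → IsWeakGradient f g →
  ∀ j : Fin (n + 1), (∫⁻ x : Fin n → ℝ, maxFun f (ins j 0 x) ≠ ∞) →
    ∀ᵐ x : Fin n → ℝ, maxFun f (ins j 0 x) ≠ ∞ ∧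
      (ContinuousOn (fun t => M f (ins j t x)) (Ioi 0) ∧
      ∀ S : Set ℝ, S ⊆ Ioi 0 → volume S = 0 → volume ((fun t => M f (ins j t x)) '' S) = 0)

/-- H: from G on a.e. line to the weak gradient (Fubini), for a general `U`. -/
def StmtH : Prop := ∀ (n : ℕ) (U : E (n + 1) → ℝ≥0∞), Measurable U → BD U →
  (∀ j : Fin (n + 1), ∫⁻ x : Fin n → ℝ, U (ins j 0 x) ≠ ∞) →
  LocallyIntegrable (fun x => (U x).toReal) →
  (∀ j : Fin (n + 1), ∀ᵐ x : Fin n → ℝ, U (ins j 0 x) ≠ ∞ ∧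
    (ContinuousOn (fun t => (U (ins j t x)).toReal) (Ioi 0) ∧
      ∀ S : Set ℝ, S ⊆ Ioi 0 → volume S = 0 →
        volume ((fun t => (U (ins j t x)).toReal) '' S) = 0)) →
  Integrable (GG fun x => (U x).toReal) ∧
    IsWeakGradient (fun x => (U x).toReal) (GG fun x => (U x).toReal) ∧
    ∫⁻ x, ‖GG (fun x => (U x).toReal) x‖ₑ ≤ 2 * ∑ j, ∫⁻ x : Fin n → ℝ, U (ins j 0 x)

end P137.AC
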