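import Vale.Agent.P137.AC.D
import Vale.Agent.P137.AC.Defs

/-! P137, AC, module D. -/

open MeasureTheory ENNReal Set

namespace P137.AC.D

theorem maxTr_eq {n : ℕ} {f : E n → ℝ} (h0 : ∀ x, 0 ≤ f x) (δ : ℝ) (x : E n) :
    AC.maxTr f δ x = P137.maxTr δ (fun y => ENNReal.ofReal (f y)) x := by
  unfold AC.maxTr P137.maxTr
  simp only [Real.enorm_eq_ofReal (h0 _)]

theorem thm : StmtD := by
  intro n f hfm hb h0 hfi j hN δ hδ
  have hFm : Measurable (fun y => ENNReal.ofReal (f y)) := hfm.ennreal_ofReal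
  have hF : BD (fun y => ENNReal.ofReal (f y)) := fun x y h => ENNReal.ofReal_le_ofReal (hb x y h)
  have hfin : ∫⁻ x, ENNReal.ofReal (f x) ≠ ∞ := by
    have h1 := hfi.hasFiniteIntegral
    unfold HasFiniteIntegral at h1
    simp only [Real.enorm_eq_ofReal (h0 _)] at h1
    exact h1.ne
  obtain ⟨K, hK⟩ := maxTr_lipschitz hFm hF hfin j hN hδ
  refine ⟨fun x => ?_, K, fun x' => ?_⟩
  · rw [maxTr_eq h0]
    exact maxTr_ne_top hfin hδ x
  · simp only [maxTr_eq h0]
    exact hK x'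

end P137.AC.D
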