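import Vale.Agent.P137.AC.Defs
import Vale.Agent.P137.AC.EDich

/-! P137, AC step, module E in the form of the interface. -/

open MeasureTheory ENNReal Set Filter Topology

namespace P137.AC.E

theorem truncM_eq {n : ℕ} (f : P137.E n → ℝ) (δ : ℝ) (x : P137.E n) :
    truncM f δ x = maxTr f δ x := rfl

theorem shf_eq {n : ℕ} (x : P137.E n) (s : ℝ) : shf x s = x + s • one n := by
  ext i
  simp [one]

theorem shf_eq' {n : ℕ} (x : P137.E n) (s : ℝ) : shf x (-s) = x - s • one n := by
  ext i
  simp [one, sub_eq_add_neg]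

/-- E at one point -/
theorem atPoint {n : ℕ} (f : P137.E (n + 1) → ℝ) (h0 : ∀ x, 0 ≤ f x) (hb : BlockDecreasing f)
    (j : Fin (n + 1)) (x' : Fin n → ℝ) (hx : ∀ i, 0 < x' i) (t : ℝ) (ht : 0 < t)
    (hCm : Tendsto (fun s => f (shf (ins j t x') (-s))) (𝓝[>] 0) (𝓝 (f (ins j t x'))))
    (hCp : Tendsto (fun s => f (shf (ins j t x') s)) (𝓝[>] 0) (𝓝 (f (ins j t x'))))
    (hD : ∀ δ : ℝ, 0 < δ → ContinuousAt (fun t => truncM f δ (ins j t x')) t) :
    ContinuousAt (fun t => maxFun f (ins j t x')) t ∧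
      ((∃ k : ℕ, maxFun f (ins j t x') = truncM f (1 / ((k : ℝ) + 1)) (ins j t x')) ∨
      maxFun f (ins j t x') = ENNReal.ofReal (f (ins j t x'))) := by
  have hE1 : ENNReal.ofReal (f (ins j t x')) ≤ maxFun f (ins j t x') :=
    le_maxFun f h0 hb _ (ins_pos j ht hx) hCp
  have hsmall : ∀ᶠ s in 𝓝[>] (0 : ℝ), ∀ i, s < ins j t x' i := by
    rw [Filter.eventually_all]
    intro i
    exact mem_nhdsWithin_of_mem_nhds (Iio_mem_nhds (ins_pos j ht hx i))
  have hlim : Tendsto (fun s => ENNReal.ofReal (f (shf (ins j t x') (-s)))) (𝓝[>] 0)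
      (𝓝 (ENNReal.ofReal (f (ins j t x')))) :=
    (ENNReal.continuous_ofReal.tendsto _).comp hCm
  refine ⟨?_, ?_⟩
  · refine tendsto_order.2 ⟨fun a ha => ?_, fun a ha => ?_⟩
    · have ha : a < maxFun f (ins j t x') := ha
      rw [maxFun_eq, lt_iSup_iff] at ha
      obtain ⟨r, ha⟩ := ha
      rw [lt_iSup_iff] at ha
      obtain ⟨hr, ha⟩ := ha
      have h1 : a < truncM f r (ins j t x') := lt_of_lt_of_le ha
        (le_iSup₂ (f := fun (q : ℝ) (_ : r ≤ q) => avgB f q (ins j t x')) r le_rfl)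
      have h2 := (hD r hr).eventually (lt_mem_nhds h1)
      filter_upwards [h2] with s hs
      exact hs.trans_le (truncM_le f hr _)
    · have ha : maxFun f (ins j t x') < a := ha
      have hF : ENNReal.ofReal (f (ins j t x')) < a := hE1.trans_lt ha
      obtain ⟨s0, hs1, hs2, hs3⟩ := ((hlim.eventually (gt_mem_nhds hF)).and
        (hsmall.and self_mem_nhdsWithin)).exists
      have hs3 : 0 < s0 := hs3
      have hδ : 0 < s0 / 2 := by positivity
      have h1 : truncM f (s0 / 2) (ins j t x') < a := (truncM_le f hδ _).trans_lt ha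
      have h2 := (hD _ hδ).eventually (gt_mem_nhds h1)
      filter_upwards [h2, Ioi_mem_nhds (by linarith : t - s0 / 2 < t)] with s hs hst
      have hst : t - s0 / 2 < s := hst
      refine (maxFun_le f h0 hb j x' hδ hst.le ?_).trans_lt ?_
      · intro i
        have := hs2 i
        linarith
      · rw [show 2 * (s0 / 2) = s0 by ring]
        exact max_lt hs hs1
  · by_cases heq : maxFun f (ins j t x') = ENNReal.ofReal (f (ins j t x'))
    · exact Or.inr heq
    · left
      have hlt : ENNReal.ofReal (f (ins j t x')) < maxFun f (ins j t x') :=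
        lt_of_le_of_ne hE1 (Ne.symm heq)
      obtain ⟨s0, hs1, hs2, hs3⟩ := ((hlim.eventually (gt_mem_nhds hlt)).and
        (hsmall.and self_mem_nhdsWithin)).exists
      have hs3 : 0 < s0 := hs3
      obtain ⟨k, hk⟩ := exists_nat_one_div_lt (show (0 : ℝ) < s0 / 2 by positivity)
      refine ⟨k, le_antisymm ?_ (truncM_le f (by positivity) _)⟩
      have hk0 : (0 : ℝ) < 1 / ((k : ℝ) + 1) := by positivity
      have h1 := maxFun_le f h0 hb j x' (t := t) (s := t) hk0 (by linarith)
        (fun i => by have := hs2 i; linarith)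
      have h2 : f (shf (ins j t x') (-(2 * (1 / ((k : ℝ) + 1))))) ≤ f (shf (ins j t x') (-s0)) := by
        refine hb _ _ fun i => ?_
        have := hs2 i
        rw [shf_apply, shf_apply, abs_of_pos (by linarith), abs_of_pos (by linarith)]
        linarith
      have h3 : ENNReal.ofReal (f (shf (ins j t x') (-(2 * (1 / ((k : ℝ) + 1)))))) <
          maxFun f (ins j t x') := (ENNReal.ofReal_le_ofReal h2).trans_lt hs1
      rcases le_max_iff.1 h1 with h4 | h4
      · exact h4
      · exact absurd h4 (not_le.2 h3)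

theorem thm : StmtE := by
  intro n f hfm hb h0 hfi j x hx hfin hBD hD t ht hCm hCp
  have hCm' : Tendsto (fun s => f (shf (ins j t x) (-s))) (𝓝[>] 0) (𝓝 (f (ins j t x))) := by
    simp only [shf_eq']
    exact hCm
  have hCp' : Tendsto (fun s => f (shf (ins j t x) s)) (𝓝[>] 0) (𝓝 (f (ins j t x))) := by
    simp only [shf_eq]
    exact hCp
  have hD' : ∀ δ : ℝ, 0 < δ → ContinuousAt (fun t => truncM f δ (ins j t x)) t := by
    intro δ hδ
    obtain ⟨h1, h2⟩ := hD δ hδ
    have h3 : (fun t => truncM f δ (ins j t x)) =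
        fun t => ENNReal.ofReal (maxTr f δ (ins j t x)).toReal := by
      funext s
      rw [ENNReal.ofReal_toReal (h1 _)]
      rfl
    rw [h3]
    exact (ENNReal.continuous_ofReal.comp h2).continuousAt
  obtain ⟨hc, hd⟩ := atPoint f h0 hb j x hx t ht hCm' hCp' hD'
  have hne : maxFun f (ins j t x) ≠ ∞ := by
    refine ne_top_of_le_ne_top hfin (hBD _ _ fun i => ?_)
    rcases Fin.eq_self_or_eq_succAbove j i with rfl | ⟨k, rfl⟩
    · rw [ins_same, ins_same, abs_zero]
      exact abs_nonneg _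
    · rw [ins_succAbove, ins_succAbove]
  refine ⟨?_, ?_⟩
  · exact (ENNReal.tendsto_toReal hne).comp hc
  · rcases hd with ⟨k, hk⟩ | hk
    · right
      exact ⟨k, by rw [hk]; rfl⟩
    · left
      rw [hk, ENNReal.toReal_ofReal (h0 _)]

end P137.AC.E
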