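import Mathlib

/-! P137 AC, module F: Lusin's property of an indefinite integral. -/

open MeasureTheory ENNReal Set Filter
open scoped Topology

namespace P137.AC

/-- the primitive of `|Γ|` as a Stieltjes function -/
noncomputable def primS (Γ : ℝ → ℝ) (hΓ : Integrable Γ) : StieltjesFunction ℝ where
  toFun := fun t => ∫ s in (0 : ℝ)..t, |Γ s|
  mono' := by
    intro a b hab
    show ∫ s in (0 : ℝ)..a, |Γ s| ≤ ∫ s in (0 : ℝ)..b, |Γ s|
    have h1 := intervalIntegral.integral_interval_sub_left
      (hΓ.abs.intervalIntegrable (a := 0) (b := b)) (hΓ.abs.intervalIntegrable (a := 0) (b := a))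
    have h2 : 0 ≤ ∫ s in a..b, |Γ s| :=
      intervalIntegral.integral_nonneg hab fun _ _ => abs_nonneg _
    linarith
  right_continuous' := by
    intro x
    exact (intervalIntegral.continuous_primitive (fun _ _ => hΓ.abs.intervalIntegrable)
      0).continuousAt.continuousWithinAt

theorem primS_sub (Γ : ℝ → ℝ) (hΓ : Integrable Γ) (a b : ℝ) :
    primS Γ hΓ b - primS Γ hΓ a = ∫ s in a..b, |Γ s| :=
  intervalIntegral.integral_interval_sub_left
      (hΓ.abs.intervalIntegrable (a := 0) (b := b)) (hΓ.abs.intervalIntegrable (a := 0) (b := a))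

theorem primS_measure (Γ : ℝ → ℝ) (hΓ : Integrable Γ) :
    (primS Γ hΓ).measure = volume.withDensity (fun s => ‖Γ s‖ₑ) := by
  apply Measure.ext_of_Ioc
  intro a b hab
  rw [StieltjesFunction.measure_Ioc, primS_sub, withDensity_apply _ measurableSet_Ioc,
    intervalIntegral.integral_of_le hab.le]
  exact ofReal_integral_norm_eq_lintegral_enorm hΓ.integrableOn

theorem lusin {F Γ : ℝ → ℝ} (hΓ : Integrable Γ)
    (h : ∀ a b : ℝ, 0 < a → a ≤ b → F a - F b = - ∫ s in a..b, Γ s) (S : Set ℝ)
    (hS : S ⊆ Ioi 0) (h0 : volume S = 0) : volume (F '' S) = 0 := by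
  set ν : OuterMeasure ℝ := OuterMeasure.restrict (Ioi 0)
    (OuterMeasure.comap F (volume : Measure ℝ).toOuterMeasure) with hν
  have hνa : ∀ A : Set ℝ, ν A = volume (F '' (A ∩ Ioi 0)) := by
    intro A
    rw [hν, OuterMeasure.restrict_apply, OuterMeasure.comap_apply]
    rfl
  have key : ν ≤ (primS Γ hΓ).outer := by
    unfold StieltjesFunction.outer
    rw [OuterMeasure.le_ofFunction]
    intro A
    rw [StieltjesFunction.length_eq, hνa]
    refine le_iInf fun a => le_iInf fun b => le_iInf fun hA => ?_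
    have hA' : A ⊆ Ioc a b := by
      have hb : (botSet : Set ℝ) = ∅ := by
        ext x
        simp only [botSet, mem_ofPred_eq, mem_empty_iff_false, iff_false]
        exact not_isBot x
      rw [hb, Set.sdiff_empty] at hA
      exact hA
    refine (Real.volume_le_diam _).trans ?_
    apply Metric.ediam_le
    have main : ∀ x ∈ A ∩ Ioi 0, ∀ y ∈ A ∩ Ioi 0, x ≤ y →
        |F x - F y| ≤ primS Γ hΓ b - primS Γ hΓ a := by
      intro x hx y hy hxy
      rw [h x y hx.2 hxy, abs_neg]
      calc |∫ s in x..y, Γ s| ≤ ∫ s in x..y, |Γ s| :=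
            intervalIntegral.abs_integral_le_integral_abs hxy
        _ = primS Γ hΓ y - primS Γ hΓ x := (primS_sub Γ hΓ x y).symm
        _ ≤ primS Γ hΓ b - primS Γ hΓ a :=
            sub_le_sub ((primS Γ hΓ).mono (hA' hy.1).2) ((primS Γ hΓ).mono (hA' hx.1).1.le)
    rintro _ ⟨x, hx, rfl⟩ _ ⟨y, hy, rfl⟩
    rw [edist_dist]
    apply ENNReal.ofReal_le_ofReal
    rw [Real.dist_eq]
    rcases le_total x y with hxy | hxy
    · exact main x hx y hy hxy
    · rw [abs_sub_comm]
      exact main y hy x hx hxy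
  have h1 : (primS Γ hΓ).measure S = 0 := by
    rw [primS_measure]
    exact withDensity_absolutelyContinuous _ _ h0
  have h2 : (primS Γ hΓ).outer S = 0 := by
    rw [StieltjesFunction.measure] at h1
    exact h1
  have h3 := key S
  rw [h2, hνa, inter_eq_self_of_subset_left hS] at h3
  exact le_antisymm h3 zero_le

end P137.AC
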