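import Vale.Agent.P137.AC.Defs
import Vale.Agent.P137.AC.LusinF

/-! P137 AC, module F (interface form). -/

open MeasureTheory ENNReal Set Filter
open scoped Topology

namespace P137.AC.F

theorem thm : StmtF := by
  intro F Γ hΓ h S hS h0
  exact lusin hΓ h S hS h0

end P137.AC.F
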