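import Vale.Agent.P137.AC.HLine
import Vale.Agent.P137.AC.Defs

/-!
P137, final assembly (from StmtLINE).
-/

open MeasureTheory ENNReal Set Filter Topology

namespace P137

theorem maxFun_bd {n : ℕ} {f : E (n + 1) → ℝ} (hfm : Measurable f) (hf : BlockDecreasing f)
    (hfi : Integrable f) : BD (maxFun f) := by
  have hf0 : ∀ x, 0 ≤ f x := nn n f hf hfi
  have hF : BD (fun y => ENNReal.ofReal (f y)) := fun x y h => ENNReal.ofReal_le_ofReal (hf x y h)
  intro x y hxy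
  unfold maxFun
  apply iSup₂_mono
  intro r hr
  rw [Measure.addHaar_ball_center volume x r, Measure.addHaar_ball_center volume y r]
  apply ENNReal.div_le_div_right
  have h1 := ball _ (fun y => ENNReal.ofReal (f y)) hfm.ennreal_ofReal hF r x y hxy
  simpa only [Real.enorm_eq_ofReal (hf0 _)] using h1

/-- The weak gradient of the maximal function, from the module LINE. -/
theorem final (hL : AC.StmtLINE) (n : ℕ) : ∃ C : ℝ≥0∞, C ≠ ∞ ∧ ∀ (f : E (n + 1) → ℝ)
    (g : E (n + 1) → E (n + 1)), Measurable f → BlockDecreasing f → Integrable f →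
      Integrable g → IsWeakGradient f g →
        (∀ᵐ x, maxFun f x ≠ ∞) ∧ LocallyIntegrable (M f) ∧
        ∃ G : E (n + 1) → E (n + 1), Measurable G ∧ Integrable G ∧ IsWeakGradient (M f) G ∧
          ∫⁻ x, ‖G x‖ₑ ≤ C * ∫⁻ x, ‖g x‖ₑ := by
  obtain ⟨C, hC, hpl⟩ := AC.plane n
  refine ⟨(n + 1) * (2 * C), by finiteness, ?_⟩
  intro f g hfm hf hfi hg hw
  have hV : variation f ≤ ∫⁻ x, ‖g x‖ₑ := wg _ f g hfi hg hw
  have hg' : ∫⁻ x, ‖g x‖ₑ ≠ ∞ := hg.hasFiniteIntegral.ne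
  have hp : ∀ j : Fin (n + 1), ∫⁻ x : Fin n → ℝ, maxFun f (ins j 0 x) ≤ C * ∫⁻ x, ‖g x‖ₑ :=
    fun j => (hpl f hfm hf hfi j).trans (by gcongr)
  have hfin : ∀ j : Fin (n + 1), ∫⁻ x : Fin n → ℝ, maxFun f (ins j 0 x) ≠ ∞ := fun j =>
    ne_top_of_le_ne_top (ENNReal.mul_ne_top hC hg') (hp j)
  have hU : Measurable (maxFun f) := meas _ f hfm
  have hB : BD (maxFun f) := maxFun_bd hfm hf hfi
  refine ⟨up_ae hU hB (hfin 0), up_loc hU hB (hfin 0), ?_⟩
  obtain ⟨G, g1, g2, g3, g4⟩ := from_line hU hB hfin (fun j => by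
    filter_upwards [hL n f g hfm hf hfi hg hw j (hfin j)] with x hx
    exact hx.2)
  refine ⟨G, g1, g2, g3, g4.trans ?_⟩
  calc ∑ j, 2 * ∫⁻ x : Fin n → ℝ, maxFun f (ins j 0 x)
      ≤ ∑ _j : Fin (n + 1), 2 * (C * ∫⁻ x, ‖g x‖ₑ) := by
        gcongr with j
        exact hp j
    _ = _ := by
        rw [Finset.sum_const, Finset.card_univ, Fintype.card_fin, nsmul_eq_mul]
        push_cast
        ring

end P137
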