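import Vale.Agent.P137.AC.Defs

/-! P137, AC: Lusin's property from the dichotomy. -/

open MeasureTheory ENNReal Set Filter

namespace P137.AC

theorem lip_image_null {K : NNReal} {v : ℝ → ℝ} (hv : LipschitzWith K v) {S : Set ℝ}
    (hS : volume S = 0) : volume (v '' S) = 0 := by
  have h := (hv.lipschitzOnWith (s := S)).hausdorffMeasure_image_le (d := 1) zero_le_one
  rw [hausdorffMeasure_real, hS, mul_zero] at h
  exact le_antisymm h zero_le

theorem lusin_of_dich {w F : ℝ → ℝ} {v : ℕ → ℝ → ℝ}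
    (hF : ∀ S : Set ℝ, S ⊆ Ioi 0 → volume S = 0 → volume (F '' S) = 0)
    (hv : ∀ k, ∃ K : NNReal, LipschitzWith K (v k))
    (hd : ∀ t, 0 < t → w t = F t ∨ ∃ k, w t = v k t) :
    ∀ S : Set ℝ, S ⊆ Ioi 0 → volume S = 0 → volume (w '' S) = 0 := by
  intro S hS h0
  have hsub : w '' S ⊆ F '' S ∪ ⋃ k, v k '' S := by
    rintro _ ⟨t, ht, rfl⟩
    rcases hd t (hS ht) with h | ⟨k, h⟩
    · exact Or.inl ⟨t, ht, h.symm⟩
    · exact Or.inr (mem_iUnion.2 ⟨k, t, ht, h.symm⟩)
  refine measure_mono_null hsub (measure_union_null (hF S hS h0) (measure_iUnion_null fun k => ?_))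
  obtain ⟨K, hK⟩ := hv k
  exact lip_image_null hK h0

end P137.AC
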