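import Vale.Agent.P137.AC.Defs
import Vale.Agent.P137.AC.LUS
import Vale.Agent.P137.AC.ABS
import Vale.Agent.P137.Ball
import Vale.Agent.P137.Meas
import Vale.Agent.P137.Low
import Vale.Agent.P137.WG
import Vale.Agent.P137.NN

/-!
P137, AC module LINE: for a.e. line parallel to a coordinate axis, the maximal function is
continuous off the hyperplane and has Lusin's property.
-/

open MeasureTheory ENNReal Set Filter
open scoped Topology

namespace P137.AC.LINE

theorem bd_max {n : ℕ} {f : E n → ℝ} (hm : Measurable f) (hb : BlockDecreasing f)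
    (h0 : ∀ x, 0 ≤ f x) : BD (maxFun f) := by
  intro x y hxy
  unfold maxFun
  refine iSup₂_mono fun r hr => ?_
  have hv : volume (Metric.ball y r) = volume (Metric.ball x r) := by
    rw [Measure.addHaar_ball_center, Measure.addHaar_ball_center volume x]
  rw [hv]
  refine ENNReal.div_le_div_right ?_ _
  refine ball n (fun z => ‖f z‖ₑ) hm.enorm (fun a b hab => ?_) r x y hxy
  show ‖f b‖ₑ ≤ ‖f a‖ₑ
  rw [Real.enorm_eq_ofReal (h0 _), Real.enorm_eq_ofReal (h0 _)]
  exact ENNReal.ofReal_le_ofReal (hb a b hab)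

theorem abs_ins {n : ℕ} (j : Fin (n + 1)) (t : ℝ) (x : Fin n → ℝ) (i : Fin (n + 1)) :
    |ins j t x i| = |ins j t (absv x) i| := by
  rcases Fin.eq_self_or_eq_succAbove j i with rfl | ⟨l, rfl⟩
  · rw [P137.ins_same, P137.ins_same]
  · rw [P137.ins_succAbove, P137.ins_succAbove]
    unfold absv
    rw [abs_abs]

theorem abs_ins_le {n : ℕ} (j : Fin (n + 1)) {s t : ℝ} (h : |s| ≤ |t|) (x : Fin n → ℝ)
    (i : Fin (n + 1)) : |ins j s x i| ≤ |ins j t x i| := by
  rcases Fin.eq_self_or_eq_succAbove j i with rfl | ⟨l, rfl⟩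
  · rw [P137.ins_same, P137.ins_same]
    exact h
  · rw [P137.ins_succAbove, P137.ins_succAbove]

theorem ae_ne {n : ℕ} : ∀ᵐ x : Fin n → ℝ, ∀ i, x i ≠ 0 := by
  rw [ae_all_iff]
  intro i
  rw [ae_iff]
  have := Measure.pi_hyperplane (fun _ : Fin n => (volume : Measure ℝ)) i 0
  rw [← volume_pi] at this
  simpa using this

theorem thm (hA : StmtA) (hB : StmtB) (hC : StmtC) (hD : StmtD) (hE : StmtE) (hF : StmtF) :
    StmtLINE := by
  intro n f g hm hbd hfi hgi hw j hfin
  have h0 : ∀ x, 0 ≤ f x := nn n f hbd hfi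
  have hBD : BD (maxFun f) := bd_max hm hbd h0
  have hvar : variation f ≠ ∞ :=
    ne_top_of_le_ne_top hgi.hasFiniteIntegral.ne (wg (n + 1) f g hfi hgi hw)
  have hedge : ∫⁻ x : Fin n → ℝ, edge (fun y => ENNReal.ofReal (f y)) j x ≠ ∞ := by
    have h := low n f hm hbd h0 hfi j
    intro h'
    rw [h'] at h
    have h2 : (2 : ℝ≥0∞) * ∞ = ∞ := ENNReal.mul_top (by norm_num)
    rw [h2] at h
    exact hvar (top_le_iff.1 h)
  have hD' := hD n f hm hbd h0 hfi j hedge
  have hfin' : ∀ᵐ x : Fin n → ℝ, maxFun f (ins j 0 x) ≠ ∞ := by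
    have hmeas : Measurable (fun x : Fin n → ℝ => maxFun f (ins j 0 x)) :=
      (meas (n + 1) f hm).comp (measurable_ins_right j 0)
    filter_upwards [ae_lt_top hmeas hfin] with x hx using hx.ne
  have hc := hC n f g hm hbd hfi hgi hw j
  have hslice := hA n _ _ (hB n f g hfi hgi hw j).1
  filter_upwards [hfin', ae_ne, hc, hslice] with x h1 h2 h3 h4
  have habs : ∀ t, maxFun f (ins j t x) = maxFun f (ins j t (absv x)) := fun t =>
    le_antisymm (hBD _ _ fun i => (abs_ins j t x i).ge) (hBD _ _ fun i => (abs_ins j t x i).le)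
  have hfabs : ∀ t, f (ins j t x) = f (ins j t (absv x)) := fun t =>
    le_antisymm (hbd _ _ fun i => (abs_ins j t x i).ge) (hbd _ _ fun i => (abs_ins j t x i).le)
  have hpos : ∀ i, 0 < absv x i := fun i => abs_pos.2 (h2 i)
  have hanti : AntitoneOn (fun s => f (ins j s x)) (Ioi 0) := by
    intro s hs t ht hst
    refine hbd _ _ fun i => abs_ins_le j ?_ x i
    rw [abs_of_pos hs, abs_of_pos ht]
    exact hst
  have hLF : ∀ S : Set ℝ, S ⊆ Ioi 0 → volume S = 0 → volume ((fun t => f (ins j t x)) '' S) = 0 :=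
    hF (fun t => f (ins j t x)) (fun s => g (ins j s x) j) h4.1
      (fun a b ha hab => h4.2 0 hanti a b ha hab)
  have hE' : ∀ t, 0 < t → ContinuousAt (fun t => (maxFun f (ins j t (absv x))).toReal) t ∧
      ((maxFun f (ins j t (absv x))).toReal = f (ins j t (absv x)) ∨
        ∃ k : ℕ, (maxFun f (ins j t (absv x))).toReal =
          (maxTr f (1 / ((k : ℝ) + 1)) (ins j t (absv x))).toReal) := fun t ht =>
    hE n f hm hbd h0 hfi j (absv x) hpos (by rw [← habs]; exact h1) hBD
      (fun δ hδ => ⟨(hD' δ hδ).1, by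
        obtain ⟨K, hK⟩ := (hD' δ hδ).2
        exact (hK (absv x)).continuous⟩) t ht (h3 t ht).1 (h3 t ht).2
  refine ⟨h1, ?_, ?_⟩
  · have e : (fun t => M f (ins j t x)) = fun t => (maxFun f (ins j t (absv x))).toReal :=
      funext fun t => by unfold M; rw [habs]
    rw [e]
    exact fun t ht => (hE' t ht).1.continuousWithinAt
  · refine lusin_of_dich (F := fun t => f (ins j t x))
      (v := fun k t => (maxTr f (1 / ((k : ℝ) + 1)) (ins j t (absv x))).toReal) hLF ?_ ?_
    · intro k
      obtain ⟨K, hK⟩ := (hD' (1 / ((k : ℝ) + 1)) (by positivity)).2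
      exact ⟨K, hK (absv x)⟩
    · intro t ht
      rcases (hE' t ht).2 with h | ⟨k, h⟩
      · left
        show M f (ins j t x) = f (ins j t x)
        unfold M
        rw [habs t, h, hfabs]
      · right
        refine ⟨k, ?_⟩
        show M f (ins j t x) = _
        unfold M
        rw [habs t, h]

end P137.AC.LINE
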