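import Vale.Agent.P137.AC.A
import Vale.Agent.P137.AC.B
import Vale.Agent.P137.AC.C
import Vale.Agent.P137.AC.DThm
import Vale.Agent.P137.AC.E
import Vale.Agent.P137.AC.F
import Vale.Agent.P137.AC.LINE
import Vale.Agent.P137.AC.Final

/-! P137, AC: everything put together. -/

open MeasureTheory ENNReal Set Filter Topology

namespace P137

theorem weakGradient (n : ℕ) : ∃ C : ℝ≥0∞, C ≠ ∞ ∧ ∀ (f : E (n + 1) → ℝ)
    (g : E (n + 1) → E (n + 1)), Measurable f → BlockDecreasing f → Integrable f →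
      Integrable g → IsWeakGradient f g →
        (∀ᵐ x, maxFun f x ≠ ∞) ∧ LocallyIntegrable (M f) ∧
        ∃ G : E (n + 1) → E (n + 1), Measurable G ∧ Integrable G ∧ IsWeakGradient (M f) G ∧
          ∫⁻ x, ‖G x‖ₑ ≤ C * ∫⁻ x, ‖g x‖ₑ :=
  final (AC.LINE.thm AC.A.thm AC.B.thm (AC.C.thm AC.A.thm AC.B.thm) AC.D.thm AC.E.thm AC.F.thm) n

end P137
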