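import Vale.Agent.P137.Ptw

/-! P137, AC, module D: the truncated maximal function is Lipschitz along coordinate lines. -/

open MeasureTheory ENNReal Set

namespace P137

/-- the truncated maximal function: only radii at least `δ`. -/
noncomputable def maxTr {n : ℕ} (δ : ℝ) (F : E n → ℝ≥0∞) (x : E n) : ℝ≥0∞ :=
  ⨆ (r : ℝ) (_ : δ ≤ r), (∫⁻ y in Metric.ball x r, F y) / volume (Metric.ball x r)

lemma mem_ball_ins {n : ℕ} (j : Fin (n + 1)) (t : ℝ) (x' : Fin n → ℝ) (z : E (n + 1)) {r : ℝ}
    (hr : 0 < r) : ins j t x' ∈ Metric.ball z r ↔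
      (t - z j) ^ 2 + ∑ i, (x' i - z (j.succAbove i)) ^ 2 < r ^ 2 := by
  rw [Metric.mem_ball, dist_eq_norm, EuclideanSpace.norm_eq, Real.sqrt_lt' hr,
    Fin.sum_univ_succAbove _ j]
  simp [sq_abs]

lemma vol_slice (a b S r : ℝ) :
    volume ({t : ℝ | (t - a) ^ 2 + S < r ^ 2} \ {t : ℝ | (t - b) ^ 2 + S < r ^ 2}) ≤
      ENNReal.ofReal |a - b| := by
  set ρ : ℝ := Real.sqrt (r ^ 2 - S) with hρ
  have key : ∀ c t : ℝ, (t - c) ^ 2 + S < r ^ 2 ↔ |t - c| < ρ := by
    intro c t
    rw [hρ, Real.lt_sqrt (abs_nonneg _), sq_abs]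
    constructor <;> intro h <;> linarith
  rcases le_total a b with h | h
  · have hs : ({t : ℝ | (t - a) ^ 2 + S < r ^ 2} \ {t : ℝ | (t - b) ^ 2 + S < r ^ 2}) ⊆
        Ioc (a - ρ) (b - ρ) := by
      rintro t ⟨h1, h2⟩
      rw [mem_ofPred_eq, key, abs_lt] at h1
      rw [mem_ofPred_eq, key, not_lt, le_abs] at h2
      refine ⟨by linarith, ?_⟩
      rcases h2 with h2 | h2
      · linarith
      · linarith
    refine (measure_mono hs).trans ?_
    rw [Real.volume_Ioc]
    apply ENNReal.ofReal_le_ofReal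
    rw [abs_of_nonpos (by linarith)]
    linarith
  · have hs : ({t : ℝ | (t - a) ^ 2 + S < r ^ 2} \ {t : ℝ | (t - b) ^ 2 + S < r ^ 2}) ⊆
        Ico (b + ρ) (a + ρ) := by
      rintro t ⟨h1, h2⟩
      rw [mem_ofPred_eq, key, abs_lt] at h1
      rw [mem_ofPred_eq, key, not_lt, le_abs] at h2
      refine ⟨?_, by linarith⟩
      rcases h2 with h2 | h2
      · linarith
      · linarith
    refine (measure_mono hs).trans ?_
    rw [Real.volume_Ico]
    apply ENNReal.ofReal_le_ofReal
    rw [abs_of_nonneg (by linarith)]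
    linarith

/-- shifting the centre of a ball in direction `j`. -/
theorem ball_shift {n : ℕ} {F : E (n + 1) → ℝ≥0∞} (hFm : Measurable F) (hF : BD F)
    (j : Fin (n + 1)) {x y : E (n + 1)} (hxy : ∀ i, i ≠ j → x i = y i) {r : ℝ} (hr : 0 < r) :
    ∫⁻ z in Metric.ball x r, F z ≤
      (∫⁻ z in Metric.ball y r, F z) + ENNReal.ofReal |x j - y j| * ∫⁻ x', edge F j x' := by
  set D : Set (E (n + 1)) := Metric.ball x r \ Metric.ball y r with hD
  have hDm : MeasurableSet D := measurableSet_ball.diff measurableSet_ball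
  have h1 : ∫⁻ z in Metric.ball x r, F z ≤
      (∫⁻ z in Metric.ball y r, F z) + ∫⁻ z in D, F z := by
    refine (lintegral_mono_set (t := Metric.ball y r ∪ D) ?_).trans (lintegral_union_le _ _ _)
    intro z hz
    by_cases h : z ∈ Metric.ball y r
    · exact Or.inl h
    · exact Or.inr ⟨hz, h⟩
  refine h1.trans ?_
  gcongr
  rw [← lintegral_indicator hDm, fub n j _ (hFm.indicator hDm)]
  have hedge : Measurable (edge F j) := by
    unfold edge
    exact Measurable.iSup fun k => hFm.comp (measurable_ins_right j _)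
  rw [← lintegral_const_mul _ hedge]
  apply lintegral_mono
  intro x'
  set S : ℝ := ∑ i, (x' i - x (j.succAbove i)) ^ 2 with hS
  have hS' : S = ∑ i, (x' i - y (j.succAbove i)) ^ 2 := by
    rw [hS]
    apply Finset.sum_congr rfl
    intro i _
    rw [hxy _ (Fin.succAbove_ne j i)]
  set A : Set ℝ := {t : ℝ | (t - x j) ^ 2 + S < r ^ 2} \ {t : ℝ | (t - y j) ^ 2 + S < r ^ 2}
    with hA
  have hAm : MeasurableSet A := by
    apply MeasurableSet.diff
    · exact measurableSet_lt (by fun_prop) measurable_const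
    · exact measurableSet_lt (by fun_prop) measurable_const
  have hmem : ∀ t : ℝ, ins j t x' ∈ D ↔ t ∈ A := by
    intro t
    rw [hD, hA, mem_sdiff, mem_sdiff, mem_ball_ins j t x' x hr, mem_ball_ins j t x' y hr, ← hS,
      ← hS']
    rfl
  have hne : ∀ᵐ t : ℝ, t ≠ 0 := by
    rw [ae_iff]
    simp
  calc ∫⁻ t, D.indicator F (ins j t x') ≤ ∫⁻ t, A.indicator (fun _ => edge F j x') t := by
        apply lintegral_mono_ae
        filter_upwards [hne] with t ht
        by_cases h : t ∈ A
        · rw [indicator_of_mem ((hmem t).2 h), indicator_of_mem h]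
          apply le_edge hF j x' _
          · rw [ins_same]
            exact ht
          · intro i
            rw [ins_succAbove]
        · rw [indicator_of_notMem (fun h' => h ((hmem t).1 h'))]
          exact zero_le
    _ = edge F j x' * volume A := by
        rw [lintegral_indicator hAm, setLIntegral_const]
    _ ≤ edge F j x' * ENNReal.ofReal |x j - y j| := by
        gcongr
        exact vol_slice _ _ _ _
    _ = _ := mul_comm _ _

theorem maxTr_shift {n : ℕ} {F : E (n + 1) → ℝ≥0∞} (hFm : Measurable F) (hF : BD F)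
    (j : Fin (n + 1)) {x y : E (n + 1)} (hxy : ∀ i, i ≠ j → x i = y i) {δ : ℝ} (hδ : 0 < δ) :
    maxTr δ F x ≤ maxTr δ F y + ENNReal.ofReal |x j - y j| *
      ((∫⁻ x', edge F j x') / volume (Metric.ball (0 : E (n + 1)) δ)) := by
  unfold maxTr
  apply iSup₂_le
  intro r hr
  have hr0 : 0 < r := lt_of_lt_of_le hδ hr
  calc (∫⁻ z in Metric.ball x r, F z) / volume (Metric.ball x r)
      ≤ ((∫⁻ z in Metric.ball y r, F z) + ENNReal.ofReal |x j - y j| * ∫⁻ x', edge F j x') /
          volume (Metric.ball x r) := by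
        gcongr
        exact ball_shift hFm hF j hxy hr0
    _ = (∫⁻ z in Metric.ball y r, F z) / volume (Metric.ball y r) +
          ENNReal.ofReal |x j - y j| * ((∫⁻ x', edge F j x') / volume (Metric.ball x r)) := by
        rw [ENNReal.add_div, mul_div_assoc, Measure.addHaar_ball_center volume x r,
          Measure.addHaar_ball_center volume y r]
    _ ≤ _ := by
        apply add_le_add
        · exact le_iSup₂ (f := fun (r : ℝ) (_ : δ ≤ r) =>
            (∫⁻ z in Metric.ball y r, F z) / volume (Metric.ball y r)) r hr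
        · rw [Measure.addHaar_ball_center volume x r]
          gcongr

theorem maxTr_ne_top {n : ℕ} {F : E n → ℝ≥0∞} (hfin : ∫⁻ x, F x ≠ ∞) {δ : ℝ} (hδ : 0 < δ)
    (x : E n) : maxTr δ F x ≠ ∞ := by
  have h1 : maxTr δ F x ≤ (∫⁻ x, F x) / volume (Metric.ball (0 : E n) δ) := by
    unfold maxTr
    apply iSup₂_le
    intro r hr
    rw [Measure.addHaar_ball_center volume x r]
    apply ENNReal.div_le_div (setLIntegral_le_lintegral _ _)
    exact measure_mono (Metric.ball_subset_ball hr)
  exact ne_top_of_le_ne_top (ENNReal.div_ne_top hfin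
    (Metric.measure_ball_pos volume _ hδ).ne') h1

/-- MODULE D: the truncated maximal function is Lipschitz along coordinate lines. -/
theorem maxTr_lipschitz {n : ℕ} {F : E (n + 1) → ℝ≥0∞} (hFm : Measurable F) (hF : BD F)
    (hfin : ∫⁻ x, F x ≠ ∞) (j : Fin (n + 1)) (hN : ∫⁻ x', edge F j x' ≠ ∞) {δ : ℝ} (hδ : 0 < δ) :
    ∃ K : NNReal, ∀ x' : Fin n → ℝ,
      LipschitzWith K (fun t : ℝ => (maxTr δ F (ins j t x')).toReal) := by
  set c : ℝ≥0∞ := (∫⁻ x', edge F j x') / volume (Metric.ball (0 : E (n + 1)) δ) with hc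
  have hcf : c ≠ ∞ := ENNReal.div_ne_top hN (Metric.measure_ball_pos volume _ hδ).ne'
  refine ⟨c.toNNReal, fun x' => LipschitzWith.of_le_add_mul _ fun s t => ?_⟩
  have h1 : maxTr δ F (ins j s x') ≤ maxTr δ F (ins j t x') + ENNReal.ofReal |s - t| * c := by
    have := maxTr_shift hFm hF j (x := ins j s x') (y := ins j t x') (by
      intro i hi
      rcases Fin.eq_self_or_eq_succAbove j i with rfl | ⟨l, rfl⟩
      · exact absurd rfl hi
      · rw [ins_succAbove, ins_succAbove]) hδ
    rwa [ins_same, ins_same] at this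
  have h2 := ENNReal.toReal_mono (ENNReal.add_ne_top.2
    ⟨maxTr_ne_top hfin hδ _, ENNReal.mul_ne_top ENNReal.ofReal_ne_top hcf⟩) h1
  rw [ENNReal.toReal_add (maxTr_ne_top hfin hδ _) (ENNReal.mul_ne_top ENNReal.ofReal_ne_top hcf),
    ENNReal.toReal_mul, ENNReal.toReal_ofReal (abs_nonneg _)] at h2
  rw [Real.dist_eq]
  calc (maxTr δ F (ins j s x')).toReal ≤ (maxTr δ F (ins j t x')).toReal + |s - t| * c.toReal := h2
    _ = _ := by
        rw [mul_comm]
        rfl

end P137
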