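import Vale.Agent.P137.AC.D
import Vale.Agent.P137.AC.EDich

/-! P137, AC, module D in the form used by module E. -/

open MeasureTheory ENNReal Set

namespace P137.AC

theorem truncM_eq {n : ℕ} {f : E n → ℝ} (h0 : ∀ x, 0 ≤ f x) (δ : ℝ) (x : E n) :
    truncM f δ x = maxTr δ (fun y => ENNReal.ofReal (f y)) x := by
  unfold truncM maxTr avgB
  simp only [Real.enorm_eq_ofReal (h0 _)]

/-- MODULE D for `truncM`. -/
theorem moduleD {n : ℕ} (f : E (n + 1) → ℝ) (hfm : Measurable f) (h0 : ∀ x, 0 ≤ f x)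
    (hb : BlockDecreasing f) (hfi : Integrable f) (j : Fin (n + 1))
    (hN : ∫⁻ x', edge (fun y => ENNReal.ofReal (f y)) j x' ≠ ∞) {δ : ℝ} (hδ : 0 < δ) :
    (∀ x, truncM f δ x ≠ ∞) ∧
    (∃ K : NNReal, ∀ x' : Fin n → ℝ,
      LipschitzWith K (fun t : ℝ => (truncM f δ (ins j t x')).toReal)) ∧
    ∀ x' : Fin n → ℝ, Continuous (fun t : ℝ => truncM f δ (ins j t x')) := by
  have hFm : Measurable (fun y => ENNReal.ofReal (f y)) := hfm.ennreal_ofReal
  have hF : BD (fun y => ENNReal.ofReal (f y)) := fun x y h => ENNReal.ofReal_le_ofReal (hb x y h)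
  have hfin : ∫⁻ x, ENNReal.ofReal (f x) ≠ ∞ := by
    have h1 := hfi.hasFiniteIntegral
    unfold HasFiniteIntegral at h1
    simp only [Real.enorm_eq_ofReal (h0 _)] at h1
    exact h1.ne
  have hT : ∀ x, truncM f δ x ≠ ∞ := fun x => by
    rw [truncM_eq h0]
    exact maxTr_ne_top hfin hδ x
  obtain ⟨K, hK⟩ := maxTr_lipschitz hFm hF hfin j hN hδ
  have hK' : ∀ x' : Fin n → ℝ,
      LipschitzWith K (fun t : ℝ => (truncM f δ (ins j t x')).toReal) := by
    intro x'
    simp only [truncM_eq h0]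
    exact hK x'
  refine ⟨hT, ⟨K, hK'⟩, fun x' => ?_⟩
  have h2 : (fun t : ℝ => truncM f δ (ins j t x')) =
      fun t : ℝ => ENNReal.ofReal (truncM f δ (ins j t x')).toReal := by
    funext t
    rw [ENNReal.ofReal_toReal (hT _)]
  rw [h2]
  exact ENNReal.continuous_ofReal.comp (hK' x').continuous

end P137.AC
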