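import Mathlib

/-!
P137, AC step, module G: a continuous antitone function with Lusin's property N is an integral.
-/

open MeasureTheory Set Filter Topology

namespace P137.AC

/-- monotone, continuous, Lusin N on a compact interval: the fundamental theorem of calculus -/
theorem ftc_mono {v : ℝ → ℝ} {a b : ℝ} (hab : a ≤ b) (hm : MonotoneOn v (Icc a b))
    (hc : ContinuousOn v (Icc a b))
    (hN : ∀ S : Set ℝ, S ⊆ Icc a b → volume S = 0 → volume (v '' S) = 0) :
    ∫ x in a..b, deriv v x = v b - v a := by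
  have hvab : v a ≤ v b := hm (left_mem_Icc.2 hab) (right_mem_Icc.2 hab) hab
  have hm' : MonotoneOn v (uIcc a b) := by rwa [uIcc_of_le hab]
  have hup := hm'.intervalIntegral_deriv_mem_uIcc
  rw [uIcc_of_le (by linarith)] at hup
  have hint := hm'.intervalIntegrable_deriv
  refine le_antisymm hup.2 ?_
  set D : Set ℝ := Ioo a b ∩ {x | DifferentiableAt ℝ v x} with hD
  have hDm : MeasurableSet D := measurableSet_Ioo.inter (measurableSet_of_differentiableAt ℝ v)
  have hcompl : volume (Icc a b \ D) = 0 := by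
    have h1 : ∀ᵐ x, x ∈ Icc a b → DifferentiableWithinAt ℝ v (Icc a b) x :=
      hm.ae_differentiableWithinAt_of_mem
    have h2 : volume {x | ¬ (x ∈ Icc a b → DifferentiableWithinAt ℝ v (Icc a b) x)} = 0 := h1
    have h3 : volume ({a, b} : Set ℝ) = 0 := (Set.toFinite _).measure_zero volume
    refine measure_mono_null ?_ (measure_union_null h2 h3)
    rintro x ⟨hx, hxD⟩
    by_cases hxa : x = a
    · right; simp [hxa]
    by_cases hxb : x = b
    · right; simp [hxb]
    left
    intro hcon
    apply hxD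
    have hxo : x ∈ Ioo a b := ⟨lt_of_le_of_ne hx.1 (Ne.symm hxa), lt_of_le_of_ne hx.2 hxb⟩
    exact ⟨hxo, (hcon hx).differentiableAt (Icc_mem_nhds hxo.1 hxo.2)⟩
  have himg : Icc (v a) (v b) ⊆ v '' D ∪ v '' (Icc a b \ D) := by
    rw [← image_union]
    refine (intermediate_value_Icc hab hc).trans (image_mono ?_)
    intro x hx
    by_cases hxD : x ∈ D
    · exact Or.inl hxD
    · exact Or.inr ⟨hx, hxD⟩
  have hD2 : volume (v '' D) ≤ ∫⁻ x in D, ENNReal.ofReal |deriv v x| := by
    have := MeasureTheory.addHaar_image_le_lintegral_abs_det_fderiv (μ := (volume : Measure ℝ))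
      (f := v) (f' := fun x => ContinuousLinearMap.toSpanSingleton ℝ (deriv v x)) hDm
      (fun x hx => hx.2.hasDerivAt.hasFDerivAt.hasFDerivWithinAt)
    simpa only [ContinuousLinearMap.det_toSpanSingleton] using this
  have hvol : ENNReal.ofReal (v b - v a) ≤ ∫⁻ x in D, ENNReal.ofReal |deriv v x| := by
    calc ENNReal.ofReal (v b - v a) = volume (Icc (v a) (v b)) := by rw [Real.volume_Icc]
      _ ≤ volume (v '' D ∪ v '' (Icc a b \ D)) := measure_mono himg
      _ ≤ volume (v '' D) + volume (v '' (Icc a b \ D)) := measure_union_le _ _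
      _ = volume (v '' D) := by rw [hN _ sdiff_subset hcompl, add_zero]
      _ ≤ _ := hD2
  have hDsub : D ⊆ Ioc a b := fun x hx => ⟨hx.1.1, hx.1.2.le⟩
  have hpos : ∀ x ∈ D, 0 ≤ deriv v x := by
    intro x hx
    rw [← derivWithin_of_mem_nhds (Icc_mem_nhds hx.1.1 hx.1.2)]
    exact hm.derivWithin_nonneg
  have hintD : IntegrableOn (deriv v) D volume :=
    ((intervalIntegrable_iff_integrableOn_Ioc_of_le hab).1 hint).mono_set hDsub
  have e1 : ∫⁻ x in D, ENNReal.ofReal |deriv v x| = ENNReal.ofReal (∫ x in D, deriv v x) := by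
    rw [ofReal_integral_eq_lintegral_ofReal hintD
      ((ae_restrict_iff' hDm).2 (Eventually.of_forall hpos))]
    exact setLIntegral_congr_fun hDm fun x hx => by rw [abs_of_nonneg (hpos x hx)]
  have e2 : ∫ x in D, deriv v x = ∫ x in a..b, deriv v x := by
    rw [intervalIntegral.integral_of_le hab]
    apply setIntegral_congr_set
    have h6 : volume (Ioc a b \ D) = 0 :=
      measure_mono_null (sdiff_subset_sdiff_left Ioc_subset_Icc_self) hcompl
    refine (LE.le.eventuallyLE hDsub).antisymm ?_
    rw [ae_le_set]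
    exact h6
  rw [e1, e2] at hvol
  have hnn : 0 ≤ ∫ x in a..b, deriv v x := hup.1
  exact (ENNReal.ofReal_le_ofReal_iff hnn).1 hvol

/-- antitone version on the half line -/
theorem ftc_anti {w : ℝ → ℝ} (hm : AntitoneOn w (Ioi 0)) (hc : ContinuousOn w (Ioi 0))
    (hN : ∀ S : Set ℝ, S ⊆ Ioi 0 → volume S = 0 → volume (w '' S) = 0) {a b : ℝ} (ha : 0 < a)
    (hab : a ≤ b) : ∫ x in a..b, deriv w x = w b - w a := by
  have hsub : Icc a b ⊆ Ioi 0 := fun x hx => lt_of_lt_of_le ha hx.1
  have h := ftc_mono (v := fun x => - w x) hab (fun x hx y hy hxy => neg_le_neg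
    (hm (hsub hx) (hsub hy) hxy)) (hc.mono hsub).neg (by
      intro S hS h0
      have h1 := hN S (hS.trans hsub) h0
      have h2 : (fun x => - w x) '' S = Neg.neg ⁻¹' (w '' S) := by
        ext y
        simp only [mem_image, mem_preimage]
        constructor
        · rintro ⟨x, hx, rfl⟩
          exact ⟨x, hx, by simp⟩
        · rintro ⟨x, hx, hxy⟩
          exact ⟨x, hx, by rw [hxy]; simp⟩
      rw [h2]
      exact (Measure.measurePreserving_neg (volume : Measure ℝ)).quasiMeasurePreserving.preimage_null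
        h1)
  have e : ∀ x, deriv (fun x => - w x) x = - deriv w x := fun x => by simp
  simp_rw [e] at h
  rw [intervalIntegral.integral_neg] at h
  linarith


/-- absolute continuity on compact subintervals of the open half line -/
theorem ac_anti {w : ℝ → ℝ} (hm : AntitoneOn w (Ioi 0)) (hc : ContinuousOn w (Ioi 0))
    (hN : ∀ S : Set ℝ, S ⊆ Ioi 0 → volume S = 0 → volume (w '' S) = 0) {a b : ℝ} (ha : 0 < a)
    (hab : a ≤ b) : AbsolutelyContinuousOnInterval w a b := by
  have hsub : Icc a b ⊆ Ioi 0 := fun x hx => lt_of_lt_of_le ha hx.1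
  have hint : ∀ x, a ≤ x → IntervalIntegrable (deriv w) volume a x := by
    intro x hx
    have hm' : MonotoneOn (fun x => - w x) (uIcc a x) := by
      rw [uIcc_of_le hx]
      exact fun y hy z hz hyz => neg_le_neg
        (hm (lt_of_lt_of_le ha hy.1) (lt_of_lt_of_le ha hz.1) hyz)
    have e1 : deriv (fun x => - w x) = fun x => - deriv w x := funext fun x => by simp
    have h1 := hm'.intervalIntegrable_deriv
    rw [e1] at h1
    have := h1.neg
    simpa [Pi.neg_def] using this
  have hF := (hint b hab).absolutelyContinuousOnInterval_intervalIntegral (c := a) left_mem_uIcc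
  have hval : ∀ x ∈ uIcc a b, w x = w a + ∫ v in a..x, deriv w v := by
    intro x hx
    rw [uIcc_of_le hab] at hx
    rw [ftc_anti hm hc hN ha hx.1]
    ring
  rw [absolutelyContinuousOnInterval_iff] at hF ⊢
  intro ε hε
  obtain ⟨δ, hδ, h⟩ := hF ε hε
  refine ⟨δ, hδ, fun E hE hlen => ?_⟩
  refine lt_of_le_of_lt (le_of_eq ?_) (h E hE hlen)
  refine Finset.sum_congr rfl fun i hi => ?_
  have h1 := hE.1 i hi
  rw [hval _ h1.1, hval _ h1.2]
  simp [Real.dist_eq]

/-- the integral of the derivative over `(0, b)` -/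
theorem int_zero {w : ℝ → ℝ} (hm : AntitoneOn w (Ici 0)) {b : ℝ} (hb : 0 ≤ b) :
    IntervalIntegrable (deriv w) volume 0 b ∧ ∫ x in (0 : ℝ)..b, |deriv w x| ≤ w 0 - w b := by
  have hm' : MonotoneOn (fun x => - w x) (uIcc 0 b) := by
    rw [uIcc_of_le hb]
    exact fun x hx y hy hxy => neg_le_neg (hm hx.1 hy.1 hxy)
  have e : ∀ x, deriv (fun x => - w x) x = - deriv w x := fun x => by simp
  have h1 := hm'.intervalIntegrable_deriv
  have h2 := hm'.intervalIntegral_deriv_mem_uIcc
  have hwb : w b ≤ w 0 := hm (mem_Ici.2 le_rfl) (mem_Ici.2 hb) hb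
  have e1 : deriv (fun x => - w x) = fun x => - deriv w x := funext e
  rw [e1] at h1
  have h3 : IntervalIntegrable (deriv w) volume 0 b := by
    have := h1.neg
    simpa [Pi.neg_def] using this
  refine ⟨h3, ?_⟩
  rw [uIcc_of_le (by linarith)] at h2
  have h4 : ∫ x in (0 : ℝ)..b, |deriv w x| = ∫ x in (0 : ℝ)..b, deriv (fun x => - w x) x := by
    rw [intervalIntegral.integral_of_le hb, intervalIntegral.integral_of_le hb,
      integral_Ioc_eq_integral_Ioo, integral_Ioc_eq_integral_Ioo]
    refine setIntegral_congr_fun measurableSet_Ioo fun x hx => ?_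
    have h5 : 0 ≤ deriv (fun x => - w x) x := by
      rw [← derivWithin_of_mem_nhds (Icc_mem_nhds hx.1 hx.2)]
      have := hm'
      rw [uIcc_of_le hb] at this
      exact this.derivWithin_nonneg
    simp only [e] at h5 ⊢
    rw [← abs_neg]
    exact abs_of_nonneg h5
  rw [h4]
  linarith [h2.2]

/-- the derivative of an even nonnegative function, antitone on the half line, is integrable -/
theorem int_deriv {w : ℝ → ℝ} (h0 : ∀ t, 0 ≤ w t) (hev : ∀ t, w (-t) = w t)
    (hm : AntitoneOn w (Ici 0)) :
    Integrable (deriv w) ∧ ∫ t, |deriv w t| ≤ 2 * w 0 := by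
  have hodd : ∀ t, deriv w (-t) = - deriv w t := by
    intro t
    have h1 : (fun t => w (-t)) = w := funext hev
    have h2 := deriv_comp_neg w t
    rw [h1] at h2
    rw [h2]; simp
  have hpos : IntegrableOn (deriv w) (Ioi 0) ∧ ∫ t in Ioi (0 : ℝ), |deriv w t| ≤ w 0 := by
    have hint : ∀ n : ℕ, IntegrableOn (deriv w) (Ioc 0 (n : ℝ)) := fun n =>
      (intervalIntegrable_iff_integrableOn_Ioc_of_le (Nat.cast_nonneg n)).1
        (int_zero hm (Nat.cast_nonneg n)).1
    have hI : IntegrableOn (deriv w) (Ioi 0) :=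
      integrableOn_Ioi_of_intervalIntegral_norm_bounded (w 0) 0 hint
        tendsto_natCast_atTop_atTop (Eventually.of_forall fun n => by
          have := (int_zero hm (Nat.cast_nonneg (α := ℝ) n)).2
          simp only [Real.norm_eq_abs]
          linarith [h0 (n : ℝ)])
    refine ⟨hI, ?_⟩
    have ht := intervalIntegral_tendsto_integral_Ioi 0 hI.norm tendsto_natCast_atTop_atTop
      (ι := ℕ)
    refine le_of_tendsto ht (Eventually.of_forall fun n => ?_)
    have := (int_zero hm (Nat.cast_nonneg (α := ℝ) n)).2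
    simp only [Real.norm_eq_abs]
    linarith [h0 (n : ℝ)]
  have hneg : IntegrableOn (deriv w) (Iic 0) ∧ ∫ t in Iic (0 : ℝ), |deriv w t| ≤ w 0 := by
    have e1 : deriv w = fun t => - deriv w (-t) := funext fun t => by rw [hodd]; simp
    constructor
    · rw [integrableOn_Iic_iff_integrableOn_Iio]
      have h3 : IntegrableOn (fun t => deriv w (-t)) (Iio 0) := by
        have h4 : IntegrableOn (deriv w) (Ioi (-0)) := by simpa using hpos.1
        exact h4.comp_neg_Iio
      rw [e1]
      exact h3.neg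
    · have h5 := integral_comp_neg_Iic (0 : ℝ) (fun t => |deriv w t|)
      simp only [hodd, abs_neg, neg_zero] at h5
      rw [h5]
      exact hpos.2
  have hu : Iic (0 : ℝ) ∪ Ioi 0 = univ := Iic_union_Ioi
  have hI : Integrable (deriv w) := by
    rw [← integrableOn_univ, ← hu]
    exact hneg.1.union hpos.1
  refine ⟨hI, ?_⟩
  rw [← integral_add_compl (measurableSet_Iic (a := (0 : ℝ))) hI.abs, compl_Iic]
  linarith [hneg.2, hpos.2]

end P137.AC
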