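import Mathlib

/-!
P137, module H, one dimensional part: integration by parts for an even function which is
nonincreasing on the half line and absolutely continuous on compact subintervals of `(0, ∞)`.
-/

open MeasureTheory ENNReal Set Filter Topology

namespace P137

theorem hp_anti {w : ℝ → ℝ} (hm : ∀ s t, |s| ≤ |t| → w t ≤ w s) : AntitoneOn w (Ici 0) := by
  intro s hs t ht hst
  apply hm
  rw [abs_of_nonneg hs, abs_of_nonneg ht]
  exact hst

theorem hp_even {w : ℝ → ℝ} (hm : ∀ s t, |s| ≤ |t| → w t ≤ w s) (t : ℝ) : w (-t) = w t :=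
  le_antisymm (hm _ _ (by simp)) (hm _ _ (by simp))

theorem hp_deriv_nonpos {w : ℝ → ℝ} (hm : ∀ s t, |s| ≤ |t| → w t ≤ w s) {t : ℝ} (ht : 0 < t) :
    deriv w t ≤ 0 := by
  have h1 : derivWithin w (Ici 0) t ≤ 0 := (hp_anti hm).derivWithin_nonpos
  rwa [derivWithin_of_mem_nhds (Ici_mem_nhds ht)] at h1

theorem hp_deriv_odd {w : ℝ → ℝ} (hm : ∀ s t, |s| ≤ |t| → w t ≤ w s) (t : ℝ) :
    deriv w (-t) = - deriv w t := by
  have h1 := deriv_comp_neg (f := w) t
  have h2 : (fun x => w (-x)) = w := funext (hp_even hm)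
  rw [h2] at h1
  linarith

theorem hp_measurable {w : ℝ → ℝ} (hm : ∀ s t, |s| ≤ |t| → w t ≤ w s) : Measurable w := by
  have h1 : w = fun t => w |t| := by
    funext t
    exact le_antisymm (hm _ _ (by simp)) (hm _ _ (by simp))
  have h2 : Antitone (fun t : ℝ => w (max t 0)) := by
    intro s t hst
    apply hm
    rw [abs_of_nonneg (le_max_right _ _), abs_of_nonneg (le_max_right _ _)]
    exact max_le_max_right 0 hst
  have h3 : w = (fun t : ℝ => w (max t 0)) ∘ (fun t => |t|) := by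
    funext t
    simp only [Function.comp]
    rw [max_eq_left (abs_nonneg t)]
    exact congrFun h1 t
  rw [h3]
  exact h2.measurable.comp measurable_norm

theorem hp_int_Ioc {w : ℝ → ℝ} (h0 : ∀ t, 0 ≤ w t) (hm : ∀ s t, |s| ≤ |t| → w t ≤ w s)
    {a b : ℝ} (ha : 0 < a) (hab : a ≤ b) (hAC : AbsolutelyContinuousOnInterval w a b) :
    ∫⁻ t in Ioc a b, ‖deriv w t‖ₑ ≤ ENNReal.ofReal (w 0) := by
  have h1 : IntegrableOn (deriv w) (Ioc a b) := by
    have := hAC.intervalIntegrable_deriv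
    rwa [intervalIntegrable_iff_integrableOn_Ioc_of_le hab] at this
  rw [← ofReal_integral_norm_eq_lintegral_enorm h1]
  apply ENNReal.ofReal_le_ofReal
  have h2 : ∫ t in Ioc a b, ‖deriv w t‖ = ∫ t in Ioc a b, - deriv w t := by
    apply setIntegral_congr_fun measurableSet_Ioc
    intro t ht
    show ‖deriv w t‖ = - deriv w t
    rw [Real.norm_eq_abs, abs_of_nonpos (hp_deriv_nonpos hm (ha.trans ht.1))]
  rw [h2, integral_neg, ← intervalIntegral.integral_of_le hab, hAC.integral_deriv_eq_sub]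
  have h3 : w a ≤ w 0 := hm _ _ (by simp)
  have h4 := h0 b
  linarith

theorem hp_int_Ioi {w : ℝ → ℝ} (h0 : ∀ t, 0 ≤ w t) (hm : ∀ s t, |s| ≤ |t| → w t ≤ w s)
    (hAC : ∀ a b : ℝ, 0 < a → a ≤ b → AbsolutelyContinuousOnInterval w a b) :
    ∫⁻ t in Ioi (0 : ℝ), ‖deriv w t‖ₑ ≤ ENNReal.ofReal (w 0) := by
  have h1 : Ioi (0 : ℝ) = ⋃ k : ℕ, Ioc (1 / ((k : ℝ) + 1)) ((k : ℝ) + 1) := by
    ext t
    simp only [mem_Ioi, mem_iUnion, mem_Ioc]
    constructor
    · intro ht
      obtain ⟨k1, hk1⟩ := exists_nat_one_div_lt ht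
      obtain ⟨k2, hk2⟩ := exists_nat_ge t
      refine ⟨max k1 k2, ?_, ?_⟩
      · refine lt_of_le_of_lt ?_ hk1
        apply one_div_le_one_div_of_le (by positivity)
        have : (k1 : ℝ) ≤ ((max k1 k2 : ℕ) : ℝ) := by exact_mod_cast le_max_left _ _
        linarith
      · have : (k2 : ℝ) ≤ ((max k1 k2 : ℕ) : ℝ) := by exact_mod_cast le_max_right _ _
        linarith
    · rintro ⟨k, hk, _⟩
      exact lt_trans (by positivity) hk
  have h2 : Monotone (fun k : ℕ => Ioc (1 / ((k : ℝ) + 1)) ((k : ℝ) + 1)) := by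
    intro k l hkl
    have h3 : (k : ℝ) ≤ (l : ℝ) := by exact_mod_cast hkl
    apply Ioc_subset_Ioc
    · exact one_div_le_one_div_of_le (by positivity) (by linarith)
    · linarith
  rw [h1, setLIntegral_iUnion_of_directed _ h2.directed_le]
  apply iSup_le
  intro k
  have hk : (1 : ℝ) / ((k : ℝ) + 1) ≤ (k : ℝ) + 1 := by
    rw [div_le_iff₀ (by positivity)]
    nlinarith [(Nat.cast_nonneg k : (0 : ℝ) ≤ k)]
  exact hp_int_Ioc h0 hm (by positivity) hk (hAC _ _ (by positivity) hk)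

theorem hp_int {w : ℝ → ℝ} (h0 : ∀ t, 0 ≤ w t) (hm : ∀ s t, |s| ≤ |t| → w t ≤ w s)
    (hAC : ∀ a b : ℝ, 0 < a → a ≤ b → AbsolutelyContinuousOnInterval w a b) :
    ∫⁻ t, ‖deriv w t‖ₑ ≤ 2 * ENNReal.ofReal (w 0) := by
  have h1 : ∫⁻ t in Iio (0 : ℝ), ‖deriv w t‖ₑ = ∫⁻ t in Ioi (0 : ℝ), ‖deriv w t‖ₑ := by
    have h2 : MeasurePreserving (fun t : ℝ => -t) volume volume :=
      Measure.measurePreserving_neg volume
    have h3 := h2.setLIntegral_comp_preimage (s := Iio (0 : ℝ)) measurableSet_Iio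
      (f := fun t => ‖deriv w t‖ₑ) (by fun_prop)
    rw [← h3]
    have h4 : (fun t : ℝ => -t) ⁻¹' Iio 0 = Ioi 0 := by
      ext t
      simp
    rw [h4]
    apply lintegral_congr
    intro t
    rw [hp_deriv_odd hm, enorm_neg]
  have h2 : (univ : Set ℝ) = (Iio 0 ∪ {0}) ∪ Ioi 0 := by
    ext t
    simp only [mem_univ, mem_union, mem_Iio, mem_singleton_iff, mem_Ioi, true_iff]
    rcases lt_trichotomy t 0 with h | h | h <;> simp [h]
  calc ∫⁻ t, ‖deriv w t‖ₑ = ∫⁻ t in univ, ‖deriv w t‖ₑ := by rw [Measure.restrict_univ]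
    _ ≤ (∫⁻ t in Iio (0 : ℝ) ∪ {0}, ‖deriv w t‖ₑ) + ∫⁻ t in Ioi (0 : ℝ), ‖deriv w t‖ₑ := by
        rw [h2]
        exact lintegral_union_le _ _ _
    _ ≤ ((∫⁻ t in Iio (0 : ℝ), ‖deriv w t‖ₑ) + ∫⁻ t in ({0} : Set ℝ), ‖deriv w t‖ₑ) +
          ∫⁻ t in Ioi (0 : ℝ), ‖deriv w t‖ₑ := by
        gcongr
        exact lintegral_union_le _ _ _
    _ = 2 * ∫⁻ t in Ioi (0 : ℝ), ‖deriv w t‖ₑ := by
        have h5 : ∫⁻ t in ({0} : Set ℝ), ‖deriv w t‖ₑ = 0 :=
          setLIntegral_measure_zero _ _ (by simp)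
        rw [h1, h5, add_zero, two_mul]
    _ ≤ _ := by
        gcongr
        exact hp_int_Ioi h0 hm hAC

theorem hp_integrable {w : ℝ → ℝ} (h0 : ∀ t, 0 ≤ w t) (hm : ∀ s t, |s| ≤ |t| → w t ≤ w s)
    (hAC : ∀ a b : ℝ, 0 < a → a ≤ b → AbsolutelyContinuousOnInterval w a b) :
    Integrable (deriv w) := by
  refine ⟨(measurable_deriv w).aestronglyMeasurable, ?_⟩
  exact lt_of_le_of_lt (hp_int h0 hm hAC) (by finiteness)

/-- integration by parts on the half line, for test functions vanishing at `0` and beyond `R` -/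
theorem hp_half {w : ℝ → ℝ} (h0 : ∀ t, 0 ≤ w t) (hm : ∀ s t, |s| ≤ |t| → w t ≤ w s)
    (hAC : ∀ a b : ℝ, 0 < a → a ≤ b → AbsolutelyContinuousOnInterval w a b)
    {χ : ℝ → ℝ} (hχ : ContDiff ℝ 1 χ) (hχ0 : χ 0 = 0) {R : ℝ} (hR : 0 < R)
    (hs : ∀ t, R ≤ t → χ t = 0) :
    ∫ t in Ioi (0 : ℝ), (deriv w t * χ t + w t * deriv χ t) = 0 := by
  have hdc : Continuous (deriv χ) := hχ.continuous_deriv (by simp)
  have hwi : IntervalIntegrable w volume 0 R := by
    apply AntitoneOn.intervalIntegrable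
    apply (hp_anti hm).mono
    rw [uIcc_of_le hR.le]
    exact fun t ht => ht.1
  have hdi : IntervalIntegrable (deriv w) volume 0 R :=
    (hp_integrable h0 hm hAC).intervalIntegrable
  have hki : IntervalIntegrable (fun t => deriv w t * χ t + w t * deriv χ t) volume 0 R :=
    (hdi.mul_continuousOn hχ.continuous.continuousOn).add
      (hwi.mul_continuousOn hdc.continuousOn)
  have hz : ∀ t, R < t → deriv w t * χ t + w t * deriv χ t = 0 := by
    intro t ht
    have h1 : deriv χ t = 0 := by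
      have h2 : χ =ᶠ[𝓝 t] fun _ => 0 := by
        filter_upwards [Ioi_mem_nhds ht] with s hs'
        exact hs s (le_of_lt hs')
      rw [h2.deriv_eq]
      simp
    rw [h1, hs t ht.le]
    simp
  have h1 : ∫ t in Ioi (0 : ℝ), (deriv w t * χ t + w t * deriv χ t) =
      ∫ t in (0 : ℝ)..R, (deriv w t * χ t + w t * deriv χ t) := by
    rw [intervalIntegral.integral_of_le hR.le]
    apply setIntegral_eq_of_subset_of_forall_sdiff_eq_zero measurableSet_Ioi Ioc_subset_Ioi_self
    intro t ht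
    apply hz
    by_contra h
    push Not at h
    exact ht.2 ⟨ht.1, h⟩
  rw [h1]
  have hcont : ContinuousOn (fun a => ∫ t in R..a, (deriv w t * χ t + w t * deriv χ t))
      (uIcc 0 R) := intervalIntegral.continuousOn_primitive_interval' hki (by simp)
  have hval : ∀ a, 0 < a → a ≤ R →
      ∫ t in R..a, (deriv w t * χ t + w t * deriv χ t) = w a * χ a := by
    intro a ha haR
    have h3 := (hAC a R ha haR).integral_deriv_mul_eq_sub
      (g := χ) (hχ.contDiffOn.absolutelyContinuousOnInterval)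
    rw [intervalIntegral.integral_symm, h3, hs R le_rfl]
    ring
  have hlim1 : Tendsto (fun a => ∫ t in R..a, (deriv w t * χ t + w t * deriv χ t))
      (𝓝[>] 0) (𝓝 (∫ t in R..0, (deriv w t * χ t + w t * deriv χ t))) := by
    have h4 := hcont 0 (by simp)
    refine h4.mono_left ?_
    apply nhdsWithin_le_of_mem
    rw [uIcc_of_le hR.le]
    exact Icc_mem_nhdsGT hR
  have hlim2 : Tendsto (fun a => ∫ t in R..a, (deriv w t * χ t + w t * deriv χ t))
      (𝓝[>] 0) (𝓝 0) := by
    have h5 : Tendsto (fun a => w 0 * |χ a|) (𝓝[>] 0) (𝓝 0) := by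
      have h6 : Continuous (fun a => w 0 * |χ a|) := by
        have := hχ.continuous
        fun_prop
      have h7 := h6.tendsto 0
      simp only [hχ0, abs_zero, mul_zero] at h7
      exact h7.mono_left nhdsWithin_le_nhds
    apply squeeze_zero_norm' _ h5
    filter_upwards [Ioc_mem_nhdsGT hR] with a ha
    rw [hval a ha.1 ha.2, norm_mul, Real.norm_eq_abs, Real.norm_eq_abs, abs_of_nonneg (h0 a)]
    exact mul_le_mul_of_nonneg_right (hm _ _ (by simp)) (abs_nonneg _)
  have h8 := tendsto_nhds_unique hlim1 hlim2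
  rw [intervalIntegral.integral_symm, h8, neg_zero]

/-- integration by parts on the line -/
theorem hp_parts {w : ℝ → ℝ} (h0 : ∀ t, 0 ≤ w t) (hm : ∀ s t, |s| ≤ |t| → w t ≤ w s)
    (hAC : ∀ a b : ℝ, 0 < a → a ≤ b → AbsolutelyContinuousOnInterval w a b)
    {φ : ℝ → ℝ} (hφ : ContDiff ℝ 1 φ) (hs : HasCompactSupport φ) :
    ∫ t, w t * deriv φ t = - ∫ t, deriv w t * φ t := by
  have hdc : Continuous (deriv φ) := hφ.continuous_deriv (by simp)
  have hw : Measurable w := hp_measurable hm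
  have hI1 : Integrable (fun t => w t * deriv φ t) := by
    apply Integrable.bdd_mul (c := w 0) (hdc.integrable_of_hasCompactSupport hs.deriv)
      hw.aestronglyMeasurable
    apply Filter.Eventually.of_forall
    intro t
    rw [Real.norm_eq_abs, abs_of_nonneg (h0 t)]
    exact hm _ _ (by simp)
  have hI2 : Integrable (fun t => deriv w t * φ t) := by
    obtain ⟨C, hC⟩ := hs.exists_bound_of_continuous hφ.continuous
    exact (hp_integrable h0 hm hAC).mul_bdd hφ.continuous.aestronglyMeasurable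
      (Filter.Eventually.of_forall hC)
  have hI : Integrable (fun t => deriv w t * φ t + w t * deriv φ t) := hI2.add hI1
  obtain ⟨R, hR0, hR⟩ : ∃ R : ℝ, 0 < R ∧ ∀ t, R ≤ |t| → φ t = 0 := by
    obtain ⟨R, hR⟩ := hs.isCompact.isBounded.subset_closedBall (0 : ℝ)
    refine ⟨max R 0 + 1, by positivity, fun t ht => ?_⟩
    by_contra hne
    have h1 := hR (subset_tsupport _ hne)
    rw [mem_closedBall_zero_iff, Real.norm_eq_abs] at h1
    have := le_max_left R 0
    linarith
  have hkey : ∫ t, (deriv w t * φ t + w t * deriv φ t) = 0 := by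
    rw [← integral_add_compl (measurableSet_Ioi (a := (0 : ℝ))) hI]
    rw [compl_Ioi]
    have h1 : ∫ t in Iic (0 : ℝ), (deriv w t * φ t + w t * deriv φ t) =
        ∫ t in Ioi (0 : ℝ), (deriv w (-t) * φ (-t) + w (-t) * deriv φ (-t)) := by
      have := integral_comp_neg_Ioi (0 : ℝ) (fun t => deriv w t * φ t + w t * deriv φ t)
      rw [neg_zero] at this
      exact this.symm
    rw [h1, ← integral_add hI.integrableOn hI.comp_neg.integrableOn]
    have hχ : ContDiff ℝ 1 (fun t => φ t - φ (-t)) := hφ.sub (hφ.comp contDiff_neg)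
    have h2 := hp_half h0 hm hAC hχ (by simp) hR0 (by
      intro t ht
      have h3 : R ≤ |t| := ht.trans (le_abs_self t)
      rw [hR t h3, hR (-t) (by rwa [abs_neg]), sub_zero])
    refine Eq.trans ?_ h2
    apply integral_congr_ae
    apply Filter.Eventually.of_forall
    intro t
    have h4 : deriv (fun t => φ t - φ (-t)) t = deriv φ t + deriv φ (-t) := by
      have h5 : DifferentiableAt ℝ φ t := hφ.differentiable (by simp) t
      have h6 : DifferentiableAt ℝ φ (-t) := hφ.differentiable (by simp) (-t)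
      have h7 : HasDerivAt (fun t => φ (-t)) (- deriv φ (-t)) t := by
        have h9 := h6.hasDerivAt.comp t (hasDerivAt_neg t)
        rw [mul_neg_one] at h9
        exact h9
      have h8 := (h5.hasDerivAt.sub h7).deriv
      rw [sub_neg_eq_add] at h8
      exact h8
    show deriv w t * φ t + w t * deriv φ t + (deriv w (-t) * φ (-t) + w (-t) * deriv φ (-t)) =
      deriv w t * (φ t - φ (-t)) + w t * deriv (fun t => φ t - φ (-t)) t
    rw [h4, hp_deriv_odd hm, hp_even hm]
    ring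
  rw [integral_add hI2 hI1] at hkey
  linarith

end P137
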