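import Vale.Agent.P137.AC.Defs
import Vale.Agent.P137.AC.HParts
import Vale.Agent.P137.AC.G

/-!
P137, AC step, module G in the form of the interface, and the line lemma used by H1.
-/

open MeasureTheory ENNReal Set Filter Topology

namespace P137.AC

theorem ae_diff {w : ℝ → ℝ} (hm : ∀ s t, |s| ≤ |t| → w t ≤ w s) :
    ∀ᵐ t : ℝ, DifferentiableAt ℝ w t := by
  have h1 : ∀ᵐ t : ℝ, 0 < t → DifferentiableAt ℝ w t := by
    have h2 : MonotoneOn (fun x => - w x) (Ici 0) := (hp_anti hm).neg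
    filter_upwards [h2.ae_differentiableWithinAt_of_mem] with t ht ht0
    have h3 : DifferentiableAt ℝ (fun x => - w x) t :=
      (ht ht0.le).differentiableAt (Ici_mem_nhds ht0)
    simpa using h3.neg
  have h2 : ∀ᵐ t : ℝ, 0 < -t → DifferentiableAt ℝ w (-t) :=
    (Measure.measurePreserving_neg (volume : Measure ℝ)).quasiMeasurePreserving.ae h1
  have h3 : ∀ᵐ t : ℝ, t ≠ 0 := by
    have : volume ({0} : Set ℝ) = 0 := by simp
    exact compl_mem_ae_iff.2 this
  filter_upwards [h1, h2, h3] with t ht1 ht2 ht3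
  rcases lt_or_gt_of_ne ht3 with h | h
  · have h4 := ht2 (by linarith)
    have h5 : w = fun x => w (-x) := funext fun x => (hp_even hm x).symm
    rw [h5]
    have h6 : HasDerivAt (fun x : ℝ => -x) (-1) t := (hasDerivAt_id t).neg
    exact (h4.hasDerivAt.comp t h6).differentiableAt
  · exact ht1 h

/-- everything needed on one line -/
theorem line {w : ℝ → ℝ} (h0 : ∀ t, 0 ≤ w t) (hm : ∀ s t, |s| ≤ |t| → w t ≤ w s)
    (hc : ContinuousOn w (Ioi 0))
    (hN : ∀ S : Set ℝ, S ⊆ Ioi 0 → volume S = 0 → volume (w '' S) = 0) :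
    (∀ᵐ t : ℝ, DifferentiableAt ℝ w t) ∧
    (∫⁻ t : ℝ, ‖deriv w t‖ₑ ≤ 2 * ENNReal.ofReal (w 0)) ∧
    (∀ φ : ℝ → ℝ, ContDiff ℝ (⊤ : ℕ∞) φ → HasCompactSupport φ →
        ∫ t, w t * deriv φ t = - ∫ t, deriv w t * φ t) := by
  have hAC : ∀ a b : ℝ, 0 < a → a ≤ b → AbsolutelyContinuousOnInterval w a b :=
    fun a b ha hab => ac_anti ((hp_anti hm).mono Ioi_subset_Ici_self) hc hN ha hab
  exact ⟨ae_diff hm, hp_int h0 hm hAC, fun φ hφ hs => hp_parts h0 hm hAC (hφ.of_le (by
    exact_mod_cast le_top)) hs⟩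

theorem dq_eq {w : ℝ → ℝ} {t : ℝ} (h : DifferentiableAt ℝ w t) : dq w t = deriv w t := by
  have h1 := h.hasDerivAt.tendsto_slope_zero
  have h2 : Tendsto (fun k : ℕ => 1 / ((k : ℝ) + 1)) atTop (𝓝[≠] 0) := by
    refine tendsto_nhdsWithin_iff.2 ⟨tendsto_one_div_add_atTop_nhds_zero_nat, ?_⟩
    refine Filter.Eventually.of_forall fun k => ?_
    have : (0 : ℝ) < 1 / ((k : ℝ) + 1) := by positivity
    exact this.ne'
  have h3 := h1.comp h2
  unfold dq
  refine Tendsto.limsup_eq (h3.congr fun k => ?_)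
  simp only [Function.comp_apply, smul_eq_mul]
  rw [one_div, inv_inv]

namespace G

/-- Module G in the form of the interface. -/
theorem thm : StmtG := by
  intro w hev h0 hw0 hanti hc hN
  have hm : ∀ s t, |s| ≤ |t| → w t ≤ w s := by
    intro s t hst
    have e : ∀ x, w x = w |x| := by
      intro x
      rcases abs_choice x with h | h
      · rw [h]
      · rw [h, hev]
    rw [e s, e t]
    rcases eq_or_lt_of_le (abs_nonneg s) with hs | hs
    · rw [← hs]; exact hw0 _
    · exact hanti hs (hs.trans_le hst) hst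
  obtain ⟨h1, h2, h3⟩ := line h0 hm hc hN
  have h4 : dq w =ᵐ[volume] deriv w := by
    filter_upwards [h1] with t ht
    exact dq_eq ht
  constructor
  · refine le_trans (le_of_eq (lintegral_congr_ae ?_)) h2
    filter_upwards [h4] with t ht
    rw [ht]
  · intro φ hφ hs
    rw [h3 φ hφ hs]
    congr 1
    refine integral_congr_ae ?_
    filter_upwards [h4] with t ht
    rw [ht]

end G

end P137.AC
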