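import Vale.Agent.P137.Fub

/-!
P137 AC, module C: the jump set of a block-decreasing function is null in the other projection.
-/

open MeasureTheory Set
open scoped NNReal

namespace P137.AC

/-- the key estimate -/
theorem jump_dist {n : ℕ} {p q : ℝ × (Fin n → ℝ)}
    (h1 : ¬ (p.1 < q.1 ∧ ∀ l, p.2 l < q.2 l)) (h2 : ¬ (q.1 < p.1 ∧ ∀ l, q.2 l < p.2 l)) :
    dist p.2 q.2 ≤ 2 * dist (fun l => p.2 l - p.1) (fun l => q.2 l - q.1) := by
  set m := dist (fun l => p.2 l - p.1) (fun l => q.2 l - q.1) with hm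
  have hm0 : 0 ≤ m := dist_nonneg
  have hl : ∀ l, |(p.2 l - p.1) - (q.2 l - q.1)| ≤ m := by
    intro l
    have := dist_le_pi_dist (fun l => p.2 l - p.1) (fun l => q.2 l - q.1) l
    rwa [Real.dist_eq] at this
  rw [dist_pi_le_iff (by positivity)]
  intro l
  rw [Real.dist_eq, abs_le]
  constructor
  · by_contra hc
    push Not at hc
    apply h1
    have a1 := abs_le.1 (hl l)
    have a2 : p.1 - q.1 < -m := by linarith [a1.1]
    refine ⟨by linarith, fun l' => ?_⟩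
    have a3 := abs_le.1 (hl l')
    linarith [a3.2]
  · by_contra hc
    push Not at hc
    apply h2
    have a1 := abs_le.1 (hl l)
    have a2 : m < p.1 - q.1 := by linarith [a1.2]
    refine ⟨by linarith, fun l' => ?_⟩
    have a3 := abs_le.1 (hl l')
    linarith [a3.1]

theorem lip_null {n : ℕ} (S : Set (ℝ × (Fin n → ℝ)))
    (h : ∀ p ∈ S, ∀ q ∈ S, ¬ (p.1 < q.1 ∧ ∀ l, p.2 l < q.2 l))
    (h0 : volume ((fun p : ℝ × (Fin n → ℝ) => fun l => p.2 l - p.1) '' S) = 0) :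
    volume (Prod.snd '' S) = 0 := by
  classical
  rcases S.eq_empty_or_nonempty with rfl | hne
  · simp
  set D : ℝ × (Fin n → ℝ) → (Fin n → ℝ) := fun p l => p.2 l - p.1 with hD
  have : Nonempty (ℝ × (Fin n → ℝ)) := ⟨hne.some⟩
  set g : (Fin n → ℝ) → ℝ × (Fin n → ℝ) := Function.invFunOn D S with hg
  have hgS : ∀ w ∈ D '' S, g w ∈ S := fun w hw => Function.invFunOn_mem hw
  have hgD : ∀ w ∈ D '' S, D (g w) = w := fun w hw => Function.invFunOn_eq hw
  set F : (Fin n → ℝ) → (Fin n → ℝ) := fun w => (g w).2 with hF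
  have key : ∀ p ∈ S, ∀ q ∈ S, dist p.2 q.2 ≤ 2 * dist (D p) (D q) := fun p hp q hq =>
    jump_dist (h p hp q hq) (h q hq p hp)
  have hLip : LipschitzOnWith 2 F (D '' S) := by
    apply LipschitzOnWith.of_dist_le_mul
    intro w hw w' hw'
    have := key _ (hgS w hw) _ (hgS w' hw')
    rw [hgD w hw, hgD w' hw'] at this
    simpa [hF] using this
  have hsub : Prod.snd '' S ⊆ F '' (D '' S) := by
    rintro _ ⟨p, hp, rfl⟩
    refine ⟨D p, ⟨p, hp, rfl⟩, ?_⟩
    have hw : D p ∈ D '' S := ⟨p, hp, rfl⟩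
    have := key _ (hgS _ hw) _ hp
    rw [hgD _ hw, dist_self, mul_zero] at this
    exact dist_le_zero.1 this
  have hH := hLip.hausdorffMeasure_image_le (d := (Fintype.card (Fin n) : ℝ)) (by positivity)
  rw [hausdorffMeasure_pi_real, h0, mul_zero] at hH
  exact measure_mono_null hsub (le_antisymm hH bot_le)

/-- the jump set with levels `a < b` -/
def JS {n : ℕ} (f : E (n + 1) → ℝ) (j : Fin (n + 1)) (a b : ℝ) : Set (ℝ × (Fin n → ℝ)) :=
  {p | 0 < p.1 ∧ (∀ l, 0 < p.2 l) ∧ ∀ δ, 0 < δ → δ < p.1 → (∀ l, δ < p.2 l) →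
    b < f (ins j (p.1 - δ) (fun l => p.2 l - δ)) ∧ f (ins j (p.1 + δ) (fun l => p.2 l + δ)) < a}

theorem ins_le {n : ℕ} {f : E (n + 1) → ℝ} (hf : BlockDecreasing f) (j : Fin (n + 1))
    {s t : ℝ} {x y : Fin n → ℝ} (h0 : 0 ≤ s) (hx : ∀ l, 0 ≤ x l) (hst : s ≤ t)
    (hxy : ∀ l, x l ≤ y l) : f (ins j t y) ≤ f (ins j s x) := by
  apply hf
  intro i
  refine Fin.succAboveCases j ?_ (fun l => ?_) i
  · rw [ins_same, ins_same, abs_of_nonneg h0, abs_of_nonneg (h0.trans hst)]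
    exact hst
  · rw [ins_succAbove, ins_succAbove, abs_of_nonneg (hx l), abs_of_nonneg ((hx l).trans (hxy l))]
    exact hxy l

theorem exists_delta {n : ℕ} {t : ℝ} {x : Fin n → ℝ} (ht : 0 < t) (hx : ∀ l, 0 < x l) :
    ∃ δ, 0 < δ ∧ δ < t ∧ ∀ l, δ < x l := by
  classical
  have hfin : (Finset.univ.image x ∪ {t}).Nonempty := ⟨t, by simp⟩
  set m := (Finset.univ.image x ∪ {t}).min' hfin with hm
  have hm0 : 0 < m := by
    rw [hm, Finset.lt_min'_iff]
    intro y hy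
    simp only [Finset.mem_union, Finset.mem_image, Finset.mem_univ, true_and,
      Finset.mem_singleton] at hy
    rcases hy with ⟨l, rfl⟩ | rfl
    · exact hx l
    · exact ht
  have h1 : m ≤ t := Finset.min'_le _ _ (by simp)
  have h2 : ∀ l, m ≤ x l := fun l => Finset.min'_le _ _ (by simp)
  exact ⟨m / 2, by linarith, by linarith, fun l => by linarith [h2 l]⟩

theorem JS_incomparable {n : ℕ} {f : E (n + 1) → ℝ} (hf : BlockDecreasing f) (j : Fin (n + 1))
    {a b : ℝ} (hab : a < b) : ∀ p ∈ JS f j a b, ∀ q ∈ JS f j a b,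
      ¬ (p.1 < q.1 ∧ ∀ l, p.2 l < q.2 l) := by
  rintro p ⟨hp1, hp2, hp3⟩ q ⟨hq1, hq2, hq3⟩ ⟨h1, h2⟩
  obtain ⟨δ₁, d1, d2, d3⟩ := exists_delta hp1 hp2
  obtain ⟨δ₂, e1, e2, e3⟩ := exists_delta (t := (q.1 - p.1) / 2) (x := fun l => (q.2 l - p.2 l) / 2)
    (by linarith) (fun l => by have := h2 l; linarith)
  set δ := min δ₁ δ₂ with hδ
  have c0 : 0 < δ := lt_min d1 e1
  have c1 : δ ≤ δ₁ := min_le_left _ _
  have c2 : δ ≤ δ₂ := min_le_right _ _
  have g1 := (hp3 δ c0 (by linarith) (fun l => by linarith [d3 l])).2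
  have g2 := (hq3 δ c0 (by linarith) (fun l => by linarith [d3 l, h2 l])).1
  have g3 : f (ins j (q.1 - δ) (fun l => q.2 l - δ)) ≤ f (ins j (p.1 + δ) (fun l => p.2 l + δ)) := by
    apply ins_le hf j (by linarith) (fun l => by linarith [hp2 l]) (by linarith)
    intro l
    have := e3 l
    linarith
  linarith

/-- Module C. -/
theorem jump {n : ℕ} (f : E (n + 1) → ℝ) (hf : BlockDecreasing f) (j : Fin (n + 1))
    (hD : ∀ᵐ w : Fin n → ℝ, ∀ s, 0 < s → (∀ l, 0 < w l + s) → ∀ ε, 0 < ε →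
      ∃ δ, 0 < δ ∧ δ < s ∧ (∀ l, δ < w l + s) ∧
        f (ins j (s - δ) (fun l => w l + (s - δ))) - f (ins j (s + δ) (fun l => w l + (s + δ))) ≤ ε) :
    ∀ᵐ x' : Fin n → ℝ, (∀ l, 0 < x' l) → ∀ t, 0 < t → ∀ ε, 0 < ε →
      ∃ δ, 0 < δ ∧ δ < t ∧ (∀ l, δ < x' l) ∧
        f (ins j (t - δ) (fun l => x' l - δ)) - f (ins j (t + δ) (fun l => x' l + δ)) ≤ ε := by
  have hnull : ∀ a b : ℚ, a < b → volume (Prod.snd '' (JS f j a b)) = 0 := by
    intro a b hab
    have hab' : (a : ℝ) < b := by exact_mod_cast hab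
    apply lip_null _ (JS_incomparable hf j hab')
    refine measure_mono_null ?_ (ae_iff.1 hD)
    rintro _ ⟨p, ⟨hp1, hp2, hp3⟩, rfl⟩
    simp only [mem_ofPred_eq]
    intro hcon
    obtain ⟨δ, d1, d2, d3, d4⟩ := hcon p.1 hp1 (fun l => by simpa using hp2 l) (b - a) (by linarith)
    have e3 : ∀ l, δ < p.2 l := fun l => by have := d3 l; simpa using this
    have := hp3 δ d1 d2 e3
    have k1 : (fun l => p.2 l - p.1 + (p.1 - δ)) = fun l => p.2 l - δ := by
      funext l; ring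
    have k2 : (fun l => p.2 l - p.1 + (p.1 + δ)) = fun l => p.2 l + δ := by
      funext l; ring
    rw [k1, k2] at d4
    linarith [this.1, this.2]
  have hall : ∀ᵐ x' : Fin n → ℝ, ∀ a b : ℚ, a < b → x' ∉ Prod.snd '' (JS f j a b) := by
    rw [ae_all_iff]; intro a
    rw [ae_all_iff]; intro b
    rw [ae_all_iff]; intro hab
    exact measure_eq_zero_iff_ae_notMem.1 (hnull a b hab)
  filter_upwards [hall] with x' hx' hpos t ht ε hε
  by_contra hcon
  push Not at hcon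
  -- the supremum of the values from above
  set A : Set ℝ := {y | ∃ δ, 0 < δ ∧ δ < t ∧ (∀ l, δ < x' l) ∧
    y = f (ins j (t + δ) (fun l => x' l + δ))} with hA
  have hAb : ∀ y ∈ A, ∀ δ, 0 < δ → δ < t → (∀ l, δ < x' l) →
      y ≤ f (ins j (t - δ) (fun l => x' l - δ)) - ε := by
    rintro y ⟨δ', a1, a2, a3, rfl⟩ δ b1 b2 b3
    set δ'' := min δ' δ with hδ
    have c0 : 0 < δ'' := lt_min a1 b1
    have c1 : δ'' ≤ δ' := min_le_left _ _
    have c2 : δ'' ≤ δ := min_le_right _ _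
    have g := hcon δ'' c0 (by linarith) (fun l => by linarith [a3 l])
    have g1 : f (ins j (t + δ') (fun l => x' l + δ')) ≤ f (ins j (t + δ'') (fun l => x' l + δ'')) :=
      ins_le hf j (by linarith) (fun l => by linarith [hpos l]) (by linarith)
        (fun l => by linarith)
    have g2 : f (ins j (t - δ'') (fun l => x' l - δ'')) ≤ f (ins j (t - δ) (fun l => x' l - δ)) :=
      ins_le hf j (by linarith) (fun l => by linarith [b3 l]) (by linarith)
        (fun l => by linarith)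
    linarith
  obtain ⟨δ₀, d1, d2, d3⟩ := exists_delta ht hpos
  have hAne : A.Nonempty := ⟨_, δ₀, d1, d2, d3, rfl⟩
  have hAbdd : BddAbove A := ⟨_, fun y hy => hAb y hy δ₀ d1 d2 d3⟩
  set c := sSup A with hc
  obtain ⟨a, ha1, ha2⟩ := exists_rat_btwn (show c < c + ε / 2 by linarith)
  obtain ⟨b, hb1, hb2⟩ := exists_rat_btwn (show c + ε / 2 < c + ε by linarith)
  have hab : a < b := by exact_mod_cast ha2.trans hb1
  refine hx' a b hab ⟨(t, x'), ⟨ht, hpos, ?_⟩, rfl⟩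
  intro δ e1 e2 e3
  constructor
  · have : c ≤ f (ins j (t - δ) (fun l => x' l - δ)) - ε :=
      csSup_le hAne fun y hy => hAb y hy δ e1 e2 e3
    simp only
    linarith
  · have : f (ins j (t + δ) (fun l => x' l + δ)) ≤ c := le_csSup hAbdd ⟨δ, e1, e2, e3, rfl⟩
    simp only
    linarith

end P137.AC
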