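import Vale.Agent.P137.AC.B0
import Vale.Agent.P137.AC.Slices
import Vale.Agent.P137.AC.Jump
import Vale.Agent.P137.AC.EDich

/-! P137, AC step: from slices, shear and the jump set to the pointwise hypotheses of module E. -/

open MeasureTheory ENNReal Set Filter Topology

namespace P137.AC

variable {n : ℕ}

theorem insg_abs_le (j : Fin (n + 1)) {a b : ℝ} {x y : Fin n → ℝ} (h1 : |a| ≤ |b|)
    (h2 : ∀ i, |x i| ≤ |y i|) (l : Fin (n + 1)) : |ins j a x l| ≤ |ins j b y l| := by
  rcases Fin.eq_self_or_eq_succAbove j l with h | ⟨k, h⟩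
  · subst h
    simpa using h1
  · subst h
    simpa using h2 k

theorem anti1 {f : E (n + 1) → ℝ} (hb : BlockDecreasing f) (j : Fin (n + 1)) (x : Fin n → ℝ) :
    AntitoneOn (fun s => f (ins j s x)) (Ioi 0) := by
  intro a ha b hb' hab
  apply hb
  apply insg_abs_le
  · rw [abs_of_pos ha, abs_of_pos hb']
    exact hab
  · intro i
    exact le_rfl

theorem anti2 {f : E (n + 1) → ℝ} (hb : BlockDecreasing f) (j : Fin (n + 1)) (w : Fin n → ℝ)
    {c : ℝ} (hc : 0 ≤ c) (hw : ∀ i, 0 ≤ w i + c) :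
    AntitoneOn (fun s => f (ins j s (fun i => w i + s))) (Ioi c) := by
  intro a ha b hb' hab
  rw [mem_Ioi] at ha hb'
  apply hb
  apply insg_abs_le
  · rw [abs_of_pos (hc.trans_lt ha), abs_of_pos (hc.trans_lt hb')]
    exact hab
  · intro i
    have h1 := hw i
    rw [abs_of_nonneg (by linarith), abs_of_nonneg (by linarith)]
    linarith

/-- B1: straight slices -/
theorem B1 (j : Fin (n + 1)) {f : E (n + 1) → ℝ} {g : E (n + 1) → E (n + 1)}
    (hf : Integrable f) (hg : Integrable g) (hw : IsWeakGradient f g) (hb : BlockDecreasing f) :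
    ∀ᵐ x : Fin n → ℝ, Integrable (fun s => g (ins j s x) j) ∧ ∀ a b, 0 < a → a ≤ b →
      f (ins j a x) - f (ins j b x) = - ∫ s in a..b, g (ins j s x) j := by
  have hgj : Integrable (fun x => g x j) := (EuclideanSpace.proj (𝕜 := ℝ) j).integrable_comp hg
  have h := slices n (fun p => f (ins j p.1 p.2)) (fun p => g (ins j p.1 p.2) j) (int_T1 j hf)
    (int_T1 j hgj) (fun φ h1 h2 => weak_T1 j hf hg hw φ h1 h2)
  filter_upwards [h] with x hx
  refine ⟨hx.2.1, fun a b ha hab => ?_⟩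
  exact hx.2.2 0 (b + 1) ((anti1 hb j x).mono Ioo_subset_Ioi_self) a b ⟨ha, by linarith⟩
    ⟨ha.trans_le hab, by linarith⟩ hab

/-- B2: sheared slices are continuous -/
theorem B2 (j : Fin (n + 1)) {f : E (n + 1) → ℝ} {g : E (n + 1) → E (n + 1)}
    (hf : Integrable f) (hg : Integrable g) (hw : IsWeakGradient f g) (hb : BlockDecreasing f) :
    ∀ᵐ w : Fin n → ℝ, ∀ s, 0 < s → (∀ i, 0 < w i + s) →
      ContinuousAt (fun s => f (ins j s (fun i => w i + s))) s := by
  have hgl : Integrable (fun x => ∑ l, g x l) :=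
    integrable_finsetSum _ fun l _ => (EuclideanSpace.proj (𝕜 := ℝ) l).integrable_comp hg
  have h := slices n (fun p => f (ins j p.1 (fun i => p.2 i + p.1)))
    (fun p => ∑ l, g (ins j p.1 (fun i => p.2 i + p.1)) l) (int_T2 j hf)
    (int_T2 j hgl) (fun φ h1 h2 => weak_T2 j hf hg hw φ h1 h2)
  filter_upwards [h] with w hx
  obtain ⟨_, hi, hx⟩ := hx
  intro s h0 h1
  -- a left endpoint `c`
  obtain ⟨c, hc0, hcs, hcw⟩ : ∃ c, 0 ≤ c ∧ c < s ∧ ∀ i, 0 ≤ w i + c := by
    set S : Finset ℝ := insert 0 (Finset.univ.image fun i => - w i) with hS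
    have hne : S.Nonempty := ⟨0, Finset.mem_insert_self _ _⟩
    refine ⟨S.max' hne, ?_, ?_, ?_⟩
    · exact S.le_max' 0 (Finset.mem_insert_self _ _)
    · rw [Finset.max'_lt_iff]
      intro y hy
      rw [hS, Finset.mem_insert, Finset.mem_image] at hy
      rcases hy with rfl | ⟨i, _, rfl⟩
      · exact h0
      · linarith [h1 i]
    · intro i
      have := S.le_max' (- w i) (Finset.mem_insert_of_mem (Finset.mem_image_of_mem _
        (Finset.mem_univ i)))
      linarith
  have hanti := anti2 hb j w hc0 hcw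
  have hx' := hx c (s + 1) (hanti.mono Ioo_subset_Ioi_self)
  set G : ℝ → ℝ := fun s => ∑ l, g (ins j s (fun i => w i + s)) l with hG
  obtain ⟨a, hca, has⟩ := exists_between hcs
  have hcont : Continuous (fun t => f (ins j a (fun i => w i + a)) + ∫ s in a..t, G s) :=
    continuous_const.add (intervalIntegral.continuous_primitive (fun _ _ => hi.intervalIntegrable)
      a)
  have heq : ∀ t, t ∈ Ioo a (s + 1) → f (ins j t (fun i => w i + t)) =
      f (ins j a (fun i => w i + a)) + ∫ s in a..t, G s := by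
    intro t ht
    have h2 : f (ins j a (fun i => w i + a)) - f (ins j t (fun i => w i + t)) =
        - ∫ s in a..t, G s := hx' a t ⟨hca, by linarith⟩ ⟨hca.trans ht.1, ht.2⟩ ht.1.le
    linarith
  have hnhds : Ioo a (s + 1) ∈ nhds s := Ioo_mem_nhds has (by linarith)
  exact (hcont.continuousAt).congr (Filter.eventuallyEq_of_mem hnhds fun t ht => (heq t ht).symm)

/-- the hypothesis of module C -/
theorem jumpHyp (j : Fin (n + 1)) {f : E (n + 1) → ℝ} {g : E (n + 1) → E (n + 1)}
    (hf : Integrable f) (hg : Integrable g) (hw : IsWeakGradient f g) (hb : BlockDecreasing f) :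
    ∀ᵐ w : Fin n → ℝ, ∀ s, 0 < s → (∀ l, 0 < w l + s) → ∀ ε, 0 < ε →
      ∃ δ, 0 < δ ∧ δ < s ∧ (∀ l, δ < w l + s) ∧
        f (ins j (s - δ) (fun l => w l + (s - δ))) - f (ins j (s + δ) (fun l => w l + (s + δ))) ≤
          ε := by
  filter_upwards [B2 j hf hg hw hb] with w hw' s hs hws ε hε
  have hc := hw' s hs hws
  set F : ℝ → ℝ := fun s => f (ins j s (fun i => w i + s)) with hF
  have h1 : Tendsto (fun δ : ℝ => F (s - δ) - F (s + δ)) (𝓝 0) (𝓝 (F s - F s)) := by
    have a1 : Tendsto (fun δ : ℝ => s - δ) (𝓝 0) (𝓝 s) := by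
      have : Continuous (fun δ : ℝ => s - δ) := by fun_prop
      simpa using this.tendsto 0
    have a2 : Tendsto (fun δ : ℝ => s + δ) (𝓝 0) (𝓝 s) := by
      have : Continuous (fun δ : ℝ => s + δ) := by fun_prop
      simpa using this.tendsto 0
    exact (hc.tendsto.comp a1).sub (hc.tendsto.comp a2)
  rw [sub_self] at h1
  have h2 : ∀ᶠ δ : ℝ in 𝓝[>] 0, F (s - δ) - F (s + δ) < ε :=
    (h1.eventually (gt_mem_nhds hε)).filter_mono nhdsWithin_le_nhds
  have h3 : ∀ᶠ δ : ℝ in 𝓝[>] 0, δ < s := (gt_mem_nhds hs).filter_mono nhdsWithin_le_nhds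
  have h4 : ∀ᶠ δ : ℝ in 𝓝[>] 0, ∀ l, δ < w l + s := by
    rw [eventually_all]
    intro l
    exact (gt_mem_nhds (hws l)).filter_mono nhdsWithin_le_nhds
  have h5 : ∀ᶠ δ : ℝ in 𝓝[>] 0, 0 < δ := self_mem_nhdsWithin
  obtain ⟨δ, d2, d3, d4, d5⟩ := (h2.and (h3.and (h4.and h5))).exists
  exact ⟨δ, d5, d3, d4, d2.le⟩

theorem shf_ins (j : Fin (n + 1)) (t s : ℝ) (x : Fin n → ℝ) :
    shf (ins j t x) s = ins j (t + s) (fun l => x l + s) := by
  ext l
  rcases Fin.eq_self_or_eq_succAbove j l with h | ⟨k, h⟩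
  · subst h
    simp
  · subst h
    simp

/-- two-sided diagonal continuity at every point of almost every line -/
theorem diag (j : Fin (n + 1)) {f : E (n + 1) → ℝ} {g : E (n + 1) → E (n + 1)}
    (hf : Integrable f) (hg : Integrable g) (hw : IsWeakGradient f g) (hb : BlockDecreasing f) :
    ∀ᵐ x' : Fin n → ℝ, (∀ l, 0 < x' l) → ∀ t, 0 < t →
      Tendsto (fun s => f (shf (ins j t x') (-s))) (𝓝[>] 0) (𝓝 (f (ins j t x'))) ∧
      Tendsto (fun s => f (shf (ins j t x') s)) (𝓝[>] 0) (𝓝 (f (ins j t x'))) := by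
  filter_upwards [jump f hb j (jumpHyp j hf hg hw hb)] with x' hx hpos t ht
  have hJ := hx hpos t ht
  -- monotonicity along the diagonal
  have hmono : ∀ s s', -t < s → (∀ l, 0 < x' l + s) → s ≤ s' →
      f (shf (ins j t x') s') ≤ f (shf (ins j t x') s) := by
    intro s s' hs hl hss
    rw [shf_ins, shf_ins]
    apply hb
    apply insg_abs_le
    · rw [abs_of_pos (by linarith), abs_of_pos (by linarith)]
      linarith
    · intro i
      have := hl i
      rw [abs_of_pos this, abs_of_pos (by linarith)]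
      linarith
  have h0 : shf (ins j t x') 0 = ins j t x' := by
    ext l
    simp
  have key : ∀ ε, 0 < ε → ∃ δ, 0 < δ ∧ ∀ s, 0 < s → s ≤ δ →
      f (ins j t x') ≤ f (shf (ins j t x') (-s)) ∧
      f (shf (ins j t x') (-s)) ≤ f (ins j t x') + ε ∧
      f (shf (ins j t x') s) ≤ f (ins j t x') ∧
      f (ins j t x') - ε ≤ f (shf (ins j t x') s) := by
    intro ε hε
    obtain ⟨δ, d1, d2, d3, d4⟩ := hJ ε hε
    have e1 : f (ins j (t - δ) (fun l => x' l - δ)) = f (shf (ins j t x') (-δ)) := by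
      rw [shf_ins]
      rfl
    have e2 : f (ins j (t + δ) (fun l => x' l + δ)) = f (shf (ins j t x') δ) := by
      rw [shf_ins]
    rw [e1, e2] at d4
    refine ⟨δ, d1, fun s hs hsδ => ?_⟩
    have p1 := hmono (-s) 0 (by linarith) (fun l => by linarith [d3 l]) (by linarith)
    have p2 := hmono (-δ) (-s) (by linarith) (fun l => by linarith [d3 l]) (by linarith)
    have p3 := hmono 0 s (by linarith) (fun l => by linarith [hpos l]) (by linarith)
    have p4 := hmono s δ (by linarith) (fun l => by linarith [hpos l]) (by linarith)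
    rw [h0] at p1 p3
    refine ⟨p1, ?_, p3, ?_⟩ <;> linarith
  constructor
  · rw [Metric.tendsto_nhdsWithin_nhds]
    intro ε hε
    obtain ⟨δ, d1, hδ⟩ := key (ε / 2) (by positivity)
    refine ⟨δ, d1, fun s hs hd => ?_⟩
    rw [Real.dist_eq, sub_zero, abs_of_pos hs] at hd
    obtain ⟨q1, q2, q3, q4⟩ := hδ s hs hd.le
    rw [Real.dist_eq, abs_lt]
    constructor <;> linarith
  · rw [Metric.tendsto_nhdsWithin_nhds]
    intro ε hε
    obtain ⟨δ, d1, hδ⟩ := key (ε / 2) (by positivity)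
    refine ⟨δ, d1, fun s hs hd => ?_⟩
    rw [Real.dist_eq, sub_zero, abs_of_pos hs] at hd
    obtain ⟨q1, q2, q3, q4⟩ := hδ s hs hd.le
    rw [Real.dist_eq, abs_lt]
    constructor <;> linarith

/-- almost every line in direction `j` is good -/
theorem good (j : Fin (n + 1)) {f : E (n + 1) → ℝ} {g : E (n + 1) → E (n + 1)}
    (hf : Integrable f) (hg : Integrable g) (hw : IsWeakGradient f g) (hb : BlockDecreasing f) :
    ∀ᵐ x' : Fin n → ℝ, (Integrable (fun s => g (ins j s x') j) ∧ ∀ a b, 0 < a → a ≤ b →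
      f (ins j a x') - f (ins j b x') = - ∫ s in a..b, g (ins j s x') j) ∧
      ((∀ l, 0 < x' l) → ∀ t, 0 < t →
      Tendsto (fun s => f (shf (ins j t x') (-s))) (𝓝[>] 0) (𝓝 (f (ins j t x'))) ∧
      Tendsto (fun s => f (shf (ins j t x') s)) (𝓝[>] 0) (𝓝 (f (ins j t x')))) := by
  filter_upwards [B1 j hf hg hw hb, diag j hf hg hw hb] with x h1 h2
  exact ⟨h1, h2⟩

end P137.AC
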