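import Vale.Agent.P137.Up
import Vale.Agent.P137.WG

/-! P137, AC step, module H1: from the lines to the weak gradient. -/

open MeasureTheory ENNReal Set Filter Topology

namespace P137
namespace AC

/-- the `j`-th partial derivative, as an upper limit of difference quotients -/
noncomputable def Gj {n : ℕ} (u : E (n + 1) → ℝ) (j : Fin (n + 1)) (x : E (n + 1)) : ℝ :=
  limsup (fun k : ℕ => (1 / ((k : ℝ) + 1))⁻¹ *
    (u (x + (1 / ((k : ℝ) + 1)) • EuclideanSpace.single j (1 : ℝ)) - u x)) atTop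

theorem Gj_meas {n : ℕ} {u : E (n + 1) → ℝ} (hu : Measurable u) (j : Fin (n + 1)) :
    Measurable (Gj u j) := by
  unfold Gj
  refine Measurable.limsup fun k => ?_
  refine Measurable.const_mul ((hu.comp ?_).sub hu) _
  exact measurable_id.add_const _

theorem ins_shift {n : ℕ} (j : Fin (n + 1)) (t h : ℝ) (x' : Fin n → ℝ) :
    ins j t x' + h • EuclideanSpace.single j (1 : ℝ) = ins j (t + h) x' := by
  rw [up_add j t, up_add j (t + h), add_smul, add_assoc]

theorem Gj_eq {n : ℕ} (u : E (n + 1) → ℝ) (j : Fin (n + 1)) (x' : Fin n → ℝ) (t : ℝ)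
    (h : DifferentiableAt ℝ (fun t => u (ins j t x')) t) :
    Gj u j (ins j t x') = deriv (fun t => u (ins j t x')) t := by
  have h1 := h.hasDerivAt.tendsto_slope_zero
  have h2 : Tendsto (fun k : ℕ => 1 / ((k : ℝ) + 1)) atTop (𝓝[≠] 0) := by
    refine tendsto_nhdsWithin_iff.2 ⟨tendsto_one_div_add_atTop_nhds_zero_nat, ?_⟩
    refine Filter.Eventually.of_forall fun k => ?_
    have : (0 : ℝ) < 1 / ((k : ℝ) + 1) := by positivity
    exact this.ne'
  have h3 := h1.comp h2
  unfold Gj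
  refine Tendsto.limsup_eq (h3.congr fun k => ?_)
  simp only [Function.comp_apply, smul_eq_mul]
  rw [ins_shift]

theorem ins_contDiff {n : ℕ} (j : Fin (n + 1)) (x' : Fin n → ℝ) :
    ContDiff ℝ (⊤ : ℕ∞) (fun t : ℝ => ins j t x') := by
  have h1 : (fun t : ℝ => ins j t x') =
      fun t : ℝ => ins j 0 x' + t • EuclideanSpace.single j (1 : ℝ) := by
    funext t
    exact up_add j t x'
  rw [h1]
  exact contDiff_const.add (contDiff_id.smul contDiff_const)

theorem ins_supp {n : ℕ} (j : Fin (n + 1)) (x' : Fin n → ℝ) {ψ : E (n + 1) → ℝ}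
    (h : HasCompactSupport ψ) : HasCompactSupport (fun t : ℝ => ψ (ins j t x')) := by
  obtain ⟨R, hR⟩ := h.isCompact.isBounded.subset_closedBall (0 : E (n + 1))
  refine HasCompactSupport.intro (isCompact_closedBall (0 : ℝ) R) fun t ht => ?_
  by_contra hne
  have h9 : ins j t x' ∈ tsupport ψ := subset_tsupport _ hne
  have h10 := hR h9
  rw [mem_closedBall_zero_iff] at h10
  rw [mem_closedBall_zero_iff] at ht
  have := up_norm j t x'
  rw [Real.norm_eq_abs] at ht
  linarith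

theorem norm_le_sum {n : ℕ} (x : E n) : ‖x‖ ≤ ∑ i, |x i| := by
  rw [EuclideanSpace.norm_eq]
  have h0 : 0 ≤ ∑ i, |x i| := Finset.sum_nonneg fun i _ => abs_nonneg _
  rw [Real.sqrt_le_left h0]
  calc ∑ i, ‖x i‖ ^ 2 = ∑ i, |x i| ^ 2 := by simp
    _ ≤ (∑ i, |x i|) ^ 2 := Finset.sum_sq_le_sq_sum_of_nonneg fun i _ => abs_nonneg _

/-- **Module H1.** -/
theorem moduleH1 {n : ℕ} (u : E (n + 1) → ℝ) (hu : Measurable u) (hul : LocallyIntegrable u)
    (B : Fin (n + 1) → (Fin n → ℝ) → ℝ≥0∞) (hB : ∀ j, ∫⁻ x', B j x' ≠ ∞)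
    (hline : ∀ j, ∀ᵐ x' : Fin n → ℝ,
      (∀ᵐ t : ℝ, DifferentiableAt ℝ (fun t => u (ins j t x')) t) ∧
      (∫⁻ t : ℝ, ‖deriv (fun t => u (ins j t x')) t‖ₑ ≤ B j x') ∧
      (∀ φ : ℝ → ℝ, ContDiff ℝ (⊤ : ℕ∞) φ → HasCompactSupport φ →
        ∫ t, u (ins j t x') * deriv φ t = - ∫ t, deriv (fun t => u (ins j t x')) t * φ t)) :
    ∃ G : E (n + 1) → E (n + 1), Measurable G ∧ Integrable G ∧ IsWeakGradient u G ∧
      ∫⁻ x, ‖G x‖ₑ ≤ ∑ j, ∫⁻ x', B j x' := by
  -- each coordinate
  have hcoord : ∀ j, ∫⁻ x, ‖Gj u j x‖ₑ ≤ ∫⁻ x', B j x' := by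
    intro j
    rw [fub n j _ (Gj_meas hu j).enorm]
    refine lintegral_mono_ae ?_
    filter_upwards [hline j] with x' hx'
    refine le_trans (le_of_eq ?_) hx'.2.1
    refine lintegral_congr_ae ?_
    filter_upwards [hx'.1] with t ht
    rw [Gj_eq u j x' t ht]
  have hintj : ∀ j, Integrable (Gj u j) := fun j =>
    ⟨(Gj_meas hu j).aestronglyMeasurable, (hcoord j).trans_lt (hB j).lt_top⟩
  let G : E (n + 1) → E (n + 1) := fun x => WithLp.toLp 2 fun j => Gj u j x
  have hGm : Measurable G := by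
    refine (MeasurableEquiv.toLp 2 (Fin (n + 1) → ℝ)).measurable.comp ?_
    exact measurable_pi_iff.2 fun j => Gj_meas hu j
  have hGn : ∫⁻ x, ‖G x‖ₑ ≤ ∑ j, ∫⁻ x', B j x' := by
    calc ∫⁻ x, ‖G x‖ₑ ≤ ∫⁻ x, ∑ j, ‖Gj u j x‖ₑ := by
          refine lintegral_mono fun x => ?_
          have h1 := norm_le_sum (G x)
          have h2 : ‖G x‖ₑ = ENNReal.ofReal ‖G x‖ := (ofReal_norm_eq_enorm _).symm
          rw [h2]
          refine (ENNReal.ofReal_le_ofReal h1).trans (le_of_eq ?_)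
          rw [ENNReal.ofReal_sum_of_nonneg fun i _ => abs_nonneg _]
          refine Finset.sum_congr rfl fun j _ => ?_
          rw [← Real.norm_eq_abs, ofReal_norm_eq_enorm]
      _ = ∑ j, ∫⁻ x, ‖Gj u j x‖ₑ := lintegral_finsetSum _ fun j _ => (Gj_meas hu j).enorm
      _ ≤ _ := Finset.sum_le_sum fun j _ => hcoord j
  have hGint : Integrable G := by
    refine ⟨hGm.aestronglyMeasurable, hGn.trans_lt ?_⟩
    exact (ENNReal.sum_ne_top.2 fun j _ => hB j).lt_top
  refine ⟨G, hGm, hGint, ?_, hGn⟩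
  intro ψ h1 h2 j
  have hc := wg_cont h1 (EuclideanSpace.single j (1 : ℝ))
  have hs := wg_supp h2 (EuclideanSpace.single j (1 : ℝ))
  have hint : Integrable (fun x => u x * fderiv ℝ ψ x (EuclideanSpace.single j 1)) := by
    have h4 := hul.integrable_smul_left_of_hasCompactSupport hc hs
    refine h4.congr (Filter.Eventually.of_forall fun x => ?_)
    simp [mul_comm]
  have hint2 : Integrable (fun x => G x j * ψ x) := by
    have h4 := (hintj j).locallyIntegrable.integrable_smul_left_of_hasCompactSupport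
      h1.continuous h2
    refine h4.congr (Filter.Eventually.of_forall fun x => ?_)
    simp [G, mul_comm]
  rw [integral_fub j _ hint, integral_fub j _ hint2, ← integral_neg]
  refine integral_congr_ae ?_
  filter_upwards [hline j] with x' hx'
  have h5 := hx'.2.2 (fun t => ψ (ins j t x')) (h1.comp (ins_contDiff j x')) (ins_supp j x' h2)
  have h6 : ∀ t, deriv (fun t => ψ (ins j t x')) t =
      fderiv ℝ ψ (ins j t x') (EuclideanSpace.single j 1) := fun t =>
    (((h1.differentiable (by simp)) (ins j t x')).hasFDerivAt.comp_hasDerivAt t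
      (up_deriv j t x')).deriv
  simp only [h6] at h5
  rw [h5]
  congr 1
  refine integral_congr_ae ?_
  filter_upwards [hx'.1] with t ht
  change _ = Gj u j (ins j t x') * _
  rw [Gj_eq u j x' t ht]

end AC
end P137
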