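import Vale.Agent.P137.Main
import Vale.Agent.P137.Low

/-! P137, module H0: the plane bound. -/

open MeasureTheory ENNReal Set

namespace P137.AC

/-- H0: the integral of the maximal function over the hyperplane `x_j = 0`. -/
theorem plane (n : ℕ) : ∃ C : ℝ≥0∞, C ≠ ∞ ∧ ∀ f : E (n + 1) → ℝ, Measurable f →
    BlockDecreasing f → Integrable f → ∀ j : Fin (n + 1),
      ∫⁻ x : Fin n → ℝ, maxFun f (ins j 0 x) ≤ C * variation f := by
  obtain ⟨C1, hC1, hptw⟩ := ptw n
  obtain ⟨C2, hC2, hhint⟩ := hint n
  refine ⟨2 ^ n + C1 * ((n + 1) * (C2 * 2)), by finiteness, ?_⟩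
  intro f hfm hf hfi
  have hf0 : ∀ x, 0 ≤ f x := nn n f hf hfi
  set F : E (n + 1) → ℝ≥0∞ := fun y => ENNReal.ofReal (f y) with hFdef
  have hFe : ∀ y, ‖f y‖ₑ = F y := fun y => Real.enorm_eq_ofReal (hf0 y)
  have hFm : Measurable F := ENNReal.measurable_ofReal.comp hfm
  have hF : BD F := fun x y h => ENNReal.ofReal_le_ofReal (hf x y h)
  have hU : ∀ x, maxFun f x = ⨆ (r : ℝ) (_ : 0 < r), (∫⁻ y in Metric.ball x r, F y) /
      volume (Metric.ball x r) := by
    intro x
    unfold maxFun
    simp only [hFe]
  have hedge : ∀ j : Fin (n + 1), ∫⁻ x : Fin n → ℝ, edge F j x ≤ variation f := by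
    intro j
    refine le_trans ?_ (low n f hfm hf hf0 hfi j)
    exact le_mul_of_one_le_left' (by norm_num)
  · intro j
    have hHm : ∀ i : Fin (n + 1), i ≠ j → ∫⁻ x : Fin n → ℝ, H F i (ins j 0 x) ≤
        C2 * 2 * variation f := by
      intro i hij
      refine (hhint F hFm hF i j hij).trans ?_
      rw [mul_assoc]
      gcongr
      rw [two_mul]
      exact add_le_add (hedge i) (hedge j)
    calc ∫⁻ x : Fin n → ℝ, maxFun f (ins j 0 x)
        ≤ ∫⁻ x : Fin n → ℝ, (edge F j (fun i => x i / 2) +
            C1 * ∑ i ∈ Finset.univ.erase j, H F i (ins j 0 x)) := by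
          apply lintegral_mono_ae
          have : ∀ᵐ x : Fin n → ℝ, ∀ i, x i ≠ 0 := by
            rw [ae_all_iff]
            intro i
            rw [ae_iff]
            have := Measure.pi_hyperplane (fun _ : Fin n => (volume : Measure ℝ)) i 0
            rw [← volume_pi] at this
            simpa using this
          filter_upwards [this] with x hx
          rw [hU]
          apply iSup₂_le
          intro r hr
          exact hptw F hFm hF j x hx r hr
      _ = (∫⁻ x : Fin n → ℝ, edge F j (fun i => x i / 2)) +
            ∫⁻ x : Fin n → ℝ, C1 * ∑ i ∈ Finset.univ.erase j, H F i (ins j 0 x) := by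
          apply lintegral_add_left
          apply (measurable_edge hFm j).comp
          fun_prop
      _ ≤ 2 ^ n * variation f + C1 * ((n + 1) * (C2 * 2 * variation f)) := by
          rw [lintegral_half (measurable_edge hFm j), lintegral_const_mul' _ _ hC1]
          gcongr
          · exact hedge j
          · have hsum : ∫⁻ x : Fin n → ℝ, ∑ i ∈ Finset.univ.erase j, H F i (ins j 0 x) ≤
                ∑ i ∈ Finset.univ.erase j, ∫⁻ x : Fin n → ℝ, H F i (ins j 0 x) := by
              rw [lintegral_finsetSum]
              intro i _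
              exact (measurable_H hFm i).comp (measurable_ins_right j 0)
            refine hsum.trans ?_
            calc ∑ i ∈ Finset.univ.erase j, ∫⁻ x : Fin n → ℝ, H F i (ins j 0 x)
                ≤ ∑ i ∈ Finset.univ.erase j, C2 * 2 * variation f :=
                  Finset.sum_le_sum fun i hi => hHm i (Finset.ne_of_mem_erase hi)
              _ ≤ ∑ i : Fin (n + 1), C2 * 2 * variation f :=
                  Finset.sum_le_sum_of_subset (Finset.erase_subset _ _)
              _ = _ := by
                  rw [Finset.sum_const, Finset.card_univ, Fintype.card_fin, nsmul_eq_mul]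
                  push_cast
                  ring
      _ = _ := by ring

end P137.AC
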