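import Vale.Agent.P137.AC.H1
import Vale.Agent.P137.AC.G
import Vale.Agent.P137.AC.HParts
import Vale.Agent.P137.AC.Plane
import Vale.Agent.P137.Ball
import Vale.Agent.P137.Meas

/-!
P137, module H: from continuity and Lusin's property on almost every line to the weak gradient.
-/

open MeasureTheory ENNReal Set Filter Topology

namespace P137

theorem hp_diff {w : ℝ → ℝ} (hm : ∀ s t, |s| ≤ |t| → w t ≤ w s) :
    ∀ᵐ t : ℝ, DifferentiableAt ℝ w t := by
  have h1 : MonotoneOn (fun t => - w t) (Ioi 0) := by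
    intro s hs t ht hst
    exact neg_le_neg (hp_anti hm (Ioi_subset_Ici_self hs) (Ioi_subset_Ici_self ht) hst)
  have h2 : MonotoneOn w (Iio 0) := by
    intro s hs t ht hst
    apply hm
    rw [mem_Iio] at hs ht
    rw [abs_of_neg hs, abs_of_neg ht]
    linarith
  have e1 := h1.ae_differentiableWithinAt measurableSet_Ioi
  have e2 := h2.ae_differentiableWithinAt measurableSet_Iio
  rw [ae_restrict_iff' measurableSet_Ioi] at e1
  rw [ae_restrict_iff' measurableSet_Iio] at e2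
  have e3 : ∀ᵐ t : ℝ, t ≠ 0 := Measure.ae_ne volume 0
  filter_upwards [e1, e2, e3] with t ht1 ht2 ht3
  rcases lt_or_gt_of_ne ht3 with h | h
  · exact (ht2 h).differentiableAt (Iio_mem_nhds h)
  · have := (ht1 h).differentiableAt (Ioi_mem_nhds h)
    simpa using this.neg

/-- **Module H.** -/
theorem from_line {n : ℕ} {U : E (n + 1) → ℝ≥0∞} (hU : Measurable U) (hB : BD U)
    (hfin : ∀ j : Fin (n + 1), ∫⁻ x : Fin n → ℝ, U (ins j 0 x) ≠ ∞)
    (hline : ∀ j : Fin (n + 1), ∀ᵐ x : Fin n → ℝ,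
      ContinuousOn (fun t => (U (ins j t x)).toReal) (Ioi 0) ∧
      ∀ S : Set ℝ, S ⊆ Ioi 0 → volume S = 0 →
        volume ((fun t => (U (ins j t x)).toReal) '' S) = 0) :
    ∃ G : E (n + 1) → E (n + 1), Measurable G ∧ Integrable G ∧
      IsWeakGradient (fun x => (U x).toReal) G ∧
      ∫⁻ x, ‖G x‖ₑ ≤ ∑ j, 2 * ∫⁻ x : Fin n → ℝ, U (ins j 0 x) := by
  have hmU : ∀ j : Fin (n + 1), Measurable (fun x : Fin n → ℝ => U (ins j 0 x)) := fun j =>
    hU.comp (measurable_ins_right j 0)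
  have e0 : ∀ j : Fin (n + 1), ∫⁻ x : Fin n → ℝ, 2 * U (ins j 0 x) =
      2 * ∫⁻ x : Fin n → ℝ, U (ins j 0 x) := fun j => lintegral_const_mul 2 (hmU j)
  have key := AC.moduleH1 (fun x => (U x).toReal) hU.ennreal_toReal (up_loc hU hB (hfin 0))
    (fun j x => 2 * U (ins j 0 x)) (fun j => by
      rw [e0 j]
      exact ENNReal.mul_ne_top (by norm_num) (hfin j)) (by
      intro j
      have h5 : ∀ᵐ x : Fin n → ℝ, U (ins j 0 x) < ∞ := ae_lt_top (hmU j) (hfin j)
      filter_upwards [h5, hline j] with x hx hl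
      have hf : ∀ t : ℝ, U (ins j t x) ≠ ∞ := fun t =>
        ne_top_of_le_ne_top hx.ne (hB _ _ (up_abs j x (by simp)))
      have h0 : ∀ t : ℝ, 0 ≤ (U (ins j t x)).toReal := fun t => ENNReal.toReal_nonneg
      have hm : ∀ s t : ℝ, |s| ≤ |t| → (U (ins j t x)).toReal ≤ (U (ins j s x)).toReal :=
        fun s t hst => ENNReal.toReal_mono (hf s) (hB _ _ (up_abs j x hst))
      have hanti : AntitoneOn (fun t => (U (ins j t x)).toReal) (Ioi 0) :=
        (hp_anti hm).mono Ioi_subset_Ici_self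
      have hAC : ∀ a b : ℝ, 0 < a → a ≤ b →
          AbsolutelyContinuousOnInterval (fun t => (U (ins j t x)).toReal) a b :=
        fun a b ha hab => AC.ac_anti hanti hl.1 hl.2 ha hab
      refine ⟨hp_diff hm, ?_, ?_⟩
      · have h6 := hp_int h0 hm hAC
        rwa [ENNReal.ofReal_toReal (hf 0)] at h6
      · intro φ h1 h2
        exact hp_parts h0 hm hAC (h1.of_le (by simp)) h2)
  obtain ⟨G, g1, g2, g3, g4⟩ := key
  refine ⟨G, g1, g2, g3, ?_⟩
  simp_rw [e0] at g4
  exact g4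

end P137
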