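import Vale.Agent.P137.AC.Good
import Vale.Agent.P137.AC.D2
import Vale.Agent.P137.AC.LUS
import Vale.Agent.P137.AC.ABS
import Vale.Agent.P137.AC.GLine
import Vale.Agent.P137.AC.F
import Vale.Agent.P137.AC.H1
import Vale.Agent.P137.AC.Plane
import Vale.Agent.P137.Main
import Vale.Agent.P137.Ball
import Vale.Agent.P137.Meas
import Vale.Agent.P137.Low
import Vale.Agent.P137.Up
import Vale.Agent.P137.WG

/-! P137, AC: the maximal function on almost every line, and the weak gradient. -/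

open MeasureTheory ENNReal Set Filter
open scoped Topology

namespace P137.AC

/-- a good line with positive coordinates. -/
theorem line_pos {n : ℕ} (f : E (n + 1) → ℝ) (g : E (n + 1) → E (n + 1)) (hfm : Measurable f)
    (h0 : ∀ x, 0 ≤ f x) (hb : BlockDecreasing f) (hfi : Integrable f) (j : Fin (n + 1))
    (hN : ∫⁻ x', edge (fun y => ENNReal.ofReal (f y)) j x' ≠ ∞) (hBD : BD (maxFun f))
    (x' : Fin n → ℝ) (hx : ∀ i, 0 < x' i) (hfin : maxFun f (ins j 0 x') ≠ ∞)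
    (hgood : (Integrable (fun s => g (ins j s x') j) ∧ ∀ a b, 0 < a → a ≤ b →
      f (ins j a x') - f (ins j b x') = - ∫ s in a..b, g (ins j s x') j) ∧
      ((∀ l, 0 < x' l) → ∀ t, 0 < t →
      Tendsto (fun s => f (shf (ins j t x') (-s))) (𝓝[>] 0) (𝓝 (f (ins j t x'))) ∧
      Tendsto (fun s => f (shf (ins j t x') s)) (𝓝[>] 0) (𝓝 (f (ins j t x'))))) :
    (∀ᵐ t : ℝ, DifferentiableAt ℝ (fun t => M f (ins j t x')) t) ∧
    (∫⁻ t : ℝ, ‖deriv (fun t => M f (ins j t x')) t‖ₑ ≤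
      2 * ENNReal.ofReal (M f (ins j 0 x'))) ∧
    (∀ φ : ℝ → ℝ, ContDiff ℝ (⊤ : ℕ∞) φ → HasCompactSupport φ →
      ∫ t, M f (ins j t x') * deriv φ t = - ∫ t, deriv (fun t => M f (ins j t x')) t * φ t) := by
  have habs : ∀ s t : ℝ, |s| ≤ |t| → ∀ i, |ins j s x' i| ≤ |ins j t x' i| := by
    intro s t hst i
    rcases Fin.eq_self_or_eq_succAbove j i with rfl | ⟨l, rfl⟩
    · rw [ins_same, ins_same]
      exact hst
    · rw [ins_succAbove, ins_succAbove]
  have hmono : ∀ s t : ℝ, |s| ≤ |t| → maxFun f (ins j t x') ≤ maxFun f (ins j s x') :=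
    fun s t hst => hBD _ _ (habs s t hst)
  have hfinT : ∀ t : ℝ, maxFun f (ins j t x') ≠ ∞ := fun t =>
    ne_top_of_le_ne_top hfin (hmono 0 t (by simp))
  have hD : ∀ δ : ℝ, 0 < δ → (∀ x, truncM f δ x ≠ ∞) ∧
      (∃ K : NNReal, ∀ x' : Fin n → ℝ,
        LipschitzWith K (fun t : ℝ => (truncM f δ (ins j t x')).toReal)) ∧
      ∀ x' : Fin n → ℝ, Continuous (fun t : ℝ => truncM f δ (ins j t x')) :=
    fun δ hδ => moduleD f hfm h0 hb hfi j hN hδ
  obtain ⟨hE1, hE2, hE3⟩ := moduleE f h0 hb j x' hx (fun t ht => (hgood.2 hx t ht).1)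
    (fun t ht => (hgood.2 hx t ht).2) (fun δ hδ => ((hD δ hδ).2.2 x').continuousOn)
  apply line
  · intro t
    exact ENNReal.toReal_nonneg
  · intro s t hst
    exact ENNReal.toReal_mono (hfinT s) (hmono s t hst)
  · intro t ht
    exact (ENNReal.tendsto_toReal (hfinT t)).comp (hE2 t ht)
  · apply lusin_of_dich (F := fun t => f (ins j t x'))
      (v := fun k t => (truncM f (1 / ((k : ℝ) + 1)) (ins j t x')).toReal)
    · exact F.thm _ _ hgood.1.1 hgood.1.2
    · intro k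
      obtain ⟨K, hK⟩ := (hD (1 / ((k : ℝ) + 1)) (by positivity)).2.1
      exact ⟨K, hK x'⟩
    · intro t ht
      rcases hE3 t ht with ⟨k, hk⟩ | hk
      · right
        exact ⟨k, by show (maxFun f (ins j t x')).toReal = _; rw [hk]⟩
      · left
        show (maxFun f (ins j t x')).toReal = _
        rw [hk, ENNReal.toReal_ofReal (h0 _)]

/-- the line statement for almost every `x'`. -/
theorem line_ae {n : ℕ} (f : E (n + 1) → ℝ) (g : E (n + 1) → E (n + 1)) (hfm : Measurable f)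
    (hb : BlockDecreasing f) (hfi : Integrable f) (hg : Integrable g) (hw : IsWeakGradient f g)
    (hBD : BD (maxFun f)) (j : Fin (n + 1)) (hfin : ∫⁻ x', maxFun f (ins j 0 x') ≠ ∞)
    (hN : ∫⁻ x', edge (fun y => ENNReal.ofReal (f y)) j x' ≠ ∞) :
    ∀ᵐ x' : Fin n → ℝ,
      (∀ᵐ t : ℝ, DifferentiableAt ℝ (fun t => M f (ins j t x')) t) ∧
      (∫⁻ t : ℝ, ‖deriv (fun t => M f (ins j t x')) t‖ₑ ≤ 2 * maxFun f (ins j 0 x')) ∧
      (∀ φ : ℝ → ℝ, ContDiff ℝ (⊤ : ℕ∞) φ → HasCompactSupport φ →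
        ∫ t, M f (ins j t x') * deriv φ t =
          - ∫ t, deriv (fun t => M f (ins j t x')) t * φ t) := by
  have h0 : ∀ x, 0 ≤ f x := nn n f hb hfi
  have hmeas : Measurable (fun x' : Fin n → ℝ => maxFun f (ins j 0 x')) :=
    (meas _ f hfm).comp (measurable_ins_right j 0)
  have hf1 : ∀ᵐ x' : Fin n → ℝ, maxFun f (ins j 0 x') ≠ ∞ := by
    filter_upwards [ae_lt_top hmeas hfin] with x hx
    exact hx.ne
  set P : (Fin n → ℝ) → Prop := fun x' =>
      (∀ᵐ t : ℝ, DifferentiableAt ℝ (fun t => M f (ins j t x')) t) ∧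
      (∫⁻ t : ℝ, ‖deriv (fun t => M f (ins j t x')) t‖ₑ ≤ 2 * maxFun f (ins j 0 x')) ∧
      (∀ φ : ℝ → ℝ, ContDiff ℝ (⊤ : ℕ∞) φ → HasCompactSupport φ →
        ∫ t, M f (ins j t x') * deriv φ t =
          - ∫ t, deriv (fun t => M f (ins j t x')) t * φ t) with hP
  have hpos : ∀ᵐ x' : Fin n → ℝ, (∀ i, 0 < x' i) → P x' := by
    filter_upwards [hf1, good j hfi hg hw hb] with x' h1 h2 hx
    obtain ⟨a, b, c⟩ := line_pos f g hfm h0 hb hfi j hN hBD x' hx h1 h2
    refine ⟨a, ?_, c⟩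
    refine b.trans ?_
    unfold M
    rw [ENNReal.ofReal_toReal h1]
  filter_upwards [ae_abs hpos] with x' hx'
  have he : ∀ t, maxFun f (ins j t x') = maxFun f (ins j t (fun i => |x' i|)) := fun t =>
    ins_abs hBD j t x'
  have he' : ∀ t, M f (ins j t x') = M f (ins j t (fun i => |x' i|)) := fun t => by
    unfold M
    rw [he t]
  simp only [hP] at hx' ⊢
  simp only [he', he]
  exact hx'

/-- MAIN: the weak gradient of the maximal function. -/
theorem weakGradient (n : ℕ) : ∃ C : ℝ≥0∞, C ≠ ∞ ∧ ∀ (f : E (n + 1) → ℝ)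
    (g : E (n + 1) → E (n + 1)), Measurable f → BlockDecreasing f → Integrable f →
    Integrable g → IsWeakGradient f g →
    (∀ᵐ x, maxFun f x ≠ ∞) ∧ LocallyIntegrable (M f) ∧
    ∃ G : E (n + 1) → E (n + 1), Measurable G ∧ Integrable G ∧ IsWeakGradient (M f) G ∧
      ∫⁻ x, ‖G x‖ₑ ≤ C * ∫⁻ x, ‖g x‖ₑ := by
  obtain ⟨C, hC, hplane⟩ := plane n
  obtain ⟨C', hC', hmain⟩ := mainThm ball meas low up n
  refine ⟨2 * ((n + 1) * C), by finiteness, ?_⟩
  intro f g hfm hb hfi hg hw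
  have h0 : ∀ x, 0 ≤ f x := nn n f hb hfi
  have hV : variation f ≤ ∫⁻ x, ‖g x‖ₑ := wg (n + 1) f g hfi hg hw
  have hVf : variation f ≠ ∞ := ne_top_of_le_ne_top hg.hasFiniteIntegral.ne hV
  obtain ⟨m1, hBD, m2, m3⟩ := hmain f hfm hb hfi hVf
  have hfin : ∀ j, ∫⁻ x', maxFun f (ins j 0 x') ≠ ∞ := fun j =>
    ne_top_of_le_ne_top (ENNReal.mul_ne_top hC hVf) (hplane f hfm hb hfi j)
  have hN : ∀ j, ∫⁻ x', edge (fun y => ENNReal.ofReal (f y)) j x' ≠ ∞ := by
    intro j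
    refine ne_top_of_le_ne_top hVf (le_trans ?_ (low n f hfm hb h0 hfi j))
    exact le_mul_of_one_le_left' (by norm_num)
  refine ⟨m1, m2, ?_⟩
  have hMm : Measurable (M f) := (meas _ f hfm).ennreal_toReal
  have hB2 : ∀ j, ∫⁻ x', 2 * maxFun f (ins j 0 x') = 2 * ∫⁻ x', maxFun f (ins j 0 x') := fun j =>
    lintegral_const_mul _ ((meas _ f hfm).comp (measurable_ins_right j 0))
  obtain ⟨G, hG1, hG2, hG3, hG4⟩ := moduleH1 (M f) hMm m2
    (fun j x' => 2 * maxFun f (ins j 0 x'))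
    (fun j => by rw [hB2]; exact ENNReal.mul_ne_top (by finiteness) (hfin j))
    (fun j => line_ae f g hfm hb hfi hg hw hBD j (hfin j) (hN j))
  refine ⟨G, hG1, hG2, hG3, hG4.trans ?_⟩
  calc ∑ j, ∫⁻ x', 2 * maxFun f (ins j 0 x') ≤ ∑ _j : Fin (n + 1), 2 * (C * variation f) := by
        apply Finset.sum_le_sum
        intro j _
        rw [hB2]
        gcongr
        exact hplane f hfm hb hfi j
    _ = 2 * ((n + 1) * C) * variation f := by
        rw [Finset.sum_const, Finset.card_univ, Fintype.card_fin, nsmul_eq_mul]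
        push_cast
        ring
    _ ≤ _ := by gcongr

end P137.AC
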