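import Vale.Agent.P137.Fub
import Vale.Agent.P137.WG

/-! P137, AC module B: slices of a function with integrable weak gradient, straight and sheared. -/

open MeasureTheory ENNReal Set

namespace P137.AC

/-- `Gam` is the weak derivative of `Phi` in the first variable (both integrable). -/
def IsSlice {n : ℕ} (Phi Gam : ℝ × (Fin n → ℝ) → ℝ) : Prop :=
  Integrable Phi ∧ Integrable Gam ∧ ∀ φ : ℝ × (Fin n → ℝ) → ℝ, ContDiff ℝ (⊤ : ℕ∞) φ →
    HasCompactSupport φ → ∫ z, Phi z * fderiv ℝ φ z (1, 0) = - ∫ z, Gam z * φ z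

/-- General change of variables. -/
theorem slice_of_equiv {n : ℕ} (T : (ℝ × (Fin n → ℝ)) ≃L[ℝ] E (n + 1))
    (hT : MeasurePreserving T volume volume) {f : E (n + 1) → ℝ} {g : E (n + 1) → E (n + 1)}
    (hf : Integrable f) (hg : Integrable g) (hw : IsWeakGradient f g) :
    IsSlice (fun z => f (T z)) (fun z => ∑ l, T (1, 0) l * g (T z) l) := by
  have hemb : MeasurableEmbedding T := T.toHomeomorph.measurableEmbedding
  have hgi : ∀ i, Integrable (fun x => g x i) := fun i =>
    (EuclideanSpace.proj (𝕜 := ℝ) i).integrable_comp hg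
  have hsum : Integrable (fun x => ∑ l, T (1, 0) l * g x l) := by
    apply integrable_finsetSum
    intro l _
    exact (hgi l).const_mul _
  refine ⟨(hT.integrable_comp_emb hemb).mpr hf, (hT.integrable_comp_emb hemb).mpr hsum, ?_⟩
  intro φ h1 h2
  set ψ : E (n + 1) → ℝ := φ ∘ T.symm with hψ
  have p1 : ContDiff ℝ (⊤ : ℕ∞) ψ := h1.comp T.symm.contDiff
  have p2 : HasCompactSupport ψ := h2.comp_homeomorph T.symm.toHomeomorph
  have hfd : ∀ x, fderiv ℝ φ (T.symm x) (1, 0) = fderiv ℝ ψ x (T (1, 0)) := by
    intro x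
    rw [hψ, T.symm.comp_right_fderiv]
    simp
  have e1 : ∫ z, f (T z) * fderiv ℝ φ z (1, 0) = ∫ x, f x * fderiv ℝ ψ x (T (1, 0)) := by
    rw [← hT.integral_comp hemb (fun x => f x * fderiv ℝ ψ x (T (1, 0)))]
    apply integral_congr_ae
    refine Filter.Eventually.of_forall fun z => ?_
    simp only
    rw [← hfd (T z)]
    simp
  have e2 : ∫ z, (∑ l, T (1, 0) l * g (T z) l) * φ z =
      ∫ x, (∑ l, T (1, 0) l * g x l) * ψ x := by
    rw [← hT.integral_comp hemb (fun x => (∑ l, T (1, 0) l * g x l) * ψ x)]
    apply integral_congr_ae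
    refine Filter.Eventually.of_forall fun z => ?_
    simp [hψ]
  rw [e1, e2]
  have e3 : ∀ x, f x * fderiv ℝ ψ x (T (1, 0)) =
      ∑ l, T (1, 0) l * (f x * fderiv ℝ ψ x (EuclideanSpace.single l 1)) := by
    intro x
    have : T (1, 0) = ∑ l, T (1, 0) l • (EuclideanSpace.single l 1 : E (n + 1)) := by
      ext i
      simp [Finset.sum_apply, Pi.single_apply]
    conv_lhs => rw [this]
    rw [map_sum, Finset.mul_sum]
    refine Finset.sum_congr rfl fun l _ => ?_
    rw [map_smul, smul_eq_mul]
    ring
  have e4 : ∀ x, (∑ l, T (1, 0) l * g x l) * ψ x = ∑ l, T (1, 0) l * (g x l * ψ x) := by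
    intro x
    rw [Finset.sum_mul]
    refine Finset.sum_congr rfl fun l _ => ?_
    ring
  simp_rw [e3, e4]
  rw [integral_finsetSum, integral_finsetSum, ← Finset.sum_neg_distrib]
  · refine Finset.sum_congr rfl fun l _ => ?_
    rw [integral_const_mul, integral_const_mul, hw ψ p1 p2 l]
    ring
  · intro l _
    exact (wg_int1 (hgi l) p1.continuous p2).const_mul _
  · intro l _
    exact (wg_int1 hf (wg_cont p1 _) (wg_supp p2 _)).const_mul _

/-- `(t, x) ↦ ins j t x` as a continuous linear equivalence. -/
noncomputable def insL {n : ℕ} (j : Fin (n + 1)) : (ℝ × (Fin n → ℝ)) ≃L[ℝ] E (n + 1) :=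
  LinearEquiv.toContinuousLinearEquiv
    { toFun := fun p => ins j p.1 p.2
      invFun := fun x => (x j, fun i => x (j.succAbove i))
      map_add' := by
        intro p q
        ext i
        refine Fin.succAboveCases j ?_ (fun i => ?_) i <;> simp
      map_smul' := by
        intro c p
        ext i
        refine Fin.succAboveCases j ?_ (fun i => ?_) i <;> simp
      left_inv := by
        intro p
        simp
      right_inv := by
        intro x
        ext i
        refine Fin.succAboveCases j ?_ (fun i => ?_) i <;> simp }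

lemma insL_apply {n : ℕ} (j : Fin (n + 1)) (p : ℝ × (Fin n → ℝ)) :
    insL j p = ins j p.1 p.2 := rfl

lemma measurePreserving_insL {n : ℕ} (j : Fin (n + 1)) :
    MeasurePreserving (insL j) (volume : Measure (ℝ × (Fin n → ℝ))) volume :=
  measurePreserving_insEquiv j

/-- the shear `(s, w) ↦ (s, w + s 1)`. -/
noncomputable def shearL (n : ℕ) : (ℝ × (Fin n → ℝ)) ≃L[ℝ] (ℝ × (Fin n → ℝ)) :=
  LinearEquiv.toContinuousLinearEquiv
    { toFun := fun p => (p.1, fun i => p.2 i + p.1)
      invFun := fun p => (p.1, fun i => p.2 i - p.1)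
      map_add' := by
        intro p q
        ext i
        · simp
        · simp; ring
      map_smul' := by
        intro c p
        ext i
        · simp
        · simp; ring
      left_inv := by
        intro p
        ext i <;> simp
      right_inv := by
        intro p
        ext i <;> simp }

lemma shearL_apply {n : ℕ} (p : ℝ × (Fin n → ℝ)) :
    shearL n p = (p.1, fun i => p.2 i + p.1) := rfl

lemma measurePreserving_shearL (n : ℕ) :
    MeasurePreserving (shearL n) (volume : Measure (ℝ × (Fin n → ℝ))) volume := by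
  have h : MeasurePreserving (fun p : ℝ × (Fin n → ℝ) => (id p.1, (fun i => p.2 i + p.1)))
      ((volume : Measure ℝ).prod (volume : Measure (Fin n → ℝ)))
      ((volume : Measure ℝ).prod (volume : Measure (Fin n → ℝ))) := by
    refine MeasurePreserving.skew_product
      (g := fun (s : ℝ) (w : Fin n → ℝ) => (fun i => w i + s : Fin n → ℝ))
      (MeasurePreserving.id _) ?_ ?_
    · exact measurable_pi_lambda _ (fun i => by fun_prop)
    · refine Filter.Eventually.of_forall fun s => ?_
      exact (measurePreserving_add_right (volume : Measure (Fin n → ℝ)) (fun _ => s)).map_eq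
  exact h

/-- Module B, straight slices. -/
theorem slice_straight {n : ℕ} (j : Fin (n + 1)) {f : E (n + 1) → ℝ}
    {g : E (n + 1) → E (n + 1)} (hf : Integrable f) (hg : Integrable g)
    (hw : IsWeakGradient f g) :
    IsSlice (fun z : ℝ × (Fin n → ℝ) => f (ins j z.1 z.2))
      (fun z => g (ins j z.1 z.2) j) := by
  have h := slice_of_equiv (insL j) (measurePreserving_insL j) hf hg hw
  have h1 : ∀ z : ℝ × (Fin n → ℝ), ∑ l, insL j (1, 0) l * g (insL j z) l =
      g (ins j z.1 z.2) j := by
    intro z
    rw [Fin.sum_univ_succAbove _ j]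
    simp [insL_apply]
  simp_rw [h1] at h
  exact h

/-- Module B, slices along the diagonal. -/
theorem slice_shear {n : ℕ} (j : Fin (n + 1)) {f : E (n + 1) → ℝ}
    {g : E (n + 1) → E (n + 1)} (hf : Integrable f) (hg : Integrable g)
    (hw : IsWeakGradient f g) :
    IsSlice (fun z : ℝ × (Fin n → ℝ) => f (ins j z.1 (fun i => z.2 i + z.1)))
      (fun z => ∑ l, g (ins j z.1 (fun i => z.2 i + z.1)) l) := by
  have h := slice_of_equiv ((shearL n).trans (insL j))
    ((measurePreserving_insL j).comp (measurePreserving_shearL n)) hf hg hw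
  have h1 : ∀ z : ℝ × (Fin n → ℝ), ∑ l, ((shearL n).trans (insL j)) (1, 0) l *
      g (((shearL n).trans (insL j)) z) l =
      ∑ l, g (ins j z.1 (fun i => z.2 i + z.1)) l := by
    intro z
    refine Finset.sum_congr rfl fun l _ => ?_
    have h2 : ((shearL n).trans (insL j)) (1, 0) l = 1 := by
      rw [ContinuousLinearEquiv.trans_apply, shearL_apply, insL_apply]
      refine Fin.succAboveCases j ?_ (fun i => ?_) l <;> simp
    rw [h2, one_mul]
    rfl
  simp_rw [h1] at h
  exact h

end P137.AC
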